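import Vale.Agent.P181.S.CDefs

namespace Vale.Agent.P181.S

theorem cond_rec {α : Type} (c : Bool) (a b : α) :
    cond c a b = Bool.rec (motive := fun _ => α) b a c := by cases c <;> rfl

theorem and_rec (a b : Bool) : and a b = Bool.rec (motive := fun _ => Bool) false b a := by
  cases a <;> rfl

theorem blt_ble (a b : Nat) : Nat.blt a b = Nat.ble (Nat.succ a) b := rfl

noncomputable def negF (e : Ent) : Ent :=
  Ent.rec (motive := fun _ => Ent) (fun n s m => Bool.rec (motive := fun _ => _) (Ent.mk n true m) (Ent.mk n false m) s) e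

theorem negF_eq : @neg = @negF := by
  delta neg negF
  simp only [cond_rec, and_rec, blt_ble]

noncomputable def sl2F (t : Tb) (a b c : Nat) : Ent :=
  Bool.rec (motive := fun _ => _) (Bool.rec (motive := fun _ => _) (Bool.rec (motive := fun _ => _) (Bool.rec (motive := fun _ => _) (look t b c a) zer (Nat.beq a c)) (negF (look t b a c)) (Nat.ble (Nat.succ c) a)) zer (Nat.beq a b)) (look t a b c) (Nat.ble (Nat.succ b) a)

theorem sl2F_eq : @sl2 = @sl2F := by
  delta sl2 sl2F
  simp only [cond_rec, and_rec, blt_ble, negF_eq]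

noncomputable def slF (t : Tb) (N a b c : Nat) : Ent :=
  Bool.rec (motive := fun _ => _) zer (Bool.rec (motive := fun _ => _) (Bool.rec (motive := fun _ => _) (negF (sl2F t a c b)) zer (Nat.beq b c)) (sl2F t a b c) (Nat.ble (Nat.succ c) b)) (Nat.ble (Nat.add (Nat.add a b) c) N)

theorem slF_eq : @sl = @slF := by
  delta sl slF
  simp only [cond_rec, and_rec, blt_ble, negF_eq, sl2F_eq]

noncomputable def stpF (nt : Nat) (e : Ent) (acc : Acc) : Acc :=
  Acc.rec (motive := fun _ => Acc) (fun ok p q => Ent.rec (motive := fun _ => Acc) (fun n s m => Bool.rec (motive := fun _ => _) (Bool.rec (motive := fun _ => _) (Acc.mk (Bool.rec (motive := fun _ => Bool) false ok (Nat.ble nt n)) p (Nat.add q m)) (Acc.mk (Bool.rec (motive := fun _ => Bool) false ok (Nat.ble nt n)) (Nat.add p m) q) s) (Acc.mk (Bool.rec (motive := fun _ => Bool) false ok (Nat.ble nt n)) p q) (Nat.beq m 0)) e) acc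

theorem stpF_eq : @stp = @stpF := by
  delta stp stpF
  simp only [cond_rec, and_rec, blt_ble]

noncomputable def mnF (a b : Nat) : Nat :=
  Bool.rec (motive := fun _ => _) b a (Nat.ble a b)

theorem mnF_eq : @mn = @mnF := by
  delta mn mnF
  simp only [cond_rec, and_rec, blt_ble]

noncomputable def lay5F (t : Tb) (N nt j i f4 f5 c : Nat) (acc6 : Acc) : Acc :=
  Nat.rec (motive := fun _ => Acc) acc6 (fun m5 acc5 => Bool.rec (motive := fun _ => _) acc5 (frc (Nat.sub f5 (Nat.mul j m5)) fun b => frc (Nat.sub f4 (Nat.mul j (Nat.sub i m5))) fun a => stpF nt (slF t N a b c) acc5) (Nat.ble (Nat.mul j (Nat.sub i m5)) f4)) (Nat.succ (mnF i (Nat.div f5 j)))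

theorem lay5F_eq : @lay5 = @lay5F := by
  delta lay5 lay5F
  simp only [cond_rec, and_rec, blt_ble, slF_eq, stpF_eq, mnF_eq]

noncomputable def layF (t : Tb) (N nt j i f4 f5 f6 : Nat) : Acc :=
  Nat.rec (motive := fun _ => Acc) (Acc.mk true 0 0) (fun m6 acc6 => frc (Nat.sub f6 (Nat.mul j m6)) fun c => lay5F t N nt j (Nat.sub i m6) f4 f5 c acc6) (Nat.succ (mnF i (Nat.div f6 j)))

theorem layF_eq : @lay = @layF := by
  delta lay layF
  simp only [cond_rec, and_rec, blt_ble, mnF_eq, lay5F_eq]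

noncomputable def ppF (w R n j r : Nat) : Nat :=
  Nat.rec (motive := fun _ => Nat) 0 (fun m3 a => Bool.rec (motive := fun _ => _) a (jn (Nat.mul (Nat.mul w R) (Nat.mul j m3)) a (geo (Nat.mul w j) (Nat.sub r m3))) (Nat.ble (Nat.succ (Nat.mul j m3)) n)) (Nat.succ r)

theorem ppF_eq : @pp = @ppF := by
  delta pp ppF
  simp only [cond_rec, and_rec, blt_ble]

noncomputable def cmbF (P mask : Nat) (l acc : Acc) : Acc :=
  Acc.rec (motive := fun _ => Acc) (fun ok p q => Acc.rec (motive := fun _ => Acc) (fun ok' p' q' => Bool.rec (motive := fun _ => _) (Bool.rec (motive := fun _ => _) (Acc.mk (Bool.rec (motive := fun _ => Bool) false ok ok') p (Nat.add q (Nat.mul P (Nat.land (Nat.sub q' p') mask)))) (Acc.mk (Bool.rec (motive := fun _ => Bool) false ok ok') (Nat.add p (Nat.mul P (Nat.land (Nat.sub p' q') mask))) q) (Nat.ble q' p')) (Acc.mk (Bool.rec (motive := fun _ => Bool) false ok ok') p q) (Nat.beq p' q')) l) acc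

theorem cmbF_eq : @cmb = @cmbF := by
  delta cmb cmbF
  simp only [cond_rec, and_rec, blt_ble]

noncomputable def rhjF (t : Tb) (w R d N nt j f4 f5 f6 : Nat) (acc0 : Acc) : Acc :=
  Nat.rec (motive := fun _ => Acc) acc0 (fun i acc => cmbF (ppF w R nt j (Nat.sub d i)) (msk w R nt) (layF t N nt j i f4 f5 f6) acc) (Nat.succ d)

theorem rhjF_eq : @rhj = @rhjF := by
  delta rhj rhjF
  simp only [cond_rec, and_rec, blt_ble, layF_eq, ppF_eq, cmbF_eq]

noncomputable def rhsF (T : List Tb) (w R d k nt f4 f5 f6 : Nat) : Acc :=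
  Nat.rec (motive := fun _ => Acc) (Acc.mk true 0 0) (fun k' acc => rhjF (lget [] T k') w R d (Nat.add (Nat.mul k' d) 15) nt (Nat.sub k k') f4 f5 f6 acc) k

theorem rhsF_eq : @rhs = @rhsF := by
  delta rhs rhsF
  simp only [cond_rec, and_rec, blt_ble, rhjF_eq]

noncomputable def dokF (w R β n : Nat) (s : Bool) (m : Nat) : Bool :=
  Bool.rec (motive := fun _ => _) (Bool.rec (motive := fun _ => Bool) false (dok1 (dmk w R β n) (Nat.sub (off w R β n) m)) (Nat.ble m (off w R β n))) (dok1 (dmk w R β n) (Nat.add (off w R β n) m)) s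

theorem dokF_eq : @dok = @dokF := by
  delta dok dokF
  simp only [cond_rec, and_rec, blt_ble]

noncomputable def chk1F (T : List Tb) (w R d β k f4 f5 f6 : Nat) (e : Ent) : Bool :=
  Ent.rec (motive := fun _ => Bool) (fun n s m => Bool.rec (motive := fun _ => Bool) false (Acc.rec (motive := fun _ => Bool) (fun ok p q => Bool.rec (motive := fun _ => Bool) false (Bool.rec (motive := fun _ => _) (Nat.beq (Nat.land (Nat.add (Nat.mul k m) p) (msk w R n)) (Nat.land q (msk w R n))) (Nat.beq (Nat.land (Nat.add (Nat.mul k m) q) (msk w R n)) (Nat.land p (msk w R n))) s) ok) (rhsF T w R d k n f4 f5 f6)) (dokF w R β n s m)) e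

theorem chk1F_eq : @chk1 = @chk1F := by
  delta chk1 chk1F
  simp only [cond_rec, and_rec, blt_ble, rhsF_eq, dokF_eq]

noncomputable def allIF {α : Type} (P : Nat → α → Bool) (l : List α) (i : Nat) : Bool :=
  List.rec (motive := fun _ => Nat → Bool) (fun _ => true) (fun a _ ih i => Bool.rec (motive := fun _ => Bool) false (ih (Nat.succ i)) (P i a)) l i

theorem allIF_eq : @allI = @allIF := by
  delta allI allIF
  simp only [cond_rec, and_rec, blt_ble]

noncomputable def allRF (P : Nat → Bool) (lo len : Nat) : Bool :=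
  Nat.rec (motive := fun _ => Bool) true (fun t r => Bool.rec (motive := fun _ => Bool) false r (P (Nat.add lo t))) len

theorem allRF_eq : @allR = @allRF := by
  delta allR allRF
  simp only [cond_rec, and_rec, blt_ble]

noncomputable def rowCF (t : Tb) (P : Nat → Nat → Nat → Ent → Bool) (u : Nat) : Bool :=
  frc (Nat.div u 32) fun f6 => frc (Nat.succ (Nat.add f6 (Nat.mod u 32))) fun f5 => allIF (fun f4 e => P f4 f5 f6 e) (lget [] (lget [] t f6) (Nat.mod u 32)) (Nat.succ f5)

theorem rowCF_eq : @rowC = @rowCF := by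
  delta rowC rowCF
  simp only [cond_rec, and_rec, blt_ble, allIF_eq]

noncomputable def chkRF (T : List Tb) (w R d β k lo len : Nat) : Bool :=
  allRF (rowCF (lget [] T k) (chk1F T w R d β k)) lo len

theorem chkRF_eq : @chkR = @chkRF := by
  delta chkR chkRF
  simp only [cond_rec, and_rec, blt_ble, chk1F_eq, allRF_eq, rowCF_eq]

noncomputable def dgtF (w : Nat) (s : Bool) (x p : Nat) : Nat :=
  Bool.rec (motive := fun _ => _) (Nat.land (Nat.sub (Nat.shiftLeft 1 w) (dg1 w x p)) (Nat.pred (Nat.shiftLeft 1 w))) (Nat.land (dg1 w x p) (Nat.pred (Nat.shiftLeft 1 w))) s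

theorem dgtF_eq : @dgt = @dgtF := by
  delta dgt dgtF
  simp only [cond_rec, and_rec, blt_ble]

noncomputable def rowEF (w R C : Nat) (e : Ent) (r : Nat) : Ent :=
  Ent.rec (motive := fun _ => Ent) (fun n s m => Bool.rec (motive := fun _ => _) (Ent.mk 0 true 0) (Ent.mk C s (rw1 w R m r)) (Nat.ble (Nat.succ r) n)) e

theorem rowEF_eq : @rowE = @rowEF := by
  delta rowE rowEF
  simp only [cond_rec, and_rec, blt_ble]

noncomputable def getDF (w : Nat) (x : Ent) (p : Nat) : Nat :=
  Ent.rec (motive := fun _ => Nat) (fun n s m => Bool.rec (motive := fun _ => _) 0 (Nat.succ (dgtF w s m p)) (Nat.ble (Nat.succ p) n)) x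

theorem getDF_eq : @getD = @getDF := by
  delta getD getDF
  simp only [cond_rec, and_rec, blt_ble, dgtF_eq]

noncomputable def rowTF (T : List Tb) (w R k e3 f4 f5 f6 : Nat) : Ent :=
  rowEF w R R (look (lget [] T k) f4 f5 f6) e3

theorem rowTF_eq : @rowT = @rowTF := by
  delta rowT rowTF
  simp only [cond_rec, and_rec, blt_ble, rowEF_eq]

noncomputable def phF (F : List Int) (x s : Nat) : Int :=
  Bool.rec (motive := fun _ => _) 0 (lget 0 F (Nat.sub x s)) (Nat.ble s x)

theorem phF_eq : @ph = @phF := by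
  delta ph phF
  simp only [cond_rec, and_rec, blt_ble]

noncomputable def n2F (F : List Int) (b c s t : Nat) : Int :=
  Int.sub (Int.mul (phF F b s) (phF F c t)) (Int.mul (phF F b t) (phF F c s))

theorem n2F_eq : @n2 = @n2F := by
  delta n2 n2F
  simp only [cond_rec, and_rec, blt_ble, phF_eq]

noncomputable def n3F (F : List Int) (a b c r s t : Nat) : Int :=
  Int.add (Int.sub (Int.mul (phF F a r) (n2F F b c s t)) (Int.mul (phF F a s) (n2F F b c r t))) (Int.mul (phF F a t) (n2F F b c r s))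

theorem n3F_eq : @n3 = @n3F := by
  delta n3 n3F
  simp only [cond_rec, and_rec, blt_ble, phF_eq, n2F_eq]

noncomputable def qqF (F : List Int) (a b c : Nat) : Int :=
  Int.add (Int.add (Int.add (Int.add (Int.add (Int.add (Int.add (Int.add (Int.add (Int.mul (n3F F a b c 4 3 2) (kk 1 0)) (Int.mul (n3F F a b c 4 3 1) (kk 0 2))) (Int.mul (n3F F a b c 4 3 0) (kk 2 1))) (Int.mul (n3F F a b c 4 2 1) (kk 3 0))) (Int.mul (n3F F a b c 4 2 0) (kk 1 3))) (Int.mul (n3F F a b c 4 1 0) (kk 3 2))) (Int.mul (n3F F a b c 3 2 1) (kk 0 4))) (Int.mul (n3F F a b c 3 2 0) (kk 4 1))) (Int.mul (n3F F a b c 3 1 0) (kk 2 4))) (Int.mul (n3F F a b c 2 1 0) (kk 4 3))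

theorem qqF_eq : @qq = @qqF := by
  delta qq qqF
  simp only [cond_rec, and_rec, blt_ble, n3F_eq]

noncomputable def uvF (FT : List (Nat × List Int)) (a b c n : Nat) : Int :=
  List.rec (motive := fun _ => Int) 0 (fun x _ r => Prod.rec (motive := fun _ => Int) (fun z F => Int.add r (Int.mul (Int.mul (Int.ofNat z) (qqF F a b c)) (gg F n))) x) FT

theorem uvF_eq : @uv = @uvF := by
  delta uv uvF
  simp only [cond_rec, and_rec, blt_ble, qqF_eq]

noncomputable def uentF (FT : List (Nat × List Int)) (a b c n : Nat) : Ent :=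
  Bool.rec (motive := fun _ => _) (Ent.mk 0 true 0) (Int.rec (motive := fun _ => Ent) (fun m => Ent.mk n true m) (fun m => Ent.mk n false (Nat.succ m)) (uvF FT a b c n)) (Bool.rec (motive := fun _ => Bool) false (Nat.ble n 77) (Nat.ble (Nat.succ a) 40))

theorem uentF_eq : @uent = @uentF := by
  delta uent uentF
  simp only [cond_rec, and_rec, blt_ble, uvF_eq]

noncomputable def pos6F (E : Env) (c m2 m3 m4 m5 m6 : Nat) : Bool :=
  Bool.rec (motive := fun _ => Bool) false (Bool.rec (motive := fun _ => Bool) false (Nat.ble (Nat.succ 1) (getDF E.wL (rowTF E.TL E.wL 91 c (Nat.add m3 3) (Nat.add m4 2) (Nat.add m5 1) m6) (Nat.add m2 4))) (Nat.ble (Nat.add (Nat.add (Nat.add (Nat.add (Nat.add m2 m2) m3) m4) m5) m6) (Nat.mul 6 c))) (Bool.rec (motive := fun _ => Bool) false (Bool.rec (motive := fun _ => Bool) false (Nat.ble m3 m2) (Nat.ble m4 m3)) (Bool.rec (motive := fun _ => Bool) false (Nat.ble m5 m4) (Nat.ble m6 m5)))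

theorem pos6F_eq : @pos6 = @pos6F := by
  delta pos6 pos6F
  simp only [cond_rec, and_rec, blt_ble, getDF_eq, rowTF_eq]

noncomputable def posF (E : Env) (x : Nat) : Bool :=
  pos6F E (fld x 8 15) (fld x 0 63) (fld x 12 31) (fld x 17 31) (fld x 22 15) (fld x 26 15)

theorem posF_eq : @pos = @posF := by
  delta pos posF
  simp only [cond_rec, and_rec, blt_ble, pos6F_eq]

noncomputable def row5F (E : Env) (h k n3F n4 n5 n6 : Nat) : Rw :=
  Bool.rec (motive := fun _ => _) (Rw.mk 0 0 0 (Ent.mk 0 true 0)) (Bool.rec (motive := fun _ => _) (Rw.mk n3F (Nat.sub (Nat.mul 6 k) (Nat.add (Nat.add (Nat.add n3F n4) n5) n6)) E.wH (rowTF E.TH E.wH 157 k (Nat.add n3F 3) (Nat.add n4 2) (Nat.add n5 1) n6)) (Rw.mk n3F (Nat.sub (Nat.mul 6 k) (Nat.add (Nat.add (Nat.add n3F n4) n5) n6)) E.wL (rowTF E.TL E.wL 91 k (Nat.add n3F 3) (Nat.add n4 2) (Nat.add n5 1) n6)) (Nat.beq h 0)) (Bool.rec (motive := fun _ => Bool) false (Bool.rec (motive := fun _ => Bool) false (Nat.ble (Nat.add (Nat.add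 (Nat.add n3F n4) n5) n6) (Nat.mul 6 k)) (Nat.ble n4 n3F)) (Bool.rec (motive := fun _ => Bool) false (Nat.ble n5 n4) (Nat.ble n6 n5)))

theorem row5F_eq : @row5 = @row5F := by
  delta row5 row5F
  simp only [cond_rec, and_rec, blt_ble, rowTF_eq, n3F_eq]

noncomputable def rowOfF (E : Env) (y b l3 l4 l5 l6 : Nat) : Rw :=
  Bool.rec (motive := fun _ => _) (Rw.mk 0 0 0 (Ent.mk 0 true 0)) (row5F E (fld y 0 3) (Nat.sub b (fld y 2 15)) (Nat.sub l3 (fld y 6 31)) (Nat.sub l4 (fld y 11 31)) (Nat.sub l5 (fld y 16 15)) (Nat.sub l6 (fld y 20 15))) (Bool.rec (motive := fun _ => Bool) false (Bool.rec (motive := fun _ => Bool) false (Bool.rec (motive := fun _ => Bool) false (Nat.ble (fld y 20 15) l6) (Nat.ble (fld y 16 15) l5)) (Nat.ble (fld y 11 31) l4)) (Bool.rec (motive := fun _ => Bool) false (Nat.ble (fld y 6 31) l3) (Nat.ble (fld y 2 15) b)))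

theorem rowOfF_eq : @rowOf = @rowOfF := by
  delta rowOf rowOfF
  simp only [cond_rec, and_rec, blt_ble, row5F_eq]

noncomputable def low2F (r : Rw) (n2F : Nat) : Nat :=
  Rw.rec (motive := fun _ => Nat) (fun lo hi w e => Bool.rec (motive := fun _ => _) 0 (Nat.pred (getDF w e (Nat.add n2F 4))) (Bool.rec (motive := fun _ => Bool) false (Nat.ble (Nat.add n2F n2F) hi) (Nat.ble lo n2F))) r

theorem low2F_eq : @low2 = @low2F := by
  delta low2 low2F
  simp only [cond_rec, and_rec, blt_ble, getDF_eq, n2F_eq]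

noncomputable def lowF (E : Env) (x b l2 l3 l4 l5 l6 : Nat) : Nat :=
  frc x fun x' => Bool.rec (motive := fun _ => _) 0 (frc (Nat.shiftRight x' 6) fun y => low2F (rowOfF E y b l3 l4 l5 l6) (Nat.sub l2 (Nat.land x' 63))) (Bool.rec (motive := fun _ => Bool) false (Nat.ble (Nat.land x' 63) l2) (posF E x'))

theorem lowF_eq : @low = @lowF := by
  delta low lowF
  simp only [cond_rec, and_rec, blt_ble, posF_eq, rowOfF_eq, low2F_eq]

noncomputable def le1F (u a : Nat) : Bool :=
  Bool.rec (motive := fun _ => Bool) false (Nat.ble u (Nat.succ a)) (Nat.ble (Nat.succ 0) u)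

theorem le1F_eq : @le1 = @le1F := by
  delta le1 le1F
  simp only [cond_rec, and_rec, blt_ble]

noncomputable def ust2F (E : Env) (k l1 l2 l3 l4 l5 : Nat) : Nat :=
  frc (Nat.add (Nat.sub k l4) 3) fun e3 => getDF 112 (rowEF 112 81 77 (uentF E.FT (Nat.add (Nat.sub k l3) 2) (Nat.add (Nat.sub k l2) 1) (Nat.sub k l1) (Nat.succ e3)) e3) (Nat.add (Nat.sub k l5) 4)

theorem ust2F_eq : @ust2 = @ust2F := by
  delta ust2 ust2F
  simp only [cond_rec, and_rec, blt_ble, rowEF_eq, getDF_eq, uentF_eq]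

noncomputable def ustF (E : Env) (l1 l2 l3 l4 l5 : Nat) : Nat :=
  ust2F E (Nat.add l1 (Nat.mod l1 2)) l1 l2 l3 l4 l5

theorem ustF_eq : @ust = @ustF := by
  delta ust ustF
  simp only [cond_rec, and_rec, blt_ble, ust2F_eq]

noncomputable def lexF (E : Env) (b l2 l3 l4 l5 l6 : Nat) : Nat :=
  getDF E.wX (rowTF (lget [] E.LT (Nat.sub b 7)) E.wX (Nat.add (Nat.mul 6 b) 13) 6 (Nat.add l3 3) (Nat.add l4 2) (Nat.add l5 1) l6) (Nat.add l2 4)

theorem lexF_eq : @lex = @lexF := by
  delta lex lexF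
  simp only [cond_rec, and_rec, blt_ble, getDF_eq, rowTF_eq]

noncomputable def b0F (l2 S : Nat) : Nat :=
  Bool.rec (motive := fun _ => _) (Nat.div (Nat.add (Nat.add (Nat.add l2 l2) S) 5) 6) 7 (Nat.ble (Nat.add (Nat.add l2 l2) S) 42)

theorem b0F_eq : @b0 = @b0F := by
  delta b0 b0F
  simp only [cond_rec, and_rec, blt_ble]

noncomputable def excF (E : Env) (t a b l2 l3 l4 l5 l6 S : Nat) : Bool :=
  Bool.rec (motive := fun _ => _) (le1F (lexF E b l2 l3 l4 l5 l6) a) (le1F (ustF E (Nat.sub (Nat.mul 6 b) (Nat.add l2 S)) l2 l3 l4 l5) (Nat.mul 720 a)) (Nat.beq t 1)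

theorem excF_eq : @exc = @excF := by
  delta exc excF
  simp only [cond_rec, and_rec, blt_ble, le1F_eq, ustF_eq, lexF_eq]

noncomputable def runF (E : Env) (u : Ent) (l3 l4 l5 l6 S fuel : Nat) : Nat → Nat → Nat → Bool :=
  Nat.rec (motive := fun _ => Nat → Nat → Nat → Bool) (fun _ _ _ => false) (fun _ ih l2 b s => Bool.rec (motive := fun _ => _) (Bool.rec (motive := fun _ => _) (Bool.rec (motive := fun _ => Bool) false (Bool.rec (motive := fun _ => _) (frc (b0F (Nat.succ l2) S) fun b' => ih (Nat.succ l2) b' (Nat.shiftRight s 32)) (frc (Nat.succ b) fun b' => ih l2 b' (Nat.shiftRight s 32)) (Nat.ble (Nat.succ b) 24)) (excF E (Nat.land s 3) (lowF E (fld s 2 1073741823) b l2 l3 l4 l5 l6) b l2 l3 l4 l5 l6 S)) (Bool.rec (motive := fun _ => Bool) false (frc (b0F (Nat.succ l2) S) fun b' => ih (Nat.succ l2) b' (Nat.shiftRight s 32)) (le1F (getDF 112 u (Nat.add l2 4)) (Nat.mul 720 (lowF E (fld s 2 1073741823) b l2 l3 l4 l5 l6)))) (Nat.beq (Nat.land s 3) 0)) true (Nat.ble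 (Nat.succ 144) (Nat.add (Nat.add l2 l2) S))) fuel

theorem runF_eq : @run = @runF := by
  delta run runF
  simp only [cond_rec, and_rec, blt_ble, getDF_eq, lowF_eq, le1F_eq, b0F_eq, excF_eq]

noncomputable def cov3F (E : Env) (U : Ent) (cs : List Nat) (l4 l5 l6 t : Nat) : Bool :=
  frc (Nat.add l4 t) fun l3 => frc (Nat.add (Nat.add (Nat.add l3 l4) l5) l6) fun S => Bool.rec (motive := fun _ => _) (frc (b0F l3 S) fun b => runF E (rowEF 112 81 77 U (Nat.add l3 3)) l3 l4 l5 l6 S 2000 l3 b (lget 0 cs t)) true (Nat.ble (Nat.succ 144) (Nat.add (Nat.add l3 l3) S))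

theorem cov3F_eq : @cov3 = @cov3F := by
  delta cov3 cov3F
  simp only [cond_rec, and_rec, blt_ble, rowEF_eq, b0F_eq, runF_eq]

noncomputable def cov4F (E : Env) (cs : List (List Nat)) (l5 l6 t : Nat) : Bool :=
  frc (Nat.add l5 t) fun l4 => Bool.rec (motive := fun _ => _) (frc (Nat.add (Nat.div (Nat.sub 144 (Nat.add (Nat.add l4 l5) l6)) 3) 4) fun n => allRF (cov3F E (uentF E.FT (Nat.add l4 2) (Nat.add l5 1) l6 n) (lget [] cs t) l4 l5 l6) 0 49) true (Nat.ble (Nat.succ 144) (Nat.add (Nat.add (Nat.mul 4 l4) l5) l6))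

theorem cov4F_eq : @cov4 = @cov4F := by
  delta cov4 cov4F
  simp only [cond_rec, and_rec, blt_ble, allRF_eq, uentF_eq, cov3F_eq]

noncomputable def cov5F (E : Env) (cs : List (List (List Nat))) (lo u : Nat) : Bool :=
  frc (Nat.div u 32) fun l6 => frc (Nat.add l6 (Nat.mod u 32)) fun l5 => allRF (cov4F E (lget [] cs (Nat.sub u lo)) l5 l6) 0 37

theorem cov5F_eq : @cov5 = @cov5F := by
  delta cov5 cov5F
  simp only [cond_rec, and_rec, blt_ble, allRF_eq, cov4F_eq]

noncomputable def covRF (E : Env) (cs : List (List (List Nat))) (lo len : Nat) : Bool :=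
  allRF (cov5F E cs lo) lo len

theorem covRF_eq : @covR = @covRF := by
  delta covR covRF
  simp only [cond_rec, and_rec, blt_ble, allRF_eq, cov5F_eq]

end Vale.Agent.P181.S
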