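import Vale.Agent.P181.S.Spec

namespace Vale.Agent.P181.S.AlM

open Finset MvPolynomial

lemma mem_ad {n k : ℕ} {s : Fin n →₀ ℕ} :
    s ∈ finsuppAntidiag (univ : Finset (Fin n)) k ↔ ∑ a, s a = k := by
  rw [mem_finsuppAntidiag]
  simp

lemma fs_apply {n : ℕ} (e : Fin n → ℕ) (i : Fin n) : fs e i = e i := rfl

lemma reindex (d : ℕ) (F : (Fin 6 →₀ ℕ) → ℤ) :
    ∑ m ∈ finsuppAntidiag (univ : Finset (Fin 6)) d, F m =
      ∑ i ∈ range (d + 1), ∑ m6 ∈ range (i + 1), ∑ m5 ∈ range (i - m6 + 1),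
        ∑ m3 ∈ range (d - i + 1), ∑ m2 ∈ range (d - i - m3 + 1),
          F (fs ![d - i - m3 - m2, m2, m3, i - m6 - m5, m5, m6]) := by
  symm
  simp only [Finset.sum_sigma']
  refine Finset.sum_bij'
    (fun x _ => fs ![d - x.1 - x.2.2.2.1 - x.2.2.2.2, x.2.2.2.2, x.2.2.2.1,
      x.1 - x.2.1 - x.2.2.1, x.2.2.1, x.2.1])
    (fun m _ => ⟨m 3 + m 4 + m 5, m 5, m 4, m 2, m 1⟩) ?_ ?_ ?_ ?_ ?_
  · rintro ⟨i, m6, m5, m3, m2⟩ hx
    simp only [mem_sigma, mem_range] at hx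
    rw [mem_ad, Fin.sum_univ_six]
    show d - i - m3 - m2 + m2 + m3 + (i - m6 - m5) + m5 + m6 = d
    omega
  · intro m hm
    rw [mem_ad, Fin.sum_univ_six] at hm
    simp only [mem_sigma, mem_range]
    omega
  · rintro ⟨i, m6, m5, m3, m2⟩ hx
    simp only [mem_sigma, mem_range] at hx
    have h : i - m6 - m5 + m5 + m6 = i := by omega
    show (⟨i - m6 - m5 + m5 + m6, m6, m5, m3, m2⟩ : Σ _ : ℕ, Σ _ : ℕ, Σ _ : ℕ, Σ _ : ℕ, ℕ) = _
    rw [h]
  · intro m hm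
    rw [mem_ad, Fin.sum_univ_six] at hm
    ext t
    fin_cases t
    · show d - (m 3 + m 4 + m 5) - m 2 - m 1 = m 0
      omega
    · rfl
    · rfl
    · show m 3 + m 4 + m 5 - m 5 - m 4 = m 3
      omega
    · rfl
    · rfl
  · intro x _
    rfl

lemma A_newton (hN : StmtNewt) (n k d : ℕ) (e : Fin n → ℕ) :
    (k : ℤ) * A n k d e = ∑ j ∈ Icc 1 k, ∑ m ∈ finsuppAntidiag (univ : Finset (Fin n)) d,
      if ∀ t, j * m t ≤ e t then A n (k - j) d fun t => e t - j * m t else 0 := by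
  unfold A
  rw [← nsmul_eq_mul, ← coeff_smul, nsmul_eq_mul, mul_left_comm, (hN n d).2 k, Finset.mul_sum,
    coeff_sum]
  refine Finset.sum_congr rfl fun j _ => ?_
  rw [mul_left_comm, hp, Finset.sum_mul, coeff_sum]
  refine Finset.sum_congr rfl fun m _ => ?_
  rw [coeff_monomial_mul', one_mul]
  have h1 : (j • m ≤ fs e) ↔ ∀ t, j * m t ≤ e t := Finsupp.le_def
  have h2 : fs e - j • m = fs fun t => e t - j * m t := by
    ext t
    rfl
  rw [h2]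
  exact if_congr h1 rfl rfl

lemma term (k d j e1 e2 e3 e4 e5 e6 m1 m2 m3 m4 m5 m6 : ℕ) (hj : j ≤ k)
    (hm : m1 + m2 + m3 + m4 + m5 + m6 = d) (he : e1 + e2 + e3 + e4 + e5 + e6 = k * d + 15) :
    (if ∀ t, j * fs ![m1, m2, m3, m4, m5, m6] t ≤ ![e1, e2, e3, e4, e5, e6] t then
      A 6 (k - j) d fun t => ![e1, e2, e3, e4, e5, e6] t - j * fs ![m1, m2, m3, m4, m5, m6] t
      else 0) =
    if j * m2 ≤ e2 ∧ j * m3 ≤ e3 ∧ j * m4 ≤ e4 ∧ j * m5 ≤ e5 ∧ j * m6 ≤ e6 then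
      al (k - j) d (e2 - j * m2) (e3 - j * m3) (e4 - j * m4) (e5 - j * m5) (e6 - j * m6)
    else 0 := by
  have h1 : (∀ t, j * fs ![m1, m2, m3, m4, m5, m6] t ≤ ![e1, e2, e3, e4, e5, e6] t) ↔
      j * m1 ≤ e1 ∧ j * m2 ≤ e2 ∧ j * m3 ≤ e3 ∧ j * m4 ≤ e4 ∧ j * m5 ≤ e5 ∧ j * m6 ≤ e6 := by
    simp only [Fin.forall_fin_succ, IsEmpty.forall_iff, and_true]
    rfl
  have h2 : j * m1 + j * m2 + j * m3 + j * m4 + j * m5 + j * m6 = j * d := by
    rw [← hm]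
    ring
  have h3 : (k - j) * d + j * d = k * d := by
    rw [← add_mul, Nat.sub_add_cancel hj]
  rw [if_congr h1 rfl rfl]
  unfold al
  by_cases h4 : j * m2 ≤ e2 ∧ j * m3 ≤ e3 ∧ j * m4 ≤ e4 ∧ j * m5 ≤ e5 ∧ j * m6 ≤ e6
  · rw [if_pos h4]
    by_cases h5 : j * m1 ≤ e1
    · rw [if_pos ⟨h5, h4⟩, if_pos (by omega)]
      congr 1
      funext t
      fin_cases t
      · show e1 - j * m1 = (k - j) * d + 15 -
          (e2 - j * m2 + (e3 - j * m3) + (e4 - j * m4) + (e5 - j * m5) + (e6 - j * m6))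
        omega
      all_goals rfl
    · rw [if_neg fun h => h5 h.1, if_neg (by omega)]
  · rw [if_neg h4, if_neg fun h => h4 h.2]

lemma term0 (k d j e2 e3 e4 e5 e6 m1 m2 m3 m4 m5 m6 : ℕ) (hj : j ≤ k)
    (hm : m1 + m2 + m3 + m4 + m5 + m6 = d) (he : ¬e2 + e3 + e4 + e5 + e6 ≤ k * d + 15) :
    (if j * m2 ≤ e2 ∧ j * m3 ≤ e3 ∧ j * m4 ≤ e4 ∧ j * m5 ≤ e5 ∧ j * m6 ≤ e6 then
      al (k - j) d (e2 - j * m2) (e3 - j * m3) (e4 - j * m4) (e5 - j * m5) (e6 - j * m6)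
    else 0) = 0 := by
  have h2 : j * m1 + j * m2 + j * m3 + j * m4 + j * m5 + j * m6 = j * d := by
    rw [← hm]
    ring
  have h3 : (k - j) * d + j * d = k * d := by
    rw [← add_mul, Nat.sub_add_cancel hj]
  unfold al
  split_ifs with h4 h5
  · omega
  · rfl
  · rfl

lemma al_newton (hN : StmtNewt) (k d e2 e3 e4 e5 e6 : ℕ) :
    (k : ℤ) * al k d e2 e3 e4 e5 e6 =
    ∑ j ∈ Icc 1 k, ∑ i ∈ range (d + 1), ∑ m6 ∈ range (i + 1), ∑ m5 ∈ range (i - m6 + 1),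
      ∑ m3 ∈ range (d - i + 1), ∑ m2 ∈ range (d - i - m3 + 1),
        if j * m2 ≤ e2 ∧ j * m3 ≤ e3 ∧ j * (i - m6 - m5) ≤ e4 ∧ j * m5 ≤ e5 ∧ j * m6 ≤ e6 then
          al (k - j) d (e2 - j * m2) (e3 - j * m3) (e4 - j * (i - m6 - m5)) (e5 - j * m5)
            (e6 - j * m6) else 0 := by
  by_cases he : e2 + e3 + e4 + e5 + e6 ≤ k * d + 15
  · rw [al, if_pos he, A_newton hN]
    refine Finset.sum_congr rfl fun j hj => ?_
    rw [reindex]
    refine Finset.sum_congr rfl fun i hi => Finset.sum_congr rfl fun m6 h6 =>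
      Finset.sum_congr rfl fun m5 h5 => Finset.sum_congr rfl fun m3 h3 =>
      Finset.sum_congr rfl fun m2 h2 => ?_
    rw [mem_range] at hi h6 h5 h3 h2
    exact term k d j _ e2 e3 e4 e5 e6 _ m2 m3 _ m5 m6 (mem_Icc.1 hj).2 (by omega) (by omega)
  · rw [al, if_neg he, mul_zero]
    symm
    refine Finset.sum_eq_zero fun j hj => Finset.sum_eq_zero fun i hi =>
      Finset.sum_eq_zero fun m6 h6 => Finset.sum_eq_zero fun m5 h5 =>
      Finset.sum_eq_zero fun m3 h3 => Finset.sum_eq_zero fun m2 h2 => ?_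
    rw [mem_range] at hi h6 h5 h3 h2
    exact term0 k d j e2 e3 e4 e5 e6 (d - i - m3 - m2) m2 m3 _ m5 m6 (mem_Icc.1 hj).2
      (by omega) he

end Vale.Agent.P181.S.AlM

namespace Vale.Agent.P181.S

open Finset MvPolynomial AlM

theorem alS (hO : StmtOk) (hW : StmtWeyl) (hN : StmtNewt) (hA : StmtAnti) : StmtAl := by
  refine ⟨fun d e2 e3 e4 e5 e6 => ?_, fun k d e2 e3 e4 e5 e6 => ?_,
    fun k d e2 e3 e4 e5 e6 => ?_, al_newton hN, fun k d l1 l2 l3 l4 l5 l6 h1 h2 h3 h4 h5 => ?_⟩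
  · rw [al, hA.2.2, zero_mul, zero_add]
  · unfold al
    have hs : e2 + e3 + e5 + e4 + e6 = e2 + e3 + e4 + e5 + e6 := by omega
    rw [hs]
    split_ifs
    · rw [← hA.1 6 k d _ 3 4 (by decide)]
      congr 1
      funext t
      fin_cases t <;> rfl
    · rfl
  · unfold al
    have hs : e2 + e3 + e4 + e6 + e5 = e2 + e3 + e4 + e5 + e6 := by omega
    rw [hs]
    split_ifs
    · rw [← hA.1 6 k d _ 4 5 (by decide)]
      congr 1
      funext t
      fin_cases t <;> rfl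
    · rfl
  · have hok : (W 6 k d).Ok := hO.2 _ _ _ _ (hO.2 _ _ _ _ (hO.1 6))
    have hanti : Antitone (![l1, l2, l3, l4, l5, l6] : Fin 6 → ℕ) := by
      rw [Fin.antitone_iff_succ_le]
      intro t
      fin_cases t
      exacts [h1, h2, h3, h4, h5]
    have hw : (mult 6 k d ![l1, l2, l3, l4, l5, l6] : ℤ) =
        A 6 k d fun i => (![l1, l2, l3, l4, l5, l6] : Fin 6 → ℕ) i + del 6 i :=
      hW 6 _ (W 6 k d) hok _ hanti
    rw [hw]
    split_ifs with hs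
    · rw [al, if_pos (by omega)]
      congr 1
      funext t
      fin_cases t
      · show l1 + 5 = k * d + 15 - (l2 + 4 + (l3 + 3) + (l4 + 2) + (l5 + 1) + l6)
        omega
      all_goals rfl
    · by_contra hne
      have h6 := hA.2.1 6 k d _ hne
      rw [Finset.sum_add_distrib, add_left_inj, Fin.sum_univ_six] at h6
      exact hs h6

end Vale.Agent.P181.S
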