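import Vale.Agent.P181.S.Spec

namespace Vale.Agent.P181.S.AntiM

open Finset MvPolynomial

variable {n : ℕ}

lemma fs_apply (e : Fin n → ℕ) (i : Fin n) : fs e i = e i := rfl

lemma fs_inj {e e' : Fin n → ℕ} : fs e = fs e' ↔ e = e' :=
  Finsupp.equivFunOnFinite.symm.injective.eq_iff

lemma mem_ad {k : ℕ} {s : Fin n →₀ ℕ} :
    s ∈ finsuppAntidiag (univ : Finset (Fin n)) k ↔ ∑ a, s a = k := by
  rw [mem_finsuppAntidiag]
  simp

lemma mapDomain_eq (σ : Equiv.Perm (Fin n)) (m : Fin n →₀ ℕ) (i : Fin n) :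
    Finsupp.mapDomain σ m i = m (σ.symm i) := Finsupp.mapDomain_equiv_apply m i

lemma mapDomain_fs (σ : Equiv.Perm (Fin n)) (e : Fin n → ℕ) :
    Finsupp.mapDomain σ (fs e) = fs fun t => e (σ.symm t) := by
  ext i
  rw [mapDomain_eq]
  rfl

lemma rename_hp (σ : Equiv.Perm (Fin n)) (d j : ℕ) : rename σ (hp n d j) = hp n d j := by
  rw [hp, map_sum]
  refine Finset.sum_bij' (fun m _ => Finsupp.mapDomain σ m) (fun m _ => Finsupp.mapDomain σ.symm m)
    ?_ ?_ ?_ ?_ ?_
  · intro m hm
    rw [mem_ad] at hm ⊢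
    simp only [mapDomain_eq]
    rw [Equiv.sum_comp σ.symm fun i => m i, hm]
  · intro m hm
    rw [mem_ad] at hm ⊢
    simp only [mapDomain_eq]
    rw [Equiv.sum_comp σ.symm.symm fun i => m i, hm]
  · intro m _
    ext i
    simp [mapDomain_eq]
  · intro m _
    ext i
    simp [mapDomain_eq]
  · intro m _
    rw [rename_monomial, Finsupp.mapDomain_smul]

lemma rename_H (hN : StmtNewt) (σ : Equiv.Perm (Fin n)) (d k : ℕ) :
    rename σ (H n k d) = H n k d := by
  obtain ⟨h0, h⟩ := hN n d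
  induction k using Nat.strong_induction_on with
  | _ k ih =>
    rcases Nat.eq_zero_or_pos k with rfl | hk
    · rw [h0, map_one]
    · have hk' : (k : MvPolynomial (Fin n) ℤ) ≠ 0 := Nat.cast_ne_zero.2 hk.ne'
      apply mul_left_cancel₀ hk'
      have h1 := congrArg (rename σ) (h k)
      rw [map_mul, map_natCast, map_sum] at h1
      rw [h1, h k]
      refine Finset.sum_congr rfl fun j hj => ?_
      rw [map_mul, rename_hp, ih (k - j) (by have := (mem_Icc.1 hj).1; omega)]

lemma rename_ad (i j : Fin n) (hij : i ≠ j) : rename (Equiv.swap i j) (ad n) = -ad n := by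
  rw [ad, map_sum, ← Finset.sum_neg_distrib]
  refine Fintype.sum_equiv (Equiv.mulRight (Equiv.swap i j)) _ _ fun w => ?_
  rw [rename_monomial, mapDomain_fs, ← map_neg]
  simp [Equiv.Perm.sign_swap hij]

lemma A_swap (hN : StmtNewt) (k d : ℕ) (e : Fin n → ℕ) (i j : Fin n) (hij : i ≠ j) :
    A n k d (fun t => e (Equiv.swap i j t)) = -A n k d e := by
  have h := coeff_rename_mapDomain (Equiv.swap i j) (Equiv.swap i j).injective
    (ad n * H n k d) (fs e)
  rw [map_mul, rename_ad i j hij, rename_H hN, mapDomain_fs, neg_mul, coeff_neg,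
    Equiv.symm_swap] at h
  unfold A
  rw [← h, neg_neg]

lemma degree_eq (m : Fin n →₀ ℕ) : m.degree = ∑ i, m i := Finsupp.degree_eq_sum m

lemma hom_hp (d j : ℕ) : (hp n d j).IsHomogeneous (j * d) := by
  refine IsHomogeneous.sum _ _ _ fun m hm => isHomogeneous_monomial _ ?_
  rw [mem_ad] at hm
  rw [degree_eq, ← hm, Finset.mul_sum]
  rfl

lemma hom_H (hN : StmtNewt) (d k : ℕ) : (H n k d).IsHomogeneous (k * d) := by
  obtain ⟨h0, h⟩ := hN n d
  induction k using Nat.strong_induction_on with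
  | _ k ih =>
    rcases Nat.eq_zero_or_pos k with rfl | hk
    · rw [h0, zero_mul]
      exact isHomogeneous_one _ _
    · have h1 : ((k : MvPolynomial (Fin n) ℤ) * H n k d).IsHomogeneous (k * d) := by
        rw [h k]
        refine IsHomogeneous.sum _ _ _ fun j hj => ?_
        obtain ⟨hj1, hj2⟩ := mem_Icc.1 hj
        have h2 := (hom_hp (n := n) d j).mul (ih (k - j) (by omega))
        rwa [← add_mul, Nat.add_sub_cancel' hj2] at h2
      intro m hm
      apply h1
      rw [← nsmul_eq_mul, coeff_smul, nsmul_eq_mul]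
      exact mul_ne_zero (Nat.cast_ne_zero.2 hk.ne') hm

lemma hom_ad : (ad n).IsHomogeneous (∑ i, del n i) := by
  refine IsHomogeneous.sum _ _ _ fun w _ => isHomogeneous_monomial _ ?_
  rw [degree_eq]
  exact Equiv.sum_comp w (del n)

lemma A_deg (hN : StmtNewt) (k d : ℕ) (e : Fin n → ℕ) (h : A n k d e ≠ 0) :
    ∑ i, e i = k * d + ∑ i, del n i := by
  by_contra hne
  apply h
  refine ((hom_ad (n := n)).mul (hom_H hN d k)).coeff_eq_zero ?_
  rw [degree_eq, add_comm]
  exact hne

lemma del_inj : Function.Injective (del n) := by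
  intro i j h
  have hi := i.2
  have hj := j.2
  simp only [del] at h
  ext
  omega

lemma coeff_ad_perm (w : Equiv.Perm (Fin n)) :
    coeff (fs fun i => del n (w i)) (ad n) = ((Equiv.Perm.sign w : ℤˣ) : ℤ) := by
  rw [ad, coeff_sum, Finset.sum_eq_single w]
  · rw [coeff_monomial, if_pos rfl]
  · intro w' _ hw
    rw [coeff_monomial, if_neg]
    intro h
    rw [fs_inj] at h
    apply hw
    ext i
    exact congrArg Fin.val (del_inj (congrFun h i))
  · simp

lemma coeff_ad_zero (e : Fin n → ℕ) (h : ∀ w : Equiv.Perm (Fin n), e ≠ fun i => del n (w i)) :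
    coeff (fs e) (ad n) = 0 := by
  rw [ad, coeff_sum]
  refine Finset.sum_eq_zero fun w _ => ?_
  rw [coeff_monomial, if_neg]
  intro h'
  rw [fs_inj] at h'
  exact h w h'.symm

lemma exists_perm (e : Fin n → ℕ) (h1 : ∀ i, e i < n) (h2 : Function.Injective e) :
    ∃ w : Equiv.Perm (Fin n), e = fun i => del n (w i) := by
  let f : Fin n → Fin n := fun i => ⟨n - 1 - e i, by have := h1 i; omega⟩
  have hf : Function.Injective f := by
    intro i j h
    apply h2
    have h3 : n - 1 - e i = n - 1 - e j := congrArg Fin.val h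
    have := h1 i
    have := h1 j
    omega
  refine ⟨Equiv.ofBijective f (Finite.injective_iff_bijective.1 hf), ?_⟩
  ext i
  show e i = n - 1 - (n - 1 - e i)
  have := h1 i
  omega

lemma prod6 (f : Fin 6 → Fin 6 → ℤ) :
    ∏ i, ∏ j ∈ Finset.Ioi i, f i j =
      f 0 1 * f 0 2 * f 0 3 * f 0 4 * f 0 5 * f 1 2 * f 1 3 * f 1 4 * f 1 5 *
        f 2 3 * f 2 4 * f 2 5 * f 3 4 * f 3 5 * f 4 5 := by
  have i0 : Finset.Ioi (0 : Fin 6) = {1, 2, 3, 4, 5} := by decide
  have i1 : Finset.Ioi (1 : Fin 6) = {2, 3, 4, 5} := by decide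
  have i2 : Finset.Ioi (2 : Fin 6) = {3, 4, 5} := by decide
  have i3 : Finset.Ioi (3 : Fin 6) = {4, 5} := by decide
  have i4 : Finset.Ioi (4 : Fin 6) = {5} := by decide
  have i5 : Finset.Ioi (5 : Fin 6) = ∅ := by decide
  rw [Fin.prod_univ_six, i0, i1, i2, i3, i4, i5]
  simp only [Finset.prod_empty, Finset.prod_singleton]
  repeat rw [Finset.prod_insert (by decide)]
  simp only [Finset.prod_singleton]
  ring

noncomputable def b0 (e : Fin 6 → ℕ) : ℤ := a0 (e 0) (e 1) (e 2) (e 3) (e 4) (e 5)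

lemma b0_eq (e : Fin 6 → ℕ) : b0 e =
    if ∀ i, e i < 6 then (∏ i, ∏ j ∈ Finset.Ioi i, ((e i : ℤ) - e j)) / 34560 else 0 := by
  rw [prod6 fun i j => (e i : ℤ) - e j, b0, a0]
  simp only [Fin.forall_fin_succ, IsEmpty.forall_iff, and_true]
  rfl

lemma coeff_ad6 (e : Fin 6 → ℕ) : coeff (fs e) (ad 6) = b0 e := by
  rw [b0_eq]
  by_cases h : ∃ w : Equiv.Perm (Fin 6), e = fun i => del 6 (w i)
  · obtain ⟨w, rfl⟩ := h
    rw [coeff_ad_perm, if_pos (fun i => by simp only [del]; omega),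
      Equiv.Perm.prod_Ioi_comp_eq_sign_mul_prod w
        (f := fun i j => ((del 6 i : ℕ) : ℤ) - (del 6 j : ℕ)) (fun i j => by ring),
      prod6 fun i j => ((del 6 i : ℕ) : ℤ) - (del 6 j : ℕ)]
    have h2 : ∀ s : ℤ, s = s * 34560 / 34560 := fun s => by omega
    exact h2 _
  · rw [coeff_ad_zero e fun w hw => h ⟨w, hw⟩]
    split_ifs with h1
    · have h2 : ¬Function.Injective e := fun h2 => h (exists_perm e h1 h2)
      have h3 : ∃ i j, i < j ∧ e i = e j := by
        by_contra h3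
        apply h2
        intro i j hij
        rcases lt_trichotomy i j with h4 | h4 | h4
        · exact absurd ⟨i, j, h4, hij⟩ h3
        · exact h4
        · exact absurd ⟨j, i, h4, hij.symm⟩ h3
      obtain ⟨i, j, hij, he⟩ := h3
      rw [Finset.prod_eq_zero (mem_univ i)
        (Finset.prod_eq_zero (Finset.mem_Ioi.2 hij) (by rw [he, sub_self]))]
      rfl
    · rfl

end Vale.Agent.P181.S.AntiM

namespace Vale.Agent.P181.S

open Finset MvPolynomial AntiM

theorem anti (hN : StmtNewt) : StmtAnti := by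
  refine ⟨fun n k d e i j hij => A_swap hN k d e i j hij, fun n k d e h => A_deg hN k d e h,
    fun d e1 e2 e3 e4 e5 e6 => ?_⟩
  unfold A
  rw [(hN 6 d).1, mul_one, coeff_ad6]
  rfl

end Vale.Agent.P181.S
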