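import Vale.Agent.P181.S.CSpec

namespace Vale.Agent.P181.S

namespace CExcM

theorem frc_eq {α : Type} (x : ℕ) (F : ℕ → α) : frc x F = F x := by cases x <;> rfl

theorem le1_spec {u a : ℕ} (h : le1 u a = true) : ∃ v, u = v + 1 ∧ v ≤ a := by
  simp only [le1, Bool.and_eq_true, Nat.blt_eq, Nat.ble_eq] at h
  exact ⟨u - 1, by omega, by omega⟩

theorem key (hV : StmtVal) (hU : StmtUV) (FT : List (ℕ × List ℤ)) (hF : FOk FT)
    (x y z n r p a M : ℕ) (h1 : y ≤ x) (h2 : z ≤ x) (hp : 1 ≤ p)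
    (hM : 720 * (M : ℤ) ≤ UU ![p, r, x, y, z])
    (h : le1 (getD 112 (rowE 112 81 77 (uent FT x y z n) r) p) (720 * a) = true) : M ≤ a := by
  obtain ⟨v, hv, hva⟩ := le1_spec h
  obtain ⟨g, hg, hg'⟩ := hU FT hF x y z n h1 h2
  obtain ⟨e1, e2, e3⟩ := hV 112 81 77 _ _ g r p v (by norm_num) (by norm_num) (Nat.le_add_right _ 4)
    hg hp (fun a b => by rw [hg' p b r a]; exact le_trans (by positivity) hM) hv
  rw [hg' p e2 r e1] at e3
  rw [e3] at hM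
  omega

end CExcM

open CExcM

theorem staS (hV : StmtVal) (hU : StmtUV) (hB : StmtUB) : StmtSta := by
  rintro FT hF n a b l1 l2 l3 l4 l5 l6 ⟨p1, p2, p3, p4, p5, p6⟩ h
  exact key hV hU FT hF _ _ _ n _ _ a _ (by omega) (by omega) (by omega)
    (hB.1 b l1 l2 l3 l4 l5 l6 p1 p2 p3 p4 p5 p6) h

theorem excS (hV : StmtVal) (hU : StmtUV) (hB : StmtUB) (hG : StmtGet) : StmtExc := by
  rintro E ⟨-, -, hL, hF⟩ t a b l1 l2 l3 l4 l5 l6 h7 h24 hP h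
  obtain ⟨p1, p2, p3, p4, p5, p6⟩ := id hP
  unfold exc at h
  cases ht : Nat.beq t 1 <;> rw [ht] at h
  · obtain ⟨v, hv, hva⟩ := le1_spec h
    rw [hG _ _ _ _ (hL b h7 h24) 6 l1 l2 l3 l4 l5 l6 v hP hv]
    exact hva
  · have e : Nat.sub (Nat.mul 6 b) (Nat.add l2 (l3 + l4 + l5 + l6)) = l1 := by
      simp only [Nat.sub_eq, Nat.mul_eq, Nat.add_eq]; omega
    rw [e, cond_true] at h
    unfold ust ust2 at h
    rw [frc_eq] at h
    exact key hV hU E.FT hF (l1 + l1 % 2 - l3 + 2) (l1 + l1 % 2 - l2 + 1) (l1 + l1 % 2 - l1) _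
      (l1 + l1 % 2 - l4 + 3) (l1 + l1 % 2 - l5 + 4) a _ (by omega) (by omega) (by omega)
      (hB.2 b (l1 + l1 % 2) l1 l2 l3 l4 l5 l6 p1 p2 p3 p4 p5 p6 (Nat.even_iff.mpr (by omega))
        (by omega)) h

end Vale.Agent.P181.S
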