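import Vale.Agent.P181.S.CSpec

namespace Vale.Agent.P181.S

open Finset

theorem getS (hA : StmtAl) (hV : StmtVal) : StmtGet := by
  intro T w R d hT k l1 l2 l3 l4 l5 l6 v ⟨p1, p2, p3, p4, p5, p6⟩ h
  have e := hA.2.2.2.2 k d l1 l2 l3 l4 l5 l6 p1 p2 p3 p4 p5
  rw [if_pos p6] at e
  have := (hV w R R _ _ _ (l3 + 3) (l2 + 4) v hT.1 le_rfl le_rfl
    (hT.2 k (l4 + 2) (l5 + 1) l6 (by omega) (by omega)) (by omega)
    (fun _ _ => by simp only [← e]; positivity) h).2.2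
  simp only [← e] at this
  exact_mod_cast this

namespace CGetM

theorem frc_eq {α : Type} (x : ℕ) (F : ℕ → α) : frc x F = F x := by cases x <;> rfl

theorem pos6_ok (hG : StmtGet) {E : Env} (hE : EnvOk E) {c m2 m3 m4 m5 m6 : ℕ}
    (h : pos6 E c m2 m3 m4 m5 m6 = true) : m2 + m3 + m4 + m5 + m6 ≤ 6 * c ∧
      mult 6 c 6 ![6 * c - (m2 + m3 + m4 + m5 + m6), m2, m3, m4, m5, m6] ≠ 0 := by
  simp only [pos6, Bool.and_eq_true, Nat.ble_eq, Nat.blt_eq, Nat.add_eq, Nat.mul_eq] at h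
  obtain ⟨⟨⟨a, b⟩, c', d⟩, e, f⟩ := h
  refine ⟨by omega, ?_⟩
  obtain ⟨v, hv⟩ := Nat.exists_eq_succ_of_ne_zero (Nat.ne_zero_of_lt f)
  rw [hG _ _ _ _ hE.1 c _ m2 m3 m4 m5 m6 v ⟨by omega, d, c', b, a, by omega⟩ hv]
  omega

theorem low2_eq (lo hi w : ℕ) (e : Ent) (n2 : ℕ) : low2 ⟨lo, hi, w, e⟩ n2 =
    bif (Nat.ble lo n2 && Nat.ble (n2 + n2) hi) then getD w e (n2 + 4) - 1 else 0 := rfl

theorem low2_zero (n2 : ℕ) : low2 ⟨0, 0, 0, ⟨0, true, 0⟩⟩ n2 = 0 := by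
  rw [low2_eq]
  cases (Nat.ble 0 n2 && Nat.ble (n2 + n2) 0) <;> rfl

theorem low2_le (hG : StmtGet) {T : List Tb} {w R : ℕ} (hT : TW w R 6 T) {k n2 n3 n4 n5 n6 : ℕ}
    (a : n6 ≤ n5) (b : n5 ≤ n4) (c : n4 ≤ n3) (d : n3 + n4 + n5 + n6 ≤ 6 * k)
    (h : low2 ⟨n3, 6 * k - (n3 + n4 + n5 + n6), w, rowT T w R k (n3 + 3) (n4 + 2) (n5 + 1) n6⟩ n2
      ≠ 0) : n2 + n3 + n4 + n5 + n6 ≤ 6 * k ∧
    low2 ⟨n3, 6 * k - (n3 + n4 + n5 + n6), w, rowT T w R k (n3 + 3) (n4 + 2) (n5 + 1) n6⟩ n2 =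
      mult 6 k 6 ![6 * k - (n2 + n3 + n4 + n5 + n6), n2, n3, n4, n5, n6] := by
  rw [low2_eq] at h ⊢
  cases e : (Nat.ble n3 n2 && Nat.ble (n2 + n2) (6 * k - (n3 + n4 + n5 + n6)))
  · rw [e] at h; exact absurd rfl h
  rw [e, cond_true] at h
  rw [Bool.and_eq_true, Nat.ble_eq, Nat.ble_eq] at e
  refine ⟨by omega, ?_⟩
  rw [cond_true, hG _ _ _ _ hT k _ n2 n3 n4 n5 n6 (getD w (rowT T w R k (n3 + 3) (n4 + 2) (n5 + 1)
    n6) (n2 + 4) - 1) ⟨by omega, e.1, c, b, a, by omega⟩ (by omega)]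

theorem row5_le (hG : StmtGet) {E : Env} (hE : EnvOk E) {t k n2 n3 n4 n5 n6 : ℕ}
    (h : low2 (row5 E t k n3 n4 n5 n6) n2 ≠ 0) : n2 + n3 + n4 + n5 + n6 ≤ 6 * k ∧
    low2 (row5 E t k n3 n4 n5 n6) n2 =
      mult 6 k 6 ![6 * k - (n2 + n3 + n4 + n5 + n6), n2, n3, n4, n5, n6] := by
  unfold row5 at h ⊢
  simp only [Nat.add_eq, Nat.mul_eq, Nat.sub_eq] at h ⊢
  cases e : (Nat.ble n6 n5 && Nat.ble n5 n4 && (Nat.ble n4 n3 &&
    Nat.ble (n3 + n4 + n5 + n6) (6 * k)))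
  · rw [e, cond_false] at h; exact absurd (low2_zero _) h
  rw [e, cond_true] at h
  simp only [Bool.and_eq_true, Nat.ble_eq] at e
  rw [cond_true]
  cases e' : Nat.beq t 0
  · rw [e', cond_false] at h
    exact low2_le hG hE.2.1 e.1.1 e.1.2 e.2.1 e.2.2 h
  · rw [e', cond_true] at h
    exact low2_le hG hE.1 e.1.1 e.1.2 e.2.1 e.2.2 h

theorem fld_sh (x s m : ℕ) : fld (Nat.shiftRight x 6) s m = fld x (6 + s) m := by
  show (x >>> 6 >>> s) &&& m = (x >>> (6 + s)) &&& m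
  rw [Nat.shiftRight_add]

end CGetM

open CGetM

theorem lowS (hG : StmtGet) (hS : StmtSemi) : StmtLow := by
  intro E hE
  refine ⟨fun x b l1 l2 l3 l4 l5 l6 ⟨_, _, _, _, _, p6⟩ => ?_,
    fun h => (pos6_ok hG hE (c := 1) (m2 := 0) (m3 := 0) (m4 := 0) (m5 := 0) (m6 := 0) h).2⟩
  rw [low, frc_eq, frc_eq, show Nat.land x 63 = fld x 0 63 from rfl]
  cases e : (pos E x && Nat.ble (fld x 0 63) l2)
  · exact Nat.zero_le _
  rw [Bool.and_eq_true, Nat.ble_eq] at e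
  obtain ⟨q1, q2⟩ := pos6_ok hG hE e.1
  have e2 := e.2
  rw [cond_true, rowOf]
  simp only [fld_sh, Nat.sub_eq, Nat.reduceAdd]
  generalize fld x 8 15 = c at *
  generalize fld x 0 63 = m2 at *
  generalize fld x 12 31 = m3 at *
  generalize fld x 17 31 = m4 at *
  generalize fld x 22 15 = m5 at *
  generalize fld x 26 15 = m6 at *
  cases e' : (Nat.ble c b && Nat.ble m3 l3 && (Nat.ble m4 l4 && (Nat.ble m5 l5 && Nat.ble m6 l6)))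
  · rw [cond_false, low2_zero]; exact Nat.zero_le _
  simp only [Bool.and_eq_true, Nat.ble_eq] at e'
  rw [cond_true]
  by_cases h0 : low2 (row5 E (fld x 6 3) (b - c) (l3 - m3) (l4 - m4) (l5 - m5) (l6 - m6))
    (l2 - m2) = 0
  · rw [h0]; exact Nat.zero_le _
  obtain ⟨r1, r2⟩ := row5_le hG hE h0
  rw [r2]
  refine (hS 6 _ _ 6 _ _ q2).trans (le_of_eq ?_)
  congr 1
  · omega
  · funext i
    fin_cases i <;> simp <;> omega

end Vale.Agent.P181.S
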