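import Vale.Agent.P181.S.CSpec

namespace Vale.Agent.P181.S.CLayM

open Finset

lemma frc_eq {α : Type} (x : ℕ) (F : ℕ → α) : frc x F = F x := by cases x <;> rfl

lemma mn_eq (a b : ℕ) : mn a b = min a b := by
  unfold mn
  rcases le_or_gt a b with h | h
  · rw [Nat.ble_eq_true_of_le h, min_eq_left h]; rfl
  · have : Nat.ble a b = false := by
      rw [← Bool.not_eq_true, Nat.ble_eq]; omega
    rw [this, min_eq_right h.le]; rfl

lemma pk_add (w R n : ℕ) (g h : ℕ → ℕ → ℤ) :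
    pk w R n (fun a b => g a b + h a b) = pk w R n g + pk w R n h := by
  simp only [pk, add_mul, sum_add_distrib]

lemma pk_trunc (w R : ℕ) {nt n : ℕ} (h : nt ≤ n) (g : ℕ → ℕ → ℤ) :
    pk w R n g ≡ pk w R nt g [ZMOD 2 ^ (w * R * nt)] := by
  obtain ⟨c, rfl⟩ := Nat.exists_eq_add_of_le h
  rw [pk, pk, sum_range_add]
  refine (Int.modEq_iff_dvd.2 ?_)
  rw [sub_add_cancel_left, dvd_neg]
  refine dvd_sum fun x _ => dvd_sum fun y _ => Dvd.dvd.mul_left (pow_dvd_pow _ ?_) _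
  rw [mul_assoc]
  exact Nat.mul_le_mul_left _ (le_add_left (Nat.mul_le_mul_left _ (Nat.le_add_right _ _)))

lemma stp_ok (nt : ℕ) (e : Ent) (acc : Acc) : (stp nt e acc).ok = (Nat.ble nt e.n && acc.ok) := by
  obtain ⟨n, s, m⟩ := e
  obtain ⟨ok, p, q⟩ := acc
  change (cond (Nat.beq m 0) _ (cond s _ _) : Acc).ok = _
  cases Nat.beq m 0 <;> cases s <;> rfl

lemma stp_val (nt : ℕ) (e : Ent) (acc : Acc) :
    ((stp nt e acc).p : ℤ) - (stp nt e acc).q = acc.p - acc.q + sv e := by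
  obtain ⟨n, s, m⟩ := e
  obtain ⟨ok, p, q⟩ := acc
  change ((cond (Nat.beq m 0) _ (cond s _ _) : Acc).p : ℤ) -
    (cond (Nat.beq m 0) _ (cond s _ _) : Acc).q = _
  cases hm : Nat.beq m 0
  · cases s
    · simp [sv]; ring
    · simp [sv]; ring
  · have : m = 0 := Nat.eq_of_beq_eq_true hm
    subst this
    cases s <;> simp [sv]

/-- the loop invariant -/
def Inv (w R β nt : ℕ) (acc : Acc) (h : ℕ → ℕ → ℤ) (c : ℕ) : Prop :=
  acc.ok = true → (acc.p : ℤ) - acc.q ≡ pk w R nt h [ZMOD 2 ^ (w * R * nt)] ∧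
    ∀ e2 < R, ∀ e3 < nt, |h e2 e3| ≤ c * 2 ^ β

variable {w R β nt : ℕ}

lemma Inv.mono {acc : Acc} {h h' : ℕ → ℕ → ℤ} {c c' : ℕ} (H : Inv w R β nt acc h c)
    (e : ∀ a b, h a b = h' a b) (hc : c ≤ c') : Inv w R β nt acc h' c' := by
  obtain rfl : h = h' := funext₂ e
  refine fun ok => ⟨(H ok).1, fun a ha b hb => ((H ok).2 a ha b hb).trans ?_⟩
  gcongr

lemma Inv.step {acc : Acc} {h g : ℕ → ℕ → ℤ} {c : ℕ} (H : Inv w R β nt acc h c) {e : Ent}
    (he : Rep w R β e.n (sv e) g) :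
    Inv w R β nt (stp nt e acc) (fun a b => h a b + g a b) (c + 1) := by
  intro ok
  rw [stp_ok, Bool.and_eq_true, Nat.ble_eq] at ok
  obtain ⟨h1, h2⟩ := H ok.2
  refine ⟨?_, fun a ha b hb => ?_⟩
  · rw [stp_val, pk_add, he.1]
    exact h1.add (pk_trunc w R ok.1 g)
  · have := he.2 a ha b (hb.trans_le ok.1)
    have h3 := h2 a ha b hb
    push_cast
    exact (abs_add_le _ _).trans (by linarith)

lemma sum_min {j : ℕ} (hj : 1 ≤ j) (i f : ℕ) (F : ℕ → ℤ) :
    ∑ m ∈ range (min i (f / j) + 1), F m = ∑ m ∈ range (i + 1), if j * m ≤ f then F m else 0 := by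
  rw [← sum_filter]
  refine sum_congr ?_ fun _ _ => rfl
  ext m
  rw [mem_filter, mem_range, mem_range, Nat.lt_succ_iff, Nat.lt_succ_iff, le_min_iff,
    Nat.le_div_iff_mul_le hj, mul_comm]

variable {t : Tb} {N j : ℕ} {g : ℕ → ℕ → ℕ → ℕ → ℕ → ℤ}

lemma inv5 (hj : 1 ≤ j)
    (hg : ∀ a b c, Rep w R β (sl t N a b c).n (sv (sl t N a b c)) fun e2 e3 => g e2 e3 a b c)
    (i f4 f5 c : ℕ) {acc : Acc} {h : ℕ → ℕ → ℤ} {k : ℕ} (H : Inv w R β nt acc h k) :
    Inv w R β nt (lay5 t N nt j i f4 f5 c acc) (fun a b => h a b + ∑ m ∈ range (i + 1),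
      if j * (i - m) ≤ f4 ∧ j * m ≤ f5 then g a b (f4 - j * (i - m)) (f5 - j * m) c else 0)
      (k + (i + 1)) := by
  have key : ∀ M, Inv w R β nt (Nat.rec (motive := fun _ => Acc) acc (fun m5 acc5 =>
      cond (Nat.ble (Nat.mul j (Nat.sub i m5)) f4)
      (frc (Nat.sub f5 (Nat.mul j m5)) fun b => frc (Nat.sub f4 (Nat.mul j (Nat.sub i m5))) fun a =>
        stp nt (sl t N a b c) acc5) acc5) M) (fun a b => h a b + ∑ m ∈ range M,
      if j * (i - m) ≤ f4 then g a b (f4 - j * (i - m)) (f5 - j * m) c else 0) (k + M) := by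
    intro M
    induction M with
    | zero => exact H.mono (by simp) le_rfl
    | succ M ih =>
      simp only [frc_eq, Nat.mul_eq, Nat.sub_eq] at ih ⊢
      by_cases hc : j * (i - M) ≤ f4
      · rw [Nat.ble_eq_true_of_le hc, cond_true]
        exact (ih.step (hg _ _ _)).mono (fun a b => by rw [sum_range_succ, if_pos hc, add_assoc])
          le_rfl
      · have : Nat.ble (j * (i - M)) f4 = false := by rwa [← Bool.not_eq_true, Nat.ble_eq]
        rw [this, cond_false]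
        exact ih.mono (fun a b => by rw [sum_range_succ, if_neg hc, add_zero]) (by omega)
  refine (key (Nat.succ (mn i (Nat.div f5 j)))).mono (fun a b => ?_) ?_
  · rw [mn_eq, Nat.succ_eq_add_one, show Nat.div f5 j = f5 / j from rfl, sum_min hj]
    congr 1
    refine sum_congr rfl fun m _ => ?_
    by_cases h1 : j * (i - m) ≤ f4 <;> by_cases h2 : j * m ≤ f5 <;> simp [h1, h2]
  · rw [mn_eq]
    have := min_le_left i (Nat.div f5 j)
    omega

lemma inv6 (hj : 1 ≤ j)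
    (hg : ∀ a b c, Rep w R β (sl t N a b c).n (sv (sl t N a b c)) fun e2 e3 => g e2 e3 a b c)
    (i f4 f5 f6 : ℕ) :
    Inv w R β nt (lay t N nt j i f4 f5 f6) (lf g j i f4 f5 f6) ((i + 1) ^ 2) := by
  have key : ∀ M, Inv w R β nt (Nat.rec (motive := fun _ => Acc) (Acc.mk true 0 0) (fun m6 acc6 =>
      frc (Nat.sub f6 (Nat.mul j m6)) fun c => lay5 t N nt j (Nat.sub i m6) f4 f5 c acc6) M)
      (fun a b => ∑ m6 ∈ range M, ∑ m ∈ range (i - m6 + 1),
        if j * (i - m6 - m) ≤ f4 ∧ j * m ≤ f5 then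
          g a b (f4 - j * (i - m6 - m)) (f5 - j * m) (f6 - j * m6) else 0) (M * (i + 1)) := by
    intro M
    induction M with
    | zero => exact fun _ => ⟨by simp [pk], fun a _ b _ => by simp⟩
    | succ M ih =>
      simp only [frc_eq, Nat.mul_eq, Nat.sub_eq] at ih ⊢
      refine (inv5 hj hg (i - M) f4 f5 (f6 - j * M) ih).mono
        (fun a b => by rw [sum_range_succ (n := M)]) ?_
      rw [add_mul, one_mul]
      omega
  refine (key (Nat.succ (mn i (Nat.div f6 j)))).mono (fun a b => ?_) ?_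
  · rw [mn_eq, Nat.succ_eq_add_one, show Nat.div f6 j = f6 / j from rfl, sum_min hj, lf]
    refine sum_congr rfl fun m _ => ?_
    by_cases h1 : j * m ≤ f6 <;> simp [h1]
  · rw [mn_eq, sq]
    exact Nat.mul_le_mul_right _ (Nat.succ_le_succ (min_le_left _ _))

end Vale.Agent.P181.S.CLayM

namespace Vale.Agent.P181.S

theorem layS : StmtLay := by
  intro w R β nt t N j i f4 f5 f6 g hj hg ok
  have := CLayM.inv6 (nt := nt) hj hg i f4 f5 f6 ok
  push_cast at this
  exact this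

end Vale.Agent.P181.S
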