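import Vale.Agent.P181.S.CSpec

namespace Vale.Agent.P181.S

open Finset

namespace CMulM

theorem geo_eq (s r : ℕ) : geo s r = ∑ m ∈ range (r + 1), 2 ^ (s * m) := by
  induction r with
  | zero => simp [geo]
  | succ r ih =>
    have h : geo s (r + 1) = Nat.succ (Nat.shiftLeft (geo s r) s) := rfl
    rw [h, ih, sum_range_succ' _ (r + 1), Nat.shiftLeft_eq', Nat.shiftLeft_eq, sum_mul]
    simp only [Nat.succ_eq_add_one, mul_zero, pow_zero, add_left_inj]
    exact sum_congr rfl fun m _ => by rw [← pow_add, mul_add, mul_one]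

noncomputable def ppL (w R n j r t : ℕ) : ℕ :=
  Nat.rec (motive := fun _ => Nat) 0 (fun m3 a =>
    cond (Nat.blt (Nat.mul j m3) n)
      (jn (Nat.mul (Nat.mul w R) (Nat.mul j m3)) a (geo (Nat.mul w j) (Nat.sub r m3))) a) t

theorem ppL_eq (w R n j r t : ℕ) : ppL w R n j r t = ∑ m3 ∈ range t,
    if j * m3 < n then geo (w * j) (r - m3) * 2 ^ (w * R * (j * m3)) else 0 := by
  induction t with
  | zero => rfl
  | succ t ih =>
    have h : ppL w R n j r (t + 1) = cond (Nat.blt (Nat.mul j t) n)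
      (jn (Nat.mul (Nat.mul w R) (Nat.mul j t)) (ppL w R n j r t)
        (geo (Nat.mul w j) (Nat.sub r t))) (ppL w R n j r t) := rfl
    rw [h, sum_range_succ, ← ih]
    by_cases hc : j * t < n
    · have h1 : Nat.blt (Nat.mul j t) n = true := by rw [Nat.blt_eq]; exact hc
      rw [h1, if_pos hc, cond_true, jn, Nat.shiftLeft_eq', Nat.shiftLeft_eq]
      rfl
    · have h1 : Nat.blt (Nat.mul j t) n = false := by
        rw [← Bool.not_eq_true, Nat.blt_eq]; exact hc
      rw [h1, if_neg hc, cond_false, add_zero]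

theorem pp_eq (w R n j r : ℕ) : (pp w R n j r : ℤ) = ∑ m3 ∈ range (r + 1),
    if j * m3 < n then ∑ m2 ∈ range (r - m3 + 1), (2 : ℤ) ^ (w * (j * m2 + R * (j * m3)))
    else 0 := by
  have h : pp w R n j r = ppL w R n j r (r + 1) := rfl
  rw [h, ppL_eq]
  push_cast
  refine sum_congr rfl fun m3 _ => ?_
  split_ifs
  · rw [geo_eq]
    push_cast
    rw [sum_mul]
    refine sum_congr rfl fun m2 _ => ?_
    rw [← pow_add]
    congr 1
    ring
  · rfl

theorem sh1 (F : ℕ → ℤ) (Y : ℤ) (b N : ℕ) :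
    ∑ e ∈ range N, (if b ≤ e then F (e - b) else 0) * Y ^ e =
      ∑ e ∈ range N, if e + b < N then F e * Y ^ (e + b) else 0 := by
  simp only [ite_mul, zero_mul]
  rw [← sum_filter, ← sum_filter]
  refine sum_nbij' (fun e => e - b) (fun e => e + b) ?_ ?_ ?_ ?_ ?_
  · intro e he
    simp only [mem_filter, mem_range] at he ⊢
    omega
  · intro e he
    simp only [mem_filter, mem_range] at he ⊢
    omega
  · intro e he
    simp only [mem_filter, mem_range] at he
    omega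
  · intro e _
    simp
  · intro e he
    simp only [mem_filter, mem_range] at he
    rw [Nat.sub_add_cancel he.2]

theorem pk_eq (w R n : ℕ) (g : ℕ → ℕ → ℤ) : pk w R n g =
    ∑ e3 ∈ range n, (∑ e2 ∈ range R, g e2 e3 * (2 ^ w) ^ e2) * (2 ^ (w * R)) ^ e3 := by
  unfold pk
  refine sum_congr rfl fun e3 _ => ?_
  rw [sum_mul]
  refine sum_congr rfl fun e2 _ => ?_
  rw [mul_assoc, ← pow_mul, ← pow_mul, ← pow_add]
  congr 2
  ring

theorem shift (w R n a b : ℕ) (g : ℕ → ℕ → ℤ)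
    (hg : ∀ e2 < R, ∀ e3 < n, g e2 e3 ≠ 0 → e2 + a < R) :
    2 ^ (w * (a + R * b)) * pk w R n g ≡
      pk w R n (fun e2 e3 => if a ≤ e2 ∧ b ≤ e3 then g (e2 - a) (e3 - b) else 0)
      [ZMOD 2 ^ (w * R * n)] := by
  set F : ℕ → ℤ := fun e3 =>
    ∑ e2 ∈ range R, (if a ≤ e2 then g (e2 - a) e3 else 0) * (2 ^ w) ^ e2 with hF
  have h1 : 2 ^ (w * (a + R * b)) * pk w R n g =
      ∑ e3 ∈ range n, F e3 * (2 ^ (w * R)) ^ (e3 + b) := by
    rw [pk_eq, mul_sum]
    refine sum_congr rfl fun e3 h3 => ?_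
    have h4 : F e3 = (2 ^ w) ^ a * ∑ e2 ∈ range R, g e2 e3 * (2 ^ w) ^ e2 := by
      simp only [hF]
      rw [sh1 (fun e => g e e3), mul_sum]
      refine sum_congr rfl fun e2 h2 => ?_
      split_ifs with hc
      · ring
      · have : g e2 e3 = 0 := by
          by_contra h
          exact hc (hg e2 (mem_range.1 h2) e3 (mem_range.1 h3) h)
        rw [this]
        ring
    rw [h4, mul_add w, pow_add, ← mul_assoc w R b, pow_mul 2 w a, pow_mul 2 (w * R) b]
    ring
  have h2 : pk w R n (fun e2 e3 => if a ≤ e2 ∧ b ≤ e3 then g (e2 - a) (e3 - b) else 0) =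
      ∑ e3 ∈ range n, if e3 + b < n then F e3 * (2 ^ (w * R)) ^ (e3 + b) else 0 := by
    rw [← sh1, pk_eq]
    refine sum_congr rfl fun e3 _ => ?_
    congr 1
    by_cases hc : b ≤ e3
    · simp only [hc, and_true, if_true, hF]
    · simp [hc]
  rw [h1, h2]
  refine Int.ModEq.sum fun e3 _ => ?_
  split_ifs with hc
  · rfl
  · refine (Int.modEq_zero_iff_dvd).2 (Dvd.dvd.mul_left ?_ _)
    rw [pow_mul 2 (w * R) n]
    exact pow_dvd_pow _ (not_lt.1 hc)

theorem pk_sum {ι : Type} (w R n : ℕ) (s : Finset ι) (g : ι → ℕ → ℕ → ℤ) :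
    pk w R n (fun e2 e3 => ∑ i ∈ s, g i e2 e3) = ∑ i ∈ s, pk w R n (g i) := by
  unfold pk
  simp only [sum_mul]
  rw [sum_comm (s := s)]
  refine sum_congr rfl fun e3 _ => ?_
  rw [sum_comm]

end CMulM

open CMulM

theorem mulS : StmtMul := by
  intro w R n j r g _ hg
  have h1 : pk w R n (cv g j r) = ∑ m3 ∈ range (r + 1), ∑ m2 ∈ range (r - m3 + 1),
      pk w R n (fun e2 e3 => if j * m2 ≤ e2 ∧ j * m3 ≤ e3 then
        g (e2 - j * m2) (e3 - j * m3) else 0) := by
    simp only [← pk_sum]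
    rfl
  rw [h1, pp_eq, sum_mul]
  refine Int.ModEq.sum fun m3 _ => ?_
  have h2 : (∑ m2 ∈ range (r - m3 + 1), (2 : ℤ) ^ (w * (j * m2 + R * (j * m3)))) * pk w R n g ≡
      ∑ m2 ∈ range (r - m3 + 1), pk w R n (fun e2 e3 => if j * m2 ≤ e2 ∧ j * m3 ≤ e3 then
        g (e2 - j * m2) (e3 - j * m3) else 0) [ZMOD 2 ^ (w * R * n)] := by
    rw [sum_mul]
    refine Int.ModEq.sum fun m2 h => shift w R n _ _ g fun e2 h2 e3 h3 h0 => ?_
    have h5 := hg e2 h2 e3 h3 h0
    have h6 : j * m2 ≤ j * r := Nat.mul_le_mul_left j (by have := mem_range.1 h; omega)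
    omega
  split_ifs with hc
  · exact h2
  · refine Int.ModEq.trans ?_ h2
    rw [zero_mul]
    refine ((Int.modEq_zero_iff_dvd).2 (Dvd.dvd.mul_right (dvd_sum fun m2 _ => ?_) _)).symm
    refine pow_dvd_pow _ ?_
    have h7 : w * R * n ≤ w * R * (j * m3) := Nat.mul_le_mul_left _ (not_lt.1 hc)
    calc w * R * n ≤ w * R * (j * m3) := h7
      _ ≤ w * (j * m2) + w * R * (j * m3) := Nat.le_add_left _ _
      _ = w * (j * m2 + R * (j * m3)) := by ring

end Vale.Agent.P181.S
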