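import Vale.Agent.P181.S.CSpec

namespace Vale.Agent.P181.S

open Finset

namespace CPhiM

theorem frc_eq {α : Type} (x : ℕ) (F : ℕ → α) : frc x F = F x := by cases x <;> rfl

theorem lget_eq {α : Type} (d : α) (l : List α) (i : ℕ) : lget d l i = l.getD i d := by
  induction l generalizing i with
  | nil => rfl
  | cons a l ih => cases i with
    | zero => rfl
    | succ i => exact ih i

noncomputable def frcL (l : List ℕ) : (List ℕ → Bool) → Bool :=
  List.rec (motive := fun _ => (List ℕ → Bool) → Bool) (fun F => F [])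
    (fun a _ ih F => frc a fun a' => ih fun l' => F (a' :: l')) l

theorem frcL_eq (l : List ℕ) (F : List ℕ → Bool) : frcL l F = F l := by
  induction l generalizing F with
  | nil => rfl
  | cons a l ih =>
    show (frc a fun a' => frcL l fun l' => F (a' :: l')) = _
    rw [frc_eq, ih]

noncomputable def sm (a : ℕ) (L : List ℕ) (k n : ℕ) : ℕ :=
  Nat.rec (motive := fun _ => ℕ) 0 (fun t s =>
    cond (Nat.ble (Nat.mul a t) k) (Nat.add s (lget 0 L (Nat.sub k (Nat.mul a t)))) s) n

theorem sm_eq (a : ℕ) (L : List ℕ) (k n : ℕ) :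
    sm a L k n = ∑ t ∈ range n, if a * t ≤ k then lget 0 L (k - a * t) else 0 := by
  induction n with
  | zero => rfl
  | succ n ih =>
    rw [sum_range_succ, ← ih]
    show cond (Nat.ble (a * n) k) (sm a L k n + lget 0 L (k - a * n)) (sm a L k n) = _
    by_cases h : a * n ≤ k
    · rw [Nat.ble_eq_true_of_le h, if_pos h]; rfl
    · rw [if_neg h, show Nat.ble (a * n) k = false from Bool.eq_false_iff.mpr (by simpa using h)]
      rfl

noncomputable def step (a : ℕ) (L : List ℕ) : List ℕ :=
  (List.range 77).map fun k => sm a L k (Nat.succ k)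

noncomputable def tab (r : List ℕ) : (List ℕ → Bool) → Bool :=
  List.rec (motive := fun _ => (List ℕ → Bool) → Bool) (fun F => F [1])
    (fun a _ ih F => ih fun L => frcL (step a L) F) r

theorem tab_spec (r : List ℕ) (F : List ℕ → Bool) (h : tab r F = true) :
    ∃ L, F L = true ∧ ∀ k < 77, lget 0 L k = psi r k := by
  induction r generalizing F with
  | nil => exact ⟨[1], h, fun k _ => by cases k <;> simp [psi, lget_eq]⟩
  | cons a r ih =>
    obtain ⟨L, h1, h2⟩ := ih (fun L => frcL (step a L) F) h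
    rw [frcL_eq] at h1
    refine ⟨_, h1, fun k hk => ?_⟩
    rw [psi, step, lget_eq, List.getD_eq_getElem _ _ (by simpa using hk), List.getElem_map,
      List.getElem_range, sm_eq]
    exact sum_congr rfl fun t _ => by rw [h2 _ (by omega)]

noncomputable def ck (x : ℕ × List ℤ) (c : ℕ × List ℕ) : Bool :=
  decide (x.1 = c.1) && tab c.2 fun L => (List.range 77).all fun k =>
    decide (lget 0 x.2 k = (lget 0 L k : ℕ) - if k = 0 then (0 : ℤ) else (lget 0 L (k - 1) : ℕ)) &&
      decide (|lget 0 x.2 k| ≤ 2 ^ 21) && decide (k < 40 → |lget 0 x.2 k| ≤ 2 ^ 17)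

theorem ck_spec (x : ℕ × List ℤ) (c : ℕ × List ℕ) (h : ck x c = true) : x.1 = c.1 ∧
    (∀ k < 77, lget 0 x.2 k = phz c.2 k ∧ |lget 0 x.2 k| ≤ 2 ^ 21) ∧
    ∀ k < 40, |lget 0 x.2 k| ≤ 2 ^ 17 := by
  rw [ck, Bool.and_eq_true, decide_eq_true_eq] at h
  obtain ⟨L, h1, h2⟩ := tab_spec _ _ h.2
  simp only [List.all_eq_true, List.mem_range, Bool.and_eq_true, decide_eq_true_eq] at h1
  refine ⟨h.1, fun k hk => ⟨?_, (h1 k hk).1.2⟩, fun k hk => (h1 k (by omega)).2 hk⟩
  rw [(h1 k hk).1.1, h2 k hk, h2 (k - 1) (by omega)]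
  cases k with
  | zero => simp [phz, psz]
  | succ k => simp [phz, psz, show (0 : ℤ) ≤ k + 1 by omega]

end CPhiM

open CPhiM

theorem phiS : StmtPhi := by
  unfold StmtPhi FOk FT0 cls
  repeat refine .cons (ck_spec _ _ (by decide +kernel)) ?_
  exact .nil

end Vale.Agent.P181.S
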