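import Vale.Agent.P181.S.CSpec

namespace Vale.Agent.P181.S

namespace CRunM

theorem frc_eq {α : Type} (x : ℕ) (F : ℕ → α) : frc x F = F x := by cases x <;> rfl

theorem allR_le {P : ℕ → Bool} {lo len : ℕ} (h : allR P lo len = true) (u : ℕ) (h1 : lo ≤ u)
    (h2 : u < lo + len) : P u = true := by
  induction len with
  | zero => omega
  | succ n ih =>
    have h' : (P (lo + n) && allR P lo n) = true := h
    rw [Bool.and_eq_true] at h'
    by_cases c : u = lo + n
    · exact c ▸ h'.1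
    · exact ih h'.2 (by omega)

theorem b0_eq (l2 S : ℕ) : b0 l2 S = if l2 + l2 + S ≤ 42 then 7 else (l2 + l2 + S + 5) / 6 := by
  change cond (Nat.ble (l2 + l2 + S) 42) 7 ((l2 + l2 + S + 5) / 6) = _
  by_cases c : l2 + l2 + S ≤ 42
  · rw [if_pos c, Nat.ble_eq.mpr c]; rfl
  · rw [if_neg c, Bool.eq_false_iff.2 fun h => c (Nat.ble_eq.mp h)]; rfl

theorem b0_7 (l2 S : ℕ) : 7 ≤ b0 l2 S := by rw [b0_eq]; split_ifs <;> omega

theorem b0_ge (l2 S : ℕ) : l2 + l2 + S ≤ 6 * b0 l2 S := by rw [b0_eq]; split_ifs <;> omega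

theorem b0_le {l2 S b : ℕ} (h : l2 + l2 + S ≤ 6 * b) (h7 : 7 ≤ b) : b0 l2 S ≤ b := by
  rw [b0_eq]; split_ifs <;> omega

theorem run_succ (E : Env) (u : Ent) (l3 l4 l5 l6 S f l2 b s : ℕ) :
    run E u l3 l4 l5 l6 S (f + 1) l2 b s =
    cond (Nat.blt 144 (l2 + l2 + S)) true
      (cond (Nat.beq (Nat.land s 3) 0)
        (and (le1 (getD 112 u (l2 + 4)) (720 * low E (fld s 2 1073741823) b l2 l3 l4 l5 l6))
          (frc (b0 (l2 + 1) S) fun b' =>
            run E u l3 l4 l5 l6 S f (l2 + 1) b' (Nat.shiftRight s 32)))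
        (and (exc E (Nat.land s 3) (low E (fld s 2 1073741823) b l2 l3 l4 l5 l6) b l2 l3 l4 l5 l6 S)
          (cond (Nat.blt b 24)
            (frc (b + 1) fun b' => run E u l3 l4 l5 l6 S f l2 b' (Nat.shiftRight s 32))
            (frc (b0 (l2 + 1) S) fun b' =>
              run E u l3 l4 l5 l6 S f (l2 + 1) b' (Nat.shiftRight s 32))))) := rfl

theorem up (hS : StmtSemi) (h6 : mult 6 1 6 ![6, 0, 0, 0, 0, 0] ≠ 0) (b l1 l2 l3 l4 l5 l6 j : ℕ) :
    mult 6 b 6 ![l1, l2, l3, l4, l5, l6] ≤ mult 6 (b + j) 6 ![l1 + 6 * j, l2, l3, l4, l5, l6] := by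
  induction j with
  | zero => exact le_rfl
  | succ j ih =>
    refine ih.trans ((hS 6 (b + j) 1 6 _ _ h6).trans (le_of_eq ?_))
    congr 1
    funext i
    fin_cases i <;> simp
    ring

theorem run_ok (hS : StmtSemi) (hL : StmtLow) (hT : StmtSta) (hE : StmtExc) {E : Env}
    (hO : EnvOk E) (hp : pos E 256 = true) (n l3 l4 l5 l6 f : ℕ) : ∀ l2 b s : ℕ,
    run E (rowE 112 81 77 (uent E.FT (l4 + 2) (l5 + 1) l6 n) (l3 + 3)) l3 l4 l5 l6
      (l3 + l4 + l5 + l6) f l2 b s = true → l3 ≤ l2 → l2 + l2 + (l3 + l4 + l5 + l6) ≤ 6 * b →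
    ∀ b' l1 l2' : ℕ, 7 ≤ b' → b' ≤ 24 → Par (6 * b') l1 l2' l3 l4 l5 l6 →
      (l2' = l2 ∧ b ≤ b' ∨ l2 < l2') →
      mult 6 6 b' ![l1, l2', l3, l4, l5, l6] ≤ mult 6 b' 6 ![l1, l2', l3, l4, l5, l6] := by
  induction f with
  | zero => intro l2 b s h; exact absurd h Bool.false_ne_true
  | succ f ih =>
    intro l2 b s h h3 hb b' l1 l2' h7 h24 hP hc
    have nx : ∀ s', run E (rowE 112 81 77 (uent E.FT (l4 + 2) (l5 + 1) l6 n) (l3 + 3)) l3 l4 l5 l6
        (l3 + l4 + l5 + l6) f (l2 + 1) (b0 (l2 + 1) (l3 + l4 + l5 + l6)) s' = true → l2 < l2' →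
        mult 6 6 b' ![l1, l2', l3, l4, l5, l6] ≤ mult 6 b' 6 ![l1, l2', l3, l4, l5, l6] :=
      fun s' h' hlt => by
      refine ih _ _ _ h' (by omega) (b0_ge _ _) b' l1 l2' h7 h24 hP ?_
      by_cases c : l2' = l2 + 1
      · refine Or.inl ⟨c, b0_le ?_ h7⟩
        unfold Par at hP
        omega
      · omega
    rw [run_succ, frc_eq, frc_eq] at h
    have h144 : Nat.blt 144 (l2 + l2 + (l3 + l4 + l5 + l6)) = false :=
      Bool.eq_false_iff.2 fun c => by
        have := Nat.blt_eq.mp c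
        unfold Par at hP
        omega
    rw [h144, cond_false] at h
    cases c : Nat.beq (Nat.land s 3) 0 with
    | true =>
      rw [c, cond_true, Bool.and_eq_true] at h
      rcases hc with ⟨rfl, hc⟩ | hc
      · obtain ⟨j, rfl⟩ := Nat.exists_eq_add_of_le hc
        have hP' : Par (6 * b) (l1 - 6 * j) l2' l3 l4 l5 l6 := by
          unfold Par at hP ⊢
          omega
        have := up hS ((hL E hO).2 hp) b (l1 - 6 * j) l2' l3 l4 l5 l6 j
        rw [show l1 - 6 * j + 6 * j = l1 by unfold Par at hP; omega] at this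
        exact (hT E.FT hO.2.2.2 n _ _ _ _ _ _ _ _ hP h.1).trans
          (((hL E hO).1 _ b _ _ _ _ _ _ hP').trans this)
      · exact nx _ h.2 hc
    | false =>
      rw [c, cond_false, Bool.and_eq_true] at h
      by_cases c1 : l2' = l2 ∧ b = b'
      · obtain ⟨rfl, rfl⟩ := c1
        exact (hE E hO _ _ _ _ _ _ _ _ _ h7 h24 hP h.1).trans ((hL E hO).1 _ b _ _ _ _ _ _ hP)
      · cases c2 : Nat.blt b 24 with
        | true =>
          rw [c2, cond_true] at h
          exact ih _ _ _ h.2 h3 (by omega) b' l1 l2' h7 h24 hP (by omega)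
        | false =>
          rw [c2, cond_false] at h
          have : ¬ b < 24 := fun c => by rw [Nat.blt_eq.mpr c] at c2; exact absurd c2 (by decide)
          exact nx _ h.2 (by omega)

theorem blt_false {a b : ℕ} (h : b ≤ a) : Nat.blt a b = false :=
  Bool.eq_false_iff.2 fun c => by have := Nat.blt_eq.mp c; omega

end CRunM

open CRunM in
theorem runS (hS : StmtSemi) (hL : StmtLow) (hT : StmtSta) (hE : StmtExc) : StmtRun := by
  intro E cs lo len hO hp h b l1 l2 l3 l4 l5 l6 h7 h24 hP h1 h2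
  have hQ := hP
  unfold Par at hQ
  have a5 := allR_le h _ h1 h2
  rw [cov5, frc_eq, frc_eq] at a5
  have e6 : Nat.div (32 * l6 + (l5 - l6)) 32 = l6 := by
    change (32 * l6 + (l5 - l6)) / 32 = l6
    omega
  have e5 : Nat.add l6 (Nat.mod (32 * l6 + (l5 - l6)) 32) = l5 := by
    change l6 + (32 * l6 + (l5 - l6)) % 32 = l5
    omega
  rw [e6, e5] at a5
  have a4 := allR_le a5 (l4 - l5) (by omega) (by omega)
  have e4 : Nat.add l5 (l4 - l5) = l4 := by
    change l5 + (l4 - l5) = l4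
    omega
  rw [cov4, frc_eq, e4, blt_false (by
    change 4 * l4 + l5 + l6 ≤ 144
    omega), cond_false, frc_eq] at a4
  have a3 := allR_le a4 (l3 - l4) (by omega) (by omega)
  have e3 : Nat.add l4 (l3 - l4) = l3 := by
    change l4 + (l3 - l4) = l3
    omega
  rw [cov3, frc_eq, e3, frc_eq, blt_false (by
    change l3 + l3 + (l3 + l4 + l5 + l6) ≤ 144
    omega), cond_false, frc_eq] at a3
  refine run_ok hS hL hT hE hO hp _ l3 l4 l5 l6 _ l3 _ _ a3 le_rfl (b0_ge _ _) b l1 l2 h7 h24 hP ?_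
  by_cases c : l2 = l3
  · exact Or.inl ⟨c, b0_le (by change l3 + l3 + (l3 + l4 + l5 + l6) ≤ 6 * b; omega) h7⟩
  · omega

end Vale.Agent.P181.S
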