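import Vale.Agent.P181.S.CSpec

/-! Soundness of the lookup of unsorted tails. -/

namespace Vale.Agent.P181.S

open Finset

namespace CSlM

variable {w R d β k : ℕ}

theorem ev_zer {a b c : ℕ} (h : ∀ e2 e3, al k d e2 e3 a b c = 0) : EV w R d β k a b c zer := by
  refine ⟨?_, fun e2 _ e3 _ => ?_⟩
  · simp [pk, h, sv, zer]
  · simp [h]

theorem ev_neg {a b c a' b' c' : ℕ} {e : Ent} (h : EV w R d β k a b c e)
    (h' : ∀ e2 e3, al k d e2 e3 a' b' c' = -al k d e2 e3 a b c) : EV w R d β k a' b' c' (neg e) := by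
  obtain ⟨n, s, m⟩ := e
  obtain ⟨h1, h2⟩ := h
  have e1 : (neg ⟨n, s, m⟩).n = n := by cases s <;> rfl
  have e2 : sv (neg ⟨n, s, m⟩) = -sv ⟨n, s, m⟩ := by cases s <;> simp [neg, sv]
  refine ⟨?_, fun e2 a2 e3 a3 => ?_⟩
  · rw [e1, e2, h1]
    simp [pk, h']
  · rw [e1] at a3
    simpa [h'] using h2 e2 a2 e3 a3

theorem ev_congr {a b c a' b' c' : ℕ} {e : Ent} (h : EV w R d β k a b c e)
    (h' : ∀ e2 e3, al k d e2 e3 a' b' c' = al k d e2 e3 a b c) : EV w R d β k a' b' c' e := by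
  unfold EV at *
  simpa only [h'] using h

theorem ev_sl2 (hA : StmtAl) {t : Tb} (h : TV w R d β k t) {a b c : ℕ} (hbc : c < b) :
    EV w R d β k a b c (sl2 t a b c) := by
  obtain ⟨-, h1, h2, -⟩ := hA
  simp only [sl2, cond_eq_ite, Nat.blt_eq, Nat.beq_eq]
  split_ifs with c1 c2 c3 c4
  · exact h a b c c1 hbc
  · subst c2
    exact ev_zer fun e2 e3 => by have := h1 k d e2 e3 a a c; omega
  · exact ev_neg (h b a c (by omega) c3) fun e2 e3 => h1 ..
  · subst c4
    exact ev_zer fun e2 e3 => by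
      have := h1 k d e2 e3 b a a
      have := h2 k d e2 e3 b a a
      omega
  · exact ev_congr (h b c a hbc (by omega)) fun e2 e3 => by
      rw [h1 k d e2 e3 b a c, h2 k d e2 e3 b c a, neg_neg]

end CSlM

open CSlM

theorem slS (hA : StmtAl) : StmtSl := by
  intro w R d β k t h a b c
  have h2 := hA.2.2.1
  simp only [sl, cond_eq_ite, Nat.blt_eq, Nat.beq_eq, Nat.ble_eq, Nat.add_eq]
  split_ifs with c1 c2 c3
  · exact ev_sl2 hA h c2
  · subst c3
    exact ev_zer fun e2 e3 => by have := h2 k d e2 e3 a b b; omega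
  · exact ev_neg (ev_sl2 hA h (by omega)) fun e2 e3 => h2 ..
  · exact ev_zer fun e2 e3 => by rw [al, if_neg (by omega)]

end Vale.Agent.P181.S
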