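import Vale.Agent.P181.S.CSpec

namespace Vale.Agent.P181.S

open Finset

namespace CStepM

theorem land_msk (x w R n : ℕ) :
    ((Nat.land x (msk w R n) : ℕ) : ℤ) ≡ x [ZMOD 2 ^ (w * R * n)] := by
  have e : Nat.land x (msk w R n) = x % 2 ^ (w * R * n) := by
    rw [← Nat.and_two_pow_sub_one_eq_mod]
    show x &&& (1 <<< (w * R * n) - 1) = _
    rw [Nat.one_shiftLeft]
  rw [e]
  push_cast
  exact Int.mod_modEq _ _

/-- the value of an accumulator -/
def vl (a : Acc) : ℤ := (a.p : ℤ) - a.q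

theorem cmb_spec (P w R n : ℕ) (l acc : Acc) :
    (cmb P (msk w R n) l acc).ok = (l.ok && acc.ok) ∧
      vl (cmb P (msk w R n) l acc) ≡ vl acc + P * vl l [ZMOD 2 ^ (w * R * n)] := by
  obtain ⟨ok, p, q⟩ := acc
  obtain ⟨ok', p', q'⟩ := l
  have e : cmb P (msk w R n) ⟨ok', p', q'⟩ ⟨ok, p, q⟩ =
      cond (Nat.beq p' q') (Acc.mk (and ok' ok) p q)
        (cond (Nat.ble q' p')
          (Acc.mk (and ok' ok) (p + P * (Nat.land (p' - q') (msk w R n))) q)
          (Acc.mk (and ok' ok) p (q + P * (Nat.land (q' - p') (msk w R n))))) := rfl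
  rw [e]
  cases h1 : Nat.beq p' q'
  · cases h2 : Nat.ble q' p'
    · refine ⟨rfl, ?_⟩
      have h3 : p' ≤ q' := by
        by_contra h
        rw [Nat.ble_eq_true_of_le (by omega)] at h2
        exact absurd h2 (by simp)
      have h4 := (land_msk (q' - p') w R n).mul_left (P : ℤ)
      simp only [vl, cond_false]
      push_cast [h3] at h4 ⊢
      have h5 := (Int.ModEq.refl (n := 2 ^ (w * R * n)) ((p : ℤ) - q)).sub h4
      refine (Int.ModEq.trans ?_ h5).trans ?_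
      · rw [sub_add_eq_sub_sub]
      · rw [show (p : ℤ) - q - P * (q' - p') = p - q + P * (p' - q') by ring]
    · refine ⟨rfl, ?_⟩
      have h3 : q' ≤ p' := Nat.le_of_ble_eq_true h2
      have h4 := (land_msk (p' - q') w R n).mul_left (P : ℤ)
      simp only [vl, cond_false, cond_true]
      push_cast [h3] at h4 ⊢
      have h5 := (Int.ModEq.refl (n := 2 ^ (w * R * n)) ((p : ℤ) - q)).add h4
      refine Int.ModEq.trans ?_ h5
      rw [add_sub_right_comm]
  · refine ⟨rfl, ?_⟩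
    have h3 : p' = q' := Nat.eq_of_beq_eq_true h1
    subst h3
    simp [vl]

theorem loop_spec (M : ℤ) (F : ℕ → Acc → Acc) (o : ℕ → Prop) (v : ℕ → ℤ)
    (h : ∀ i acc, (F i acc).ok = true → acc.ok = true ∧ o i ∧ vl (F i acc) ≡ vl acc + v i [ZMOD M])
    (acc0 : Acc) (m : ℕ) :
    (Nat.rec (motive := fun _ => Acc) acc0 F m).ok = true → acc0.ok = true ∧ (∀ i < m, o i) ∧
      vl (Nat.rec (motive := fun _ => Acc) acc0 F m) ≡ vl acc0 + ∑ i ∈ range m, v i [ZMOD M] := by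
  induction m with
  | zero => exact fun h0 => ⟨h0, by simp, by simp⟩
  | succ m ih =>
    intro h0
    obtain ⟨a1, a2, a3⟩ := h m _ h0
    obtain ⟨b1, b2, b3⟩ := ih a1
    refine ⟨b1, fun i hi => ?_, ?_⟩
    · rcases Nat.lt_succ_iff_lt_or_eq.1 hi with h' | rfl
      · exact b2 i h'
      · exact a2
    · rw [sum_range_succ, ← add_assoc]
      exact a3.trans (b3.add_right _)

theorem rhs_spec (T : List Tb) (w R d k n f4 f5 f6 : ℕ)
    (h : (rhs T w R d k n f4 f5 f6).ok = true) :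
    (∀ k' < k, ∀ i < d + 1,
      (lay (lget [] T k') (k' * d + 15) n (k - k') i f4 f5 f6).ok = true) ∧
    vl (rhs T w R d k n f4 f5 f6) ≡ ∑ k' ∈ range k, ∑ i ∈ range (d + 1),
      (pp w R n (k - k') (d - i) : ℤ) * vl (lay (lget [] T k') (k' * d + 15) n (k - k') i f4 f5 f6)
        [ZMOD 2 ^ (w * R * n)] := by
  have key := loop_spec (2 ^ (w * R * n))
    (fun k' acc => rhj (lget [] T k') w R d (k' * d + 15) n (k - k') f4 f5 f6 acc)
    (fun k' => ∀ i < d + 1, (lay (lget [] T k') (k' * d + 15) n (k - k') i f4 f5 f6).ok = true)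
    (fun k' => ∑ i ∈ range (d + 1), (pp w R n (k - k') (d - i) : ℤ) *
      vl (lay (lget [] T k') (k' * d + 15) n (k - k') i f4 f5 f6))
    (fun k' acc => loop_spec (2 ^ (w * R * n))
      (fun i a => cmb (pp w R n (k - k') (d - i)) (msk w R n)
        (lay (lget [] T k') (k' * d + 15) n (k - k') i f4 f5 f6) a) _ _
      (fun i a ha => by
        obtain ⟨c1, c2⟩ := cmb_spec (pp w R n (k - k') (d - i)) w R n
          (lay (lget [] T k') (k' * d + 15) n (k - k') i f4 f5 f6) a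
        rw [c1, Bool.and_eq_true] at ha
        exact ⟨ha.2, ha.1, c2⟩) acc (d + 1)) (Acc.mk true 0 0) k h
  refine ⟨key.2.1, ?_⟩
  have h2 := key.2.2
  rw [show vl (Acc.mk true 0 0) = 0 from rfl, zero_add] at h2
  exact h2

theorem pk_sum {ι : Type} (w R n : ℕ) (S : Finset ι) (g : ι → ℕ → ℕ → ℤ) :
    pk w R n (fun e2 e3 => ∑ i ∈ S, g i e2 e3) = ∑ i ∈ S, pk w R n (g i) := by
  simp only [pk, sum_mul]
  rw [sum_comm (s := S)]
  exact sum_congr rfl fun _ _ => sum_comm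

theorem modEq_sum {ι : Type} (M : ℤ) (S : Finset ι) (a b : ι → ℤ)
    (h : ∀ i ∈ S, a i ≡ b i [ZMOD M]) : ∑ i ∈ S, a i ≡ ∑ i ∈ S, b i [ZMOD M] := by
  rw [Int.modEq_iff_dvd, ← sum_sub_distrib]
  exact dvd_sum fun i hi => (h i hi).dvd

theorem swap4 (A C : Finset ℕ) (B D : ℕ → Finset ℕ) (f : ℕ → ℕ → ℕ → ℕ → ℤ) :
    ∑ a ∈ A, ∑ b ∈ B a, ∑ c ∈ C, ∑ d ∈ D c, f a b c d =
      ∑ c ∈ C, ∑ d ∈ D c, ∑ a ∈ A, ∑ b ∈ B a, f a b c d :=
  calc _ = ∑ a ∈ A, ∑ c ∈ C, ∑ b ∈ B a, ∑ d ∈ D c, f a b c d :=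
        sum_congr rfl fun _ _ => sum_comm
    _ = ∑ c ∈ C, ∑ a ∈ A, ∑ b ∈ B a, ∑ d ∈ D c, f a b c d := sum_comm
    _ = ∑ c ∈ C, ∑ a ∈ A, ∑ d ∈ D c, ∑ b ∈ B a, f a b c d :=
        sum_congr rfl fun _ _ => sum_congr rfl fun _ _ => sum_comm
    _ = _ := sum_congr rfl fun _ _ => sum_comm

theorem total (hA : StmtAl) (k d e2 e3 f4 f5 f6 : ℕ) :
    ∑ k' ∈ range k, ∑ i ∈ range (d + 1),
      cv (lf (al k' d) (k - k') i f4 f5 f6) (k - k') (d - i) e2 e3 =
        k * al k d e2 e3 f4 f5 f6 := by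
  rw [hA.2.2.2.1]
  refine sum_nbij' (fun k' => k - k') (fun j => k - j) ?_ ?_ ?_ ?_ ?_
  · intro a ha
    simp only [mem_range, mem_Icc] at ha ⊢
    omega
  · intro a ha
    simp only [mem_range, mem_Icc] at ha ⊢
    omega
  · intro a ha
    simp only [mem_range] at ha
    omega
  · intro a ha
    simp only [mem_Icc] at ha
    omega
  · intro k' hk
    have e : k - (k - k') = k' := by
      simp only [mem_range] at hk
      omega
    simp only [e]
    refine sum_congr rfl fun i _ => ?_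
    rw [swap4]
    unfold cv lf
    refine sum_congr rfl fun m3 _ => sum_congr rfl fun m2 _ => ?_
    split_ifs with h
    · refine sum_congr rfl fun m6 _ => sum_congr rfl fun m5 _ => ?_
      simp only [h, true_and]
    · symm
      refine sum_eq_zero fun m6 _ => sum_eq_zero fun m5 _ => if_neg fun h' => h ⟨h'.1, h'.2.1⟩

theorem supp {k' d j i f4 f5 f6 e2 e3 : ℕ} (h : lf (al k' d) j i f4 f5 f6 e2 e3 ≠ 0) :
    e2 + e3 + f4 + f5 + f6 ≤ k' * d + 15 + j * i := by
  unfold lf at h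
  obtain ⟨m6, h6, h⟩ := exists_ne_zero_of_sum_ne_zero h
  obtain ⟨m5, h5, h⟩ := exists_ne_zero_of_sum_ne_zero h
  simp only [mem_range] at h6 h5
  split_ifs at h with hg
  · unfold al at h
    split_ifs at h with h2
    · have e : j * i = j * (i - m6 - m5) + j * m5 + j * m6 := by
        rw [← mul_add, ← mul_add]
        congr 1
        omega
      omega
    · exact absurd rfl h
  · exact absurd rfl h

theorem cv_le {R n j r e2 e3 : ℕ} {g : ℕ → ℕ → ℤ} {M : ℤ} (hM : 0 ≤ M)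
    (h : ∀ e2 < R, ∀ e3 < n, |g e2 e3| ≤ M) (h2 : e2 < R) (h3 : e3 < n) :
    |cv g j r e2 e3| ≤ (r + 1) ^ 2 * M := by
  unfold cv
  refine (abs_sum_le_sum_abs _ _).trans ?_
  have h1 : ∀ m3 ∈ range (r + 1), |∑ m2 ∈ range (r - m3 + 1),
      if j * m2 ≤ e2 ∧ j * m3 ≤ e3 then g (e2 - j * m2) (e3 - j * m3) else 0| ≤ (r + 1) * M := by
    intro m3 _
    refine (abs_sum_le_sum_abs _ _).trans ((sum_le_card_nsmul _ _ M fun m2 _ => ?_).trans ?_)
    · split_ifs
      · exact h _ (by omega) _ (by omega)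
      · simpa using hM
    · rw [card_range, nsmul_eq_mul]
      refine mul_le_mul_of_nonneg_right ?_ hM
      exact_mod_cast (by omega : r - m3 + 1 ≤ r + 1)
  refine (sum_le_card_nsmul _ _ _ h1).trans ?_
  rw [card_range, nsmul_eq_mul]
  push_cast
  exact le_of_eq (by ring)

end CStepM

open CStepM in
theorem stepS (hA : StmtAl) (hU : StmtUniq) (hD : StmtDok) (hS : StmtSl) (hL : StmtLay)
    (hM : StmtMul) : StmtStep := by
  intro T w R d B k f4 f5 f6 e hk h54 h65 hR hB hT hc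
  obtain ⟨n, s, m⟩ := e
  have e1 : chk1 T w R d (B k) k f4 f5 f6 ⟨n, s, m⟩ = (dok w R (B k) n s m &&
      ((rhs T w R d k n f4 f5 f6).ok && cond s
        (Nat.beq (Nat.land (k * m + (rhs T w R d k n f4 f5 f6).q) (msk w R n))
          (Nat.land (rhs T w R d k n f4 f5 f6).p (msk w R n)))
        (Nat.beq (Nat.land (k * m + (rhs T w R d k n f4 f5 f6).p) (msk w R n))
          (Nat.land (rhs T w R d k n f4 f5 f6).q (msk w R n))))) := rfl
  rw [e1, Bool.and_eq_true, Bool.and_eq_true] at hc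
  obtain ⟨c1, c2, c3⟩ := hc
  have hβ : B k < w := by
    have h1 : 2 ^ B k ≤ k * 2 ^ B k := Nat.le_mul_of_pos_left _ hk
    exact (Nat.pow_lt_pow_iff_right (by norm_num : 1 < 2)).1 (by omega)
  obtain ⟨g, hg1, hg2⟩ := hD w R (B k) n s m hβ c1
  obtain ⟨r1, r2⟩ := rhs_spec T w R d k n f4 f5 f6 c2
  have hl : ∀ k' < k, ∀ i < d + 1, _ := fun k' hk' i hi =>
    hL w R (B k') n (lget [] T k') (k' * d + 15) (k - k') i f4 f5 f6 (al k' d) (by omega)
      (hS w R d (B k') k' _ (hT k' hk')) (r1 k' hk' i hi)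
  have h1 : vl (rhs T w R d k n f4 f5 f6) ≡ pk w R n (fun e2 e3 => k * al k d e2 e3 f4 f5 f6)
      [ZMOD 2 ^ (w * R * n)] := by
    simp only [← total hA]
    rw [pk_sum]
    refine r2.trans (modEq_sum _ _ _ _ fun k' hk' => ?_)
    rw [pk_sum]
    refine modEq_sum _ _ _ _ fun i hi => ?_
    rw [mem_range] at hk' hi
    refine ((hl k' hk' i hi).1.mul_left _).trans (hM w R n (k - k') (d - i) _ (by omega) ?_)
    intro e2 _ e3 _ hne
    have h2 := supp hne
    have h3 : k * d = k' * d + ((k - k') * i + (k - k') * (d - i)) := by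
      rw [← mul_add, show i + (d - i) = d by omega, ← add_mul, show k' + (k - k') = k by omega]
    omega
  have h2 : (k : ℤ) * sv ⟨n, s, m⟩ ≡ vl (rhs T w R d k n f4 f5 f6) [ZMOD 2 ^ (w * R * n)] := by
    cases s
    · have h3 := Nat.eq_of_beq_eq_true c3
      have h4 := land_msk (k * m + (rhs T w R d k n f4 f5 f6).p) w R n
      rw [h3] at h4
      have h5 := (h4.symm.trans (land_msk _ w R n)).dvd
      rw [Int.modEq_iff_dvd]
      refine (dvd_neg.2 h5).trans (dvd_of_eq ?_)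
      simp only [vl, sv, cond_false]
      push_cast
      ring
    · have h3 := Nat.eq_of_beq_eq_true c3
      have h4 := land_msk (k * m + (rhs T w R d k n f4 f5 f6).q) w R n
      rw [h3] at h4
      have h5 := (h4.symm.trans (land_msk _ w R n)).dvd
      rw [Int.modEq_iff_dvd]
      refine h5.trans (dvd_of_eq ?_)
      simp only [vl, sv, cond_true]
      push_cast
      ring
  have hb : ∀ e2 < R, ∀ e3 < n, |(k : ℤ) * al k d e2 e3 f4 f5 f6| ≤
      (cnt d * ∑ k' ∈ range k, 2 ^ B k' : ℕ) := by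
    intro e2 h2 e3 h3
    rw [← total hA]
    refine (abs_sum_le_sum_abs _ _).trans ?_
    push_cast
    rw [mul_sum]
    refine sum_le_sum fun k' hk' => (abs_sum_le_sum_abs _ _).trans ?_
    unfold cnt
    push_cast
    rw [sum_mul]
    refine sum_le_sum fun i hi => ?_
    rw [mem_range] at hk' hi
    refine (cv_le (by positivity) (hl k' hk' i hi).2 h2 h3).trans (le_of_eq ?_)
    ring
  have h0 := hU w R n (fun e2 e3 => k * al k d e2 e3 f4 f5 f6 - k * g e2 e3) (by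
    intro e2 h2 e3 h3
    have a1 := hb e2 h2 e3 h3
    have a2 : |(k : ℤ) * g e2 e3| ≤ k * 2 ^ B k := by
      rw [abs_mul, Nat.abs_cast]
      exact mul_le_mul_of_nonneg_left (hg2 e2 h2 e3 h3) (by positivity)
    have a3 : ((k * 2 ^ B k + cnt d * ∑ k' ∈ range k, 2 ^ B k' : ℕ) : ℤ) < (2 ^ w : ℕ) := by
      exact_mod_cast hB
    have a4 := abs_sub (k * al k d e2 e3 f4 f5 f6 : ℤ) (k * g e2 e3)
    push_cast at a1 a3
    linarith) (by
    refine (h2.trans h1).dvd.trans (dvd_of_eq ?_)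
    rw [hg1]
    simp only [pk, mul_sum, ← sum_sub_distrib]
    exact sum_congr rfl fun _ _ => sum_congr rfl fun _ _ => by ring)
  have h4 : ∀ e2 < R, ∀ e3 < n, g e2 e3 = al k d e2 e3 f4 f5 f6 := by
    intro e2 h2 e3 h3
    have h5 := h0 e2 h2 e3 h3
    have hk0 : (k : ℤ) ≠ 0 := by exact_mod_cast (by omega : k ≠ 0)
    exact (mul_left_cancel₀ hk0 (sub_eq_zero.1 h5)).symm
  refine ⟨hg1.trans ?_, fun e2 h2 e3 h3 => ?_⟩
  · exact sum_congr rfl fun e3 h3 => sum_congr rfl fun e2 h2 => by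
      rw [h4 e2 (mem_range.1 h2) e3 (mem_range.1 h3)]
  · show |al k d e2 e3 f4 f5 f6| ≤ _
    rw [← h4 e2 h2 e3 h3]
    exact hg2 e2 h2 e3 h3

end Vale.Agent.P181.S
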