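import Vale.Agent.P181.S.CSpec

namespace Vale.Agent.P181.S

open Finset

namespace CTabM

theorem frc_eq {α : Type} (x : ℕ) (F : ℕ → α) : frc x F = F x := by cases x <;> rfl

theorem lget_ge {α : Type} (d : α) (l : List α) (i : ℕ) (h : l.length ≤ i) : lget d l i = d := by
  induction l generalizing i with
  | nil => rfl
  | cons a l ih =>
    cases i with
    | zero => simp at h
    | succ i => exact ih i (by simpa using h)

theorem allI_get {α : Type} (P : ℕ → α → Bool) (d : α) (l : List α) (i j : ℕ)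
    (h : allI P l i = true) (hj : j < l.length) : P (i + j) (lget d l j) = true := by
  induction l generalizing i j with
  | nil => simp at hj
  | cons a l ih =>
    have h1 : allI P (a :: l) i = and (P i a) (allI P l (i + 1)) := rfl
    rw [h1, Bool.and_eq_true] at h
    cases j with
    | zero => exact h.1
    | succ j =>
      have h2 := ih (i + 1) j h.2 (by simpa using hj)
      rw [show i + 1 + j = i + (j + 1) by omega] at h2
      exact h2

theorem allR_get (P : ℕ → Bool) (lo len u : ℕ) (h : allR P lo len = true) (hu : u < len) :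
    P (lo + u) = true := by
  induction len with
  | zero => omega
  | succ len ih =>
    have h1 : allR P lo (len + 1) = and (P (lo + len)) (allR P lo len) := rfl
    rw [h1, Bool.and_eq_true] at h
    rcases Nat.lt_succ_iff_lt_or_eq.1 hu with h2 | h2
    · exact ih h.2 h2
    · rw [h2]; exact h.1

theorem look_cases (t : Tb) (h16 : t.length ≤ 16) (h32 : ∀ i, (lget [] t i).length ≤ 32)
    (P : ℕ → ℕ → ℕ → Ent → Bool) (h : allR (rowC t P) 0 512 = true) (f4 f5 f6 : ℕ)
    (h45 : f5 < f4) (h56 : f6 < f5) :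
    look t f4 f5 f6 = ⟨0, true, 0⟩ ∨ P f4 f5 f6 (look t f4 f5 f6) = true := by
  have hl : look t f4 f5 f6 =
      lget ⟨0, true, 0⟩ (lget [] (lget [] t f6) (f5 - f6 - 1)) (f4 - f5 - 1) := rfl
  rw [hl]
  by_cases c3 : (lget [] (lget [] t f6) (f5 - f6 - 1)).length ≤ f4 - f5 - 1
  · exact Or.inl (lget_ge _ _ _ c3)
  right
  have c2 : f5 - f6 - 1 < (lget [] t f6).length := by
    by_contra hc
    rw [lget_ge _ _ _ (not_lt.1 hc)] at c3
    simp at c3
  have c1 : f6 < t.length := by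
    by_contra hc
    rw [lget_ge _ _ _ (not_lt.1 hc)] at c2
    simp at c2
  have c4 := h32 f6
  have h1 := allR_get _ 0 512 (32 * f6 + (f5 - f6 - 1)) h (by omega)
  rw [zero_add, rowC, frc_eq, frc_eq] at h1
  have e1 : Nat.div (32 * f6 + (f5 - f6 - 1)) 32 = f6 := by
    show (32 * f6 + (f5 - f6 - 1)) / 32 = f6
    omega
  have e2 : Nat.mod (32 * f6 + (f5 - f6 - 1)) 32 = f5 - f6 - 1 := by
    show (32 * f6 + (f5 - f6 - 1)) % 32 = f5 - f6 - 1
    omega
  rw [e1, e2] at h1
  have e3 : Nat.succ (Nat.add f6 (f5 - f6 - 1)) = f5 := by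
    show f6 + (f5 - f6 - 1) + 1 = f5
    omega
  rw [e3] at h1
  have h2 := allI_get _ ⟨0, true, 0⟩ _ _ (f4 - f5 - 1) h1 (not_le.1 c3)
  rw [show Nat.succ f5 + (f4 - f5 - 1) = f4 by omega] at h2
  exact h2

theorem shp_get (T : List Tb) (K : ℕ) (h : shp T K = true) :
    T.length ≤ K + 1 ∧ ∀ k, (lget [] T k).length ≤ 16 ∧
      ∀ i, (lget [] (lget [] T k) i).length ≤ 32 := by
  rw [shp, Bool.and_eq_true, Nat.ble_eq] at h
  refine ⟨h.1, fun k => ?_⟩
  by_cases hk : k < T.length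
  · have h1 := allI_get _ [] _ _ k h.2 hk
    rw [Bool.and_eq_true, Nat.ble_eq] at h1
    refine ⟨h1.1, fun i => ?_⟩
    by_cases hi : i < (lget [] T k).length
    · have h2 := allI_get _ [] _ _ i h1.2 hi
      rwa [Nat.ble_eq] at h2
    · rw [lget_ge _ _ _ (not_lt.1 hi)]
      simp
  · rw [lget_ge _ _ _ (not_lt.1 hk)]
    exact ⟨by simp, fun i => by rw [lget_ge _ _ _ (by simp)]; simp⟩

theorem ev_def (w R d β k f4 f5 f6 : ℕ) : EV w R d β k f4 f5 f6 ⟨0, true, 0⟩ :=
  ⟨by simp [sv, pk], fun _ _ _ h => absurd h (Nat.not_lt_zero _)⟩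

theorem ev_mono {w R d β β' k f4 f5 f6 : ℕ} {e : Ent} (hb : β ≤ β')
    (h : EV w R d β k f4 f5 f6 e) : EV w R d β' k f4 f5 f6 e :=
  ⟨h.1, fun e2 h2 e3 h3 => (h.2 e2 h2 e3 h3).trans (pow_le_pow_right₀ (by norm_num) hb)⟩

theorem z0_eq (e2 e3 f4 f5 f6 : ℕ) (h : 6 ≤ e2 ∨ 6 ≤ e3) : z0 e2 e3 f4 f5 f6 = 0 := by
  unfold z0 a0
  split_ifs with h1 h2
  · omega
  · rfl
  · rfl

theorem ev_zero (hA : StmtAl) (w R d β f4 f5 f6 : ℕ) (e : Ent) (hR : 6 ≤ R)
    (h : chk0 w R f4 f5 f6 e = true) : EV w R d β 0 f4 f5 f6 e := by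
  simp only [chk0, Bool.and_eq_true, decide_eq_true_eq] at h
  obtain ⟨⟨h1, h2⟩, h3⟩ := h
  have hz : ∀ e2 e3, al 0 d e2 e3 f4 f5 f6 = z0 e2 e3 f4 f5 f6 := fun e2 e3 =>
    hA.1 d e2 e3 f4 f5 f6
  refine ⟨?_, fun e2 _ e3 _ => ?_⟩
  · rw [h2, pk]
    simp only [hz]
    push_cast
    refine (sum_subset (range_subset_range.2 h1) fun e3 _ h4 => ?_).symm.trans
      (sum_congr rfl fun e3 _ => ?_) |>.symm
    · refine sum_eq_zero fun e2 _ => ?_
      rw [z0_eq _ _ _ _ _ (Or.inr (by simpa using h4)), zero_mul]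
    · refine (sum_subset (range_subset_range.2 hR) fun e2 _ h4 => ?_).symm
      rw [z0_eq _ _ _ _ _ (Or.inl (by simpa using h4)), zero_mul]
  · show |al 0 d e2 e3 f4 f5 f6| ≤ 2 ^ β
    rw [hz]
    by_cases hc : 6 ≤ e2 ∨ 6 ≤ e3
    · rw [z0_eq _ _ _ _ _ hc, abs_zero]
      positivity
    · exact (h3 e3 (mem_range.2 (by omega)) e2 (mem_range.2 (by omega))).trans
        (one_le_pow₀ (by norm_num))

end CTabM

open CTabM

theorem tabS (hA : StmtAl) (hS : StmtStep) : StmtTab := by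
  intro T w R d K B hs hR hB h0 hk
  obtain ⟨hT, hsh⟩ := shp_get T K hs
  have key : ∀ k, k ≤ K → TV w R d (B k) k (lget [] T k) := by
    intro k
    induction k using Nat.strong_induction_on with
    | _ k ih =>
      intro hK f4 f5 f6 h45 h56
      rcases Nat.eq_zero_or_pos k with rfl | hp
      · rcases look_cases _ (hsh 0).1 (hsh 0).2 _ h0 f4 f5 f6 h45 h56 with h | h
        · rw [h]
          exact ev_def ..
        · exact ev_zero hA _ _ _ _ _ _ _ _ (by omega) h
      · rcases look_cases _ (hsh k).1 (hsh k).2 _ (hk k hp hK) f4 f5 f6 h45 h56 with h | h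
        · rw [h]
          exact ev_def ..
        · have h1 : k * d ≤ K * d := Nat.mul_le_mul_right d hK
          exact hS T w R d B k f4 f5 f6 _ hp h45 h56 (by omega) (hB k hK).2
            (fun k' h' => ih k' h' (by omega)) h
  refine ⟨by have := (hB 0 (Nat.zero_le _)).1; omega, fun k f4 f5 f6 h45 h56 => ?_⟩
  by_cases hK : k ≤ K
  · exact ev_mono (by have := (hB k hK).1; omega) (key k hK f4 f5 f6 h45 h56)
  · rw [lget_ge _ _ _ (by omega)]
    exact ev_def ..

end Vale.Agent.P181.S
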