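import Vale.Agent.P181.S.CSpec

namespace Vale.Agent.P181.S

open Finset

namespace CUVM

def m2 (y z : ℕ → ℤ) (s t : ℕ) : ℤ := y s * z t - y t * z s

def m3 (x y z : ℕ → ℤ) (r s t : ℕ) : ℤ := x r * m2 y z s t - x s * m2 y z r t + x t * m2 y z r s

def m5 (u v x y z : ℕ → ℤ) : ℤ :=
  m3 x y z 4 3 2 * m2 u v 1 0 + m3 x y z 4 3 1 * m2 u v 0 2 + m3 x y z 4 3 0 * m2 u v 2 1 +
  m3 x y z 4 2 1 * m2 u v 3 0 + m3 x y z 4 2 0 * m2 u v 1 3 + m3 x y z 4 1 0 * m2 u v 3 2 +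
  m3 x y z 3 2 1 * m2 u v 0 4 + m3 x y z 3 2 0 * m2 u v 4 1 + m3 x y z 3 1 0 * m2 u v 2 4 +
  m3 x y z 2 1 0 * m2 u v 4 3

theorem det5 (u v x y z : ℕ → ℤ) :
    Matrix.det !![u 4, u 3, u 2, u 1, u 0; v 4, v 3, v 2, v 1, v 0; x 4, x 3, x 2, x 1, x 0;
      y 4, y 3, y 2, y 1, y 0; z 4, z 3, z 2, z 1, z 0] = m5 u v x y z := by
  simp [Matrix.det_succ_row_zero, Fin.sum_univ_succ, Fin.succAbove, m5, m3, m2]
  ring

theorem D5_eq (r : List ℕ) (e2 e3 a b c : ℕ) :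
    D5 r ![e2, e3, a, b, c] = m5 (fun s => phz r (e2 - s)) (fun s => phz r (e3 - s))
      (fun s => phz r (a - s)) (fun s => phz r (b - s)) (fun s => phz r (c - s)) := by
  rw [← det5, D5]
  congr 1
  ext i j
  fin_cases i <;> fin_cases j <;> simp

theorem m2_le {y z : ℕ → ℤ} {A B : ℤ} (hy : ∀ s, |y s| ≤ A) (hz : ∀ s, |z s| ≤ B) (s t : ℕ) :
    |m2 y z s t| ≤ 2 * (A * B) := by
  have h : ∀ s t, |y s * z t| ≤ A * B := fun s t => by
    rw [abs_mul]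
    exact mul_le_mul (hy s) (hz t) (abs_nonneg _) ((abs_nonneg _).trans (hy s))
  have h1 := abs_sub (y s * z t) (y t * z s)
  have h2 := h s t
  have h3 := h t s
  unfold m2
  linarith

theorem m3_le {x y z : ℕ → ℤ} {A : ℤ} (hx : ∀ s, |x s| ≤ A) (hy : ∀ s, |y s| ≤ A)
    (hz : ∀ s, |z s| ≤ A) (r s t : ℕ) : |m3 x y z r s t| ≤ 6 * (A * (A * A)) := by
  have h : ∀ r s t, |x r * m2 y z s t| ≤ A * (2 * (A * A)) := fun r s t => by
    rw [abs_mul]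
    exact mul_le_mul (hx r) (m2_le hy hz s t) (abs_nonneg _) ((abs_nonneg _).trans (hx r))
  have h1 := abs_le.1 (h r s t)
  have h2 := abs_le.1 (h s r t)
  have h3 := abs_le.1 (h t r s)
  unfold m3
  rw [abs_le]
  constructor <;> linarith [h1.1, h1.2, h2.1, h2.2, h3.1, h3.2]

theorem m5_le {u v x y z : ℕ → ℤ} (hu : ∀ s, |u s| ≤ 2 ^ 21) (hv : ∀ s, |v s| ≤ 2 ^ 21)
    (hx : ∀ s, |x s| ≤ 2 ^ 17) (hy : ∀ s, |y s| ≤ 2 ^ 17) (hz : ∀ s, |z s| ≤ 2 ^ 17) :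
    |m5 u v x y z| ≤ 2 ^ 100 := by
  have h : ∀ r s t s' t', |m3 x y z r s t * m2 u v s' t'| ≤ 12 * 2 ^ 93 := fun r s t s' t' => by
    rw [abs_mul]
    exact (mul_le_mul (m3_le hx hy hz r s t) (m2_le hu hv s' t') (abs_nonneg _)
      (by norm_num)).trans (by norm_num)
  have h0 := abs_le.1 (h 4 3 2 1 0)
  have h1 := abs_le.1 (h 4 3 1 0 2)
  have h2 := abs_le.1 (h 4 3 0 2 1)
  have h3 := abs_le.1 (h 4 2 1 3 0)
  have h4 := abs_le.1 (h 4 2 0 1 3)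
  have h5 := abs_le.1 (h 4 1 0 3 2)
  have h6 := abs_le.1 (h 3 2 1 0 4)
  have h7 := abs_le.1 (h 3 2 0 4 1)
  have h8 := abs_le.1 (h 3 1 0 2 4)
  have h9 := abs_le.1 (h 2 1 0 4 3)
  unfold m5
  rw [abs_le]
  constructor <;> linarith [h0.1, h0.2, h1.1, h1.2, h2.1, h2.2, h3.1, h3.2, h4.1, h4.2, h5.1, h5.2,
    h6.1, h6.2, h7.1, h7.2, h8.1, h8.2, h9.1, h9.2]

/-- shifted and truncated coefficients -/
noncomputable def sh (F : List ℤ) (N e s : ℕ) : ℤ :=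
  if s ≤ e ∧ e - s < N then lget 0 F (e - s) else 0

theorem pol_eq (F : List ℤ) (s n : ℕ) :
    pol F s n = ∑ k ∈ range n, lget 0 F k * (2 ^ s) ^ k := by
  induction n with
  | zero => rfl
  | succ n ih =>
    have e : pol F s (n + 1) = pol F s n + lget 0 F n * ((1 <<< (s * n) : ℕ) : ℤ) := rfl
    rw [e, ih, sum_range_succ, Nat.one_shiftLeft, ← pow_mul]
    push_cast
    rfl

theorem sum_sh (F : List ℤ) (N M s : ℕ) (Y : ℤ) (h : s + N ≤ M) :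
    ∑ e ∈ range M, sh F N e s * Y ^ e = Y ^ s * ∑ k ∈ range N, lget 0 F k * Y ^ k := by
  obtain ⟨t, rfl⟩ := Nat.exists_eq_add_of_le h
  rw [sum_range_add, sum_range_add, sum_eq_zero, sum_eq_zero (s := range t), zero_add, add_zero,
    mul_sum]
  · refine sum_congr rfl fun k hk => ?_
    rw [mem_range] at hk
    rw [sh, if_pos (by omega), Nat.add_sub_cancel_left]
    ring
  · intro k _
    rw [sh, if_neg (by omega), zero_mul]
  · intro k hk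
    rw [mem_range] at hk
    rw [sh, if_neg (by omega), zero_mul]

theorem pk_prod (n : ℕ) (u v : ℕ → ℤ) :
    pk 112 81 n (fun e2 e3 => u e2 * v e3) =
      (∑ e ∈ range 81, u e * (2 ^ 112) ^ e) * ∑ e ∈ range n, v e * (2 ^ 9072) ^ e := by
  rw [pk, sum_mul_sum, sum_comm]
  refine sum_congr rfl fun e2 _ => sum_congr rfl fun e3 _ => ?_
  rw [← pow_mul, ← pow_mul, show 112 * (e2 + 81 * e3) = 112 * e2 + 9072 * e3 by ring, pow_add]
  generalize (2 : ℤ) ^ (112 * e2) = A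
  generalize (2 : ℤ) ^ (9072 * e3) = B
  ring

theorem pk_lin (w R n : ℕ) (c : ℤ) (g g' : ℕ → ℕ → ℤ) :
    pk w R n (fun e2 e3 => g e2 e3 + c * g' e2 e3) = pk w R n g + c * pk w R n g' := by
  simp only [pk, mul_sum, ← sum_add_distrib]
  exact sum_congr rfl fun _ _ => sum_congr rfl fun _ _ => by ring

theorem pk_zero (w R n : ℕ) : pk w R n (fun _ _ => 0) = 0 := by simp [pk]

theorem mono (F : List ℤ) (n s t : ℕ) (hs : s ≤ 4) (ht : t ≤ 4) :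
    ((1 <<< (112 * (s + 81 * t)) : ℕ) : ℤ) * gg F n =
      pk 112 81 (n + 4) (fun e2 e3 => sh F 77 e2 s * sh F n e3 t) := by
  have e : gg F n = pol F 112 77 * pol F 9072 n := rfl
  rw [pk_prod, sum_sh F 77 81 s _ (by omega), sum_sh F n (n + 4) t _ (by omega), e, pol_eq, pol_eq,
    Nat.one_shiftLeft, show 112 * (s + 81 * t) = 112 * s + 9072 * t by ring, pow_add, pow_mul,
    pow_mul, Nat.cast_mul, Nat.cast_pow, Nat.cast_pow, Nat.cast_pow, Nat.cast_pow, Nat.cast_ofNat]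
  exact mul_mul_mul_comm _ _ _ _

theorem kk_gg (F : List ℤ) (n s t : ℕ) (hs : s ≤ 4) (ht : t ≤ 4) :
    kk s t * gg F n = pk 112 81 (n + 4) (fun e2 e3 => m2 (sh F 77 e2) (sh F n e3) s t) := by
  have e : kk s t = ((1 <<< (112 * (s + 81 * t)) : ℕ) : ℤ) -
    ((1 <<< (112 * (t + 81 * s)) : ℕ) : ℤ) := rfl
  rw [e, sub_mul, mono F n s t hs ht, mono F n t s ht hs, sub_eq_add_neg, neg_eq_neg_one_mul,
    ← pk_lin]
  congr 1
  ext e2 e3
  unfold m2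
  ring

theorem qq_gg (F : List ℤ) (a b c n : ℕ) :
    qq F a b c * gg F n = pk 112 81 (n + 4)
      (fun e2 e3 => m5 (sh F 77 e2) (sh F n e3) (ph F a) (ph F b) (ph F c)) := by
  have e : qq F a b c = m3 (ph F a) (ph F b) (ph F c) 4 3 2 * kk 1 0 +
      m3 (ph F a) (ph F b) (ph F c) 4 3 1 * kk 0 2 + m3 (ph F a) (ph F b) (ph F c) 4 3 0 * kk 2 1 +
      m3 (ph F a) (ph F b) (ph F c) 4 2 1 * kk 3 0 + m3 (ph F a) (ph F b) (ph F c) 4 2 0 * kk 1 3 +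
      m3 (ph F a) (ph F b) (ph F c) 4 1 0 * kk 3 2 + m3 (ph F a) (ph F b) (ph F c) 3 2 1 * kk 0 4 +
      m3 (ph F a) (ph F b) (ph F c) 3 2 0 * kk 4 1 + m3 (ph F a) (ph F b) (ph F c) 3 1 0 * kk 2 4 +
      m3 (ph F a) (ph F b) (ph F c) 2 1 0 * kk 4 3 := rfl
  have z : ∀ (x : ℤ) (g : ℕ → ℕ → ℤ), pk 112 81 (n + 4) (fun e2 e3 => x * g e2 e3) =
      x * pk 112 81 (n + 4) g := fun x g => by
    have h := pk_lin 112 81 (n + 4) x (fun _ _ => 0) g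
    simpa only [zero_add, pk_zero] using h
  simp only [m5]
  rw [pk_lin, pk_lin, pk_lin, pk_lin, pk_lin, pk_lin, pk_lin, pk_lin, pk_lin, z, e]
  simp only [add_mul, mul_assoc]
  rw [kk_gg F n 1 0, kk_gg F n 0 2, kk_gg F n 2 1, kk_gg F n 3 0, kk_gg F n 1 3, kk_gg F n 3 2,
    kk_gg F n 0 4, kk_gg F n 4 1, kk_gg F n 2 4, kk_gg F n 4 3] <;> norm_num

theorem phz_neg (r : List ℕ) {x : ℤ} (h : x < 0) : phz r x = 0 := by
  rw [phz, psz, psz, if_neg (by omega), if_neg (by omega), sub_zero]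

theorem ph_eq (F : List ℤ) (x s : ℕ) : ph F x s = if s ≤ x then lget 0 F (x - s) else 0 := by
  have e : ph F x s = cond (Nat.ble s x) (lget 0 F (x - s)) 0 := rfl
  rw [e]
  split_ifs with h
  · rw [Nat.ble_eq_true_of_le h, cond_true]
  · cases h1 : Nat.ble s x
    · rfl
    · exact absurd (Nat.le_of_ble_eq_true h1) h

theorem one (F : List ℤ) (r : List ℕ)
    (h1 : ∀ k < 77, lget 0 F k = phz r k ∧ |lget 0 F k| ≤ 2 ^ 21)
    (h2 : ∀ k < 40, |lget 0 F k| ≤ 2 ^ 17) (a b c n : ℕ) (ha : a < 40) (hb : b < 40) (hc : c < 40)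
    (hn : n ≤ 77) :
    (∀ e2 e3, |m5 (sh F 77 e2) (sh F n e3) (ph F a) (ph F b) (ph F c)| ≤ 2 ^ 100) ∧
      ∀ e2 < 77, ∀ e3 < n,
        m5 (sh F 77 e2) (sh F n e3) (ph F a) (ph F b) (ph F c) = D5 r ![e2, e3, a, b, c] := by
  have b1 : ∀ N ≤ 77, ∀ e s, |sh F N e s| ≤ 2 ^ 21 := fun N hN e s => by
    unfold sh
    split_ifs with h
    · exact (h1 _ (by omega)).2
    · norm_num
  have b2 : ∀ x < 40, ∀ s, |ph F x s| ≤ 2 ^ 17 := fun x hx s => by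
    rw [ph_eq]
    split_ifs with h
    · exact h2 _ (by omega)
    · norm_num
  have v1 : ∀ N ≤ 77, ∀ e < N, sh F N e = fun s : ℕ => phz r (e - s) := fun N hN e he => by
    ext s
    unfold sh
    split_ifs with h
    · rw [(h1 _ (by omega)).1, Nat.cast_sub h.1]
    · exact (phz_neg r (by omega)).symm
  have v2 : ∀ x < 40, ph F x = fun s : ℕ => phz r (x - s) := fun x hx => by
    ext s
    rw [ph_eq]
    split_ifs with h
    · rw [(h1 _ (by omega)).1, Nat.cast_sub h]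
    · exact (phz_neg r (by omega)).symm
  refine ⟨fun e2 e3 => m5_le (b1 _ le_rfl _) (b1 _ hn _) (b2 _ ha) (b2 _ hb) (b2 _ hc),
    fun e2 h2 e3 h3 => ?_⟩
  rw [D5_eq, v1 77 le_rfl e2 h2, v1 n hn e3 h3, v2 a ha, v2 b hb, v2 c hc]

theorem lst (a b c n : ℕ) (ha : a < 40) (hb : b < 40) (hc : c < 40) (hn : n ≤ 77)
    (FT : List (ℕ × List ℤ)) (C : List (ℕ × List ℕ))
    (h : List.Forall₂ (fun (x : ℕ × List ℤ) (c : ℕ × List ℕ) => x.1 = c.1 ∧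
      (∀ k < 77, lget 0 x.2 k = phz c.2 k ∧ |lget 0 x.2 k| ≤ 2 ^ 21) ∧
      ∀ k < 40, |lget 0 x.2 k| ≤ 2 ^ 17) FT C) :
    ∃ g : ℕ → ℕ → ℤ, uv FT a b c n = pk 112 81 (n + 4) g ∧
      (∀ e2 e3, |g e2 e3| ≤ ((C.map Prod.fst).sum : ℕ) * 2 ^ 100) ∧
      ∀ e2 < 77, ∀ e3 < n,
        g e2 e3 = (C.map fun p => (p.1 : ℤ) * D5 p.2 ![e2, e3, a, b, c]).sum := by
  induction h with
  | nil => exact ⟨fun _ _ => 0, (pk_zero _ _ _).symm, by simp, by simp⟩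
  | @cons x y l l' hx _ ih =>
    obtain ⟨g, g1, g2, g3⟩ := ih
    obtain ⟨z, F⟩ := x
    obtain ⟨z', r⟩ := y
    obtain ⟨rfl, h1, h2⟩ : z = z' ∧ _ := hx
    obtain ⟨o1, o2⟩ := one F r h1 h2 a b c n ha hb hc hn
    have e : uv ((z, F) :: l) a b c n = uv l a b c n + (z : ℤ) * qq F a b c * gg F n := rfl
    refine ⟨fun e2 e3 => g e2 e3 + z * m5 (sh F 77 e2) (sh F n e3) (ph F a) (ph F b) (ph F c),
      ?_, fun e2 e3 => ?_, fun e2 h2 e3 h3 => ?_⟩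
    · rw [e, pk_lin, mul_assoc, qq_gg, g1]
    · refine (abs_add_le _ _).trans ?_
      rw [abs_mul, Nat.abs_cast, List.map_cons, List.sum_cons, Nat.cast_add, add_mul, add_comm]
      exact add_le_add (mul_le_mul_of_nonneg_left (o1 e2 e3) (Nat.cast_nonneg _)) (g2 e2 e3)
    · show g e2 e3 + _ * _ = _
      rw [List.map_cons, List.sum_cons, g3 e2 h2 e3 h3, o2 e2 h2 e3 h3, add_comm]

theorem ent_int (n : ℕ) (v : ℤ) :
    (Int.rec (motive := fun _ => Ent) (fun m => Ent.mk n true m)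
      (fun m => Ent.mk n false (Nat.succ m)) v).n = n ∧
    sv (Int.rec (motive := fun _ => Ent) (fun m => Ent.mk n true m)
      (fun m => Ent.mk n false (Nat.succ m)) v) = v := by
  cases v
  · exact ⟨rfl, rfl⟩
  · exact ⟨rfl, rfl⟩

end CUVM

open CUVM in
theorem uvS : StmtUV := by
  intro FT hF a b c n hb hc
  unfold uent
  cases h : (Nat.blt a 40 && Nat.ble n 77)
  · refine ⟨fun _ _ => 0, ⟨(pk_zero _ _ _).symm, fun _ _ _ _ => ?_⟩, fun _ _ e3 h3 => ?_⟩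
    · rw [abs_zero]
      positivity
    · exact absurd h3 (Nat.not_lt_zero _)
  · rw [Bool.and_eq_true, Nat.blt_eq, Nat.ble_eq] at h
    obtain ⟨g, g1, g2, g3⟩ := lst a b c n h.1 (by omega) (by omega) h.2 FT cls hF
    obtain ⟨e1, e2⟩ := ent_int n (uv FT a b c n)
    rw [cond_true, e1, e2]
    refine ⟨g, ⟨g1, fun e2 _ e3 _ => (g2 e2 e3).trans ?_⟩, g3⟩
    rw [show (cls.map Prod.fst).sum = 720 from rfl]
    norm_num

end Vale.Agent.P181.S
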