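import Vale.Agent.P181.S.CSpec

namespace Vale.Agent.P181.S

open Finset

namespace CUniqM

theorem pk1 (w R n : ℕ) (g : ℕ → ℕ → ℤ) :
    pk w R n g = ∑ p ∈ range (R * n), g (p % R) (p / R) * (2 ^ w) ^ p := by
  induction n with
  | zero => simp [pk]
  | succ n ih =>
    rw [Nat.mul_succ, sum_range_add, ← ih, pk, pk, sum_range_succ]
    congr 1
    refine sum_congr rfl fun x hx => ?_
    have h := mem_range.1 hx
    rw [Nat.mul_add_mod, Nat.mod_eq_of_lt h, Nat.mul_add_div (by omega), Nat.div_eq_of_lt h,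
      add_zero, ← pow_mul, add_comm]

theorem uniq1 {X : ℤ} (hX : 0 < X) (N : ℕ) (c : ℕ → ℤ) (h : ∀ i < N, |c i| < X)
    (hd : X ^ N ∣ ∑ i ∈ range N, c i * X ^ i) : ∀ i < N, c i = 0 := by
  induction N generalizing c with
  | zero => simp
  | succ N ih =>
    have e : ∑ i ∈ range (N + 1), c i * X ^ i = X * ∑ i ∈ range N, c (i + 1) * X ^ i + c 0 := by
      rw [sum_range_succ', mul_sum, pow_zero, mul_one]
      congr 1
      exact sum_congr rfl fun i _ => by ring
    rw [e, pow_succ'] at hd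
    have h0 : c 0 = 0 := Int.eq_zero_of_abs_lt_dvd
      ((dvd_add_right (dvd_mul_right _ _)).1 ((dvd_mul_right _ _).trans hd)) (h 0 (by omega))
    rw [h0, add_zero, mul_dvd_mul_iff_left hX.ne'] at hd
    rintro (_ | i) hi
    · exact h0
    · exact ih (fun i => c (i + 1)) (fun i hi => h _ (by omega)) hd i (by omega)

theorem dig {w M : ℕ} (hM : M < 2 ^ w) (N z : ℕ)
    (h : z &&& ((∑ i ∈ range N, (2 ^ w) ^ i) * M) = z) :
    ∃ c : ℕ → ℕ, z = ∑ i ∈ range N, c i * (2 ^ w) ^ i ∧ ∀ i, c i ≤ M := by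
  induction N generalizing z with
  | zero => exact ⟨fun _ => 0, by simpa using h.symm, by simp⟩
  | succ N ih =>
    have e : (∑ i ∈ range (N + 1), (2 ^ w) ^ i) * M =
        2 ^ w * ((∑ i ∈ range N, (2 ^ w) ^ i) * M) + M := by
      rw [sum_range_succ', pow_zero, add_mul, one_mul, ← mul_assoc, mul_sum]
      simp only [pow_succ']
    have h1 := congrArg (· % 2 ^ w) h
    have h2 := congrArg (· / 2 ^ w) h
    simp only [e, Nat.and_mod_two_pow, Nat.mul_add_mod, Nat.mod_eq_of_lt hM] at h1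
    simp only [e, Nat.and_div_two_pow, Nat.mul_add_div (Nat.two_pow_pos w), Nat.div_eq_of_lt hM,
      add_zero] at h2
    obtain ⟨c, e1, e2⟩ := ih _ h2
    refine ⟨fun i => Nat.casesOn i (z % 2 ^ w) c, ?_, ?_⟩
    · rw [sum_range_succ', pow_zero, mul_one]
      conv_lhs => rw [← Nat.div_add_mod z (2 ^ w), e1, mul_sum]
      congr 1
      exact sum_congr rfl fun i _ => by simp only [pow_succ']; ring
    · rintro (_ | i)
      · exact h1 ▸ Nat.and_le_right
      · exact e2 i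

theorem ones_eq {w : ℕ} (hw : 0 < w) (R n : ℕ) :
    ones w R n = ∑ i ∈ range (R * n), (2 ^ w) ^ i := by
  rw [Nat.geomSum_eq (Nat.one_lt_two_pow hw.ne'), ← pow_mul, ← mul_assoc]
  show (1 <<< (w * R * n) - 1) / (1 <<< w - 1) = _
  simp only [Nat.one_shiftLeft]

theorem rep {w R β n z : ℕ} (hβ : β < w) (h : dok1 (dmk w R β n) z = true) :
    ∃ g, Rep w R β n ((z : ℤ) - off w R β n) g := by
  have h1 : z &&& ones w R n * (1 <<< (β + 1) - 1) = z := Nat.eq_of_beq_eq_true h
  have h2 : off w R β n = ones w R n * 2 ^ β := Nat.shiftLeft_eq _ _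
  have h3 : 2 ^ (β + 1) ≤ 2 ^ w := Nat.pow_le_pow_right (by omega) hβ
  have h4 := Nat.two_pow_pos β
  rw [h2]
  rw [Nat.one_shiftLeft] at h1
  rw [ones_eq (by omega)] at h1 ⊢
  obtain ⟨c, e1, e2⟩ := dig (by omega) _ _ h1
  refine ⟨fun a b => c (a + R * b) - 2 ^ β, ?_, fun a _ b _ => ?_⟩
  · rw [pk1, e1]
    push_cast
    rw [sum_mul, ← sum_sub_distrib]
    exact sum_congr rfl fun i _ => by rw [Nat.mod_add_div]; ring
  · have := e2 (a + R * b)
    have h5 : c (a + R * b) ≤ 2 ^ β + 2 ^ β := by omega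
    have h6 : (c (a + R * b) : ℤ) ≤ 2 ^ β + 2 ^ β := by exact_mod_cast h5
    have h7 : (0 : ℤ) ≤ c (a + R * b) := by positivity
    rw [abs_le]
    constructor <;> simp only <;> linarith

end CUniqM

open CUniqM

theorem uniq : StmtUniq := by
  intro w R n g h hd e2 h2 e3 h3
  rw [pk1, mul_assoc, pow_mul] at hd
  have hR : 0 < R := by omega
  have := uniq1 (by positivity) _ (fun p => g (p % R) (p / R))
    (fun p hp => h _ (Nat.mod_lt _ hR) _ (Nat.div_lt_of_lt_mul hp)) hd (R * e3 + e2)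
    (by nlinarith)
  simpa only [Nat.mul_add_mod, Nat.mod_eq_of_lt h2, Nat.mul_add_div hR, Nat.div_eq_of_lt h2,
    add_zero] using this

theorem dokS : StmtDok := by
  intro w R β n s m hβ h
  cases s with
  | true =>
    obtain ⟨g, hg⟩ := rep hβ (z := off w R β n + m) h
    exact ⟨g, by simpa [sv] using hg⟩
  | false =>
    have h' : (Nat.ble m (off w R β n) && dok1 (dmk w R β n) (off w R β n - m)) = true := h
    rw [Bool.and_eq_true, Nat.ble_eq] at h'
    obtain ⟨g, hg⟩ := rep hβ h'.2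
    exact ⟨g, by simpa [sv, Nat.cast_sub h'.1] using hg⟩

end Vale.Agent.P181.S
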