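import Vale.Agent.P181.S.CSpec

namespace Vale.Agent.P181.S.CValM

open Finset

lemma pk_one (w R n : ℕ) (g : ℕ → ℕ → ℤ) :
    pk w R n g = ∑ i ∈ range (R * n), g (i % R) (i / R) * (2 ^ w) ^ i := by
  induction n with
  | zero => simp [pk]
  | succ n ih =>
    rw [pk, sum_range_succ, ← pk, ih, mul_add, mul_one, sum_range_add]
    congr 1
    refine sum_congr rfl fun x hx => ?_
    have hx := mem_range.1 hx
    rw [Nat.mul_add_mod, Nat.mod_eq_of_lt hx, Nat.mul_add_div (by omega), Nat.div_eq_of_lt hx,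
      add_zero, ← pow_mul, add_comm x]

lemma low_bd {X : ℤ} (hX : 2 ≤ X) (c : ℕ → ℤ) (P : ℕ) (hc : ∀ i < P, 4 * |c i| ≤ X) :
    2 * |∑ i ∈ range P, c i * X ^ i| < X ^ P := by
  induction P with
  | zero => simp
  | succ P ih =>
    have h1 := ih fun i hi => hc i (by omega)
    have h2 := hc P (by omega)
    have h3 : 0 < X ^ P := by positivity
    have h4 := abs_add_le (∑ i ∈ range P, c i * X ^ i) (c P * X ^ P)
    rw [abs_mul, abs_of_pos h3] at h4
    rw [sum_range_succ, pow_succ]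
    nlinarith [abs_nonneg (c P)]

lemma split (X : ℤ) (c : ℕ → ℤ) {P N : ℕ} (h : P < N) : ∃ H : ℤ,
    ∑ i ∈ range N, c i * X ^ i = ∑ i ∈ range P, c i * X ^ i + X ^ P * (c P + X * H) := by
  obtain ⟨k, rfl⟩ := Nat.exists_eq_add_of_lt h
  refine ⟨∑ i ∈ range k, c (P + 1 + i) * X ^ i, ?_⟩
  rw [add_right_comm, sum_range_add, sum_range_succ, mul_add, add_assoc, mul_comm (c P), mul_sum,
    mul_sum]
  congr 2
  exact sum_congr rfl fun i _ => by ring

lemma bits (a N k l : ℕ) (h : k + l ≤ N) : a % 2 ^ N / 2 ^ k % 2 ^ l = a / 2 ^ k % 2 ^ l := by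
  refine Nat.eq_of_testBit_eq fun i => ?_
  simp only [Nat.testBit_mod_two_pow, Nat.testBit_div_two_pow]
  by_cases hi : i < l
  · have : i + k < N := by omega
    simp [hi, this]
  · simp [hi]

lemma msk_eq (a w : ℕ) : Nat.land a (Nat.pred (Nat.shiftLeft 1 w)) = a % 2 ^ w := by
  rw [Nat.land_eq, Nat.shiftLeft_eq', Nat.shiftLeft_eq, one_mul, Nat.pred_eq_sub_one,
    Nat.and_two_pow_sub_one_eq_mod]

lemma dg1_eq {w R p : ℕ} (m r : ℕ) (hw : 1 ≤ w) (h1 : 1 ≤ p) (hp : p < R) :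
    dg1 w (rw1 w R m r) p = (m / 2 ^ (w * (p + R * r) - 1) % 2 ^ (w + 1) + 1) / 2 := by
  have h2 : 1 ≤ w * p := Nat.mul_pos hw h1
  have h3 : w * (p + 1) ≤ w * R := Nat.mul_le_mul_left _ hp
  rw [dg1, rw1, msk_eq, msk_eq]
  simp only [Nat.shiftRight_eq, Nat.shiftRight_eq_div_pow, Nat.mul_eq, Nat.pred_eq_sub_one,
    Nat.succ_eq_add_one, pow_one]
  rw [bits _ _ _ _ (by rw [mul_add] at h3; omega), Nat.div_div_eq_div_mul, ← pow_add]
  congr 5
  rw [mul_add, mul_assoc]
  omega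

lemma digit {X Y m L d H : ℤ} (hX : 0 < X) (hY : 0 < Y) (hL : |L| < Y)
    (h : m = L + 2 * Y * (d + X * H)) :
    ∃ t, (m / Y % (2 * X) + 1) / 2 = d + X * t ∧ (m / Y % (2 * X) + 1) / 2 ≤ X := by
  have h1 : m / Y = L / Y + 2 * (d + X * H) := by
    rw [h, show 2 * Y * (d + X * H) = Y * (2 * (d + X * H)) by ring,
      Int.add_mul_ediv_left _ _ hY.ne']
  rw [abs_lt] at hL
  have h2 : L / Y < 1 := Int.ediv_lt_of_lt_mul hY (by linarith)
  have h3 : -1 ≤ L / Y := Int.le_ediv_of_mul_le hY (by linarith)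
  have h4 := Int.emod_add_mul_ediv (m / Y) (2 * X)
  have h5 := Int.emod_lt_of_pos (m / Y) (by linarith : 0 < 2 * X)
  refine ⟨H - m / Y / (2 * X), ?_, by omega⟩
  rw [mul_sub]
  rw [mul_assoc] at h4
  generalize X * (m / Y / (2 * X)) = u at h4 ⊢
  generalize X * H = v at h1 ⊢
  omega

lemma fin_eq {X a g t : ℤ} (h0 : 0 ≤ g) (h1 : g < X) (h : a = g + X * t) : a % X = g := by
  rw [h, Int.add_mul_emod_self_left, Int.emod_eq_of_lt h0 h1]

end Vale.Agent.P181.S.CValM

namespace Vale.Agent.P181.S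

open Finset CValM

theorem valS : StmtVal := by
  intro w R C n' e g r p v hw hC hn hR hp h0 h
  obtain ⟨n, s, m⟩ := e
  change getD w (cond (Nat.blt r n) _ _) p = _ at h
  have hr : r < n := by
    by_contra hc
    have : Nat.blt r n = false := by rwa [← Bool.not_eq_true, Nat.blt_eq]
    rw [this, cond_false] at h
    change cond (Nat.blt p 0) (Nat.succ (dgt w true 0 p)) 0 = v + 1 at h
    have h2 : Nat.blt p 0 = false := by rw [← Bool.not_eq_true, Nat.blt_eq]; omega
    rw [h2, cond_false] at h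
    omega
  rw [Nat.blt_eq.mpr hr, cond_true] at h
  change cond (Nat.blt p C) _ 0 = v + 1 at h
  have hpC : p < C := by
    by_contra hc
    have : Nat.blt p C = false := by rwa [← Bool.not_eq_true, Nat.blt_eq]
    rw [this, cond_false] at h
    omega
  rw [Nat.blt_eq.mpr hpC, cond_true, Nat.succ_eq_add_one, Nat.add_right_cancel_iff] at h
  refine ⟨hr, hpC, ?_⟩
  have hpR : p < R := hpC.trans_le hC
  have hrn : r < n' := hr.trans_le hn
  have hX : (2 : ℤ) ^ w = 4 * 2 ^ (w - 2) := by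
    obtain ⟨k, rfl⟩ := Nat.exists_eq_add_of_le hw
    rw [Nat.add_sub_cancel_left, pow_add]; norm_num
  have hB : (0 : ℤ) < 2 ^ (w - 2) := by positivity
  have hP : p + R * r < R * n' := by
    have : R * (r + 1) ≤ R * n' := Nat.mul_le_mul_left _ hrn
    rw [mul_add] at this
    omega
  obtain ⟨H, hH⟩ := split (2 ^ w) (fun i => g (i % R) (i / R)) hP
  have hL := low_bd (X := 2 ^ w) (by omega) (fun i => g (i % R) (i / R)) (p + R * r) fun i hi => by
    have := hR.2 (i % R) (Nat.mod_lt _ (by omega)) (i / R)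
      (Nat.div_lt_of_lt_mul (hi.trans hP))
    omega
  rw [← pk_one, ← hR.1] at hH
  simp only [Nat.add_mul_mod_self_left, Nat.mod_eq_of_lt hpR, Nat.add_mul_div_left _ _
    (show 0 < R by omega), Nat.div_eq_of_lt hpR, zero_add] at hH
  have hY : ((2 : ℤ) ^ w) ^ (p + R * r) = 2 * 2 ^ (w * (p + R * r) - 1) := by
    have : 1 ≤ w * (p + R * r) := Nat.mul_pos (by omega) (by omega)
    rw [← pow_mul, ← pow_succ', Nat.sub_add_cancel this]
  rw [hY] at hH hL
  generalize ∑ i ∈ range (p + R * r), g (i % R) (i / R) * (2 ^ w) ^ i = L at hH hL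
  have hg0 := h0 hr hpC
  have hg1 : g p r < 2 ^ w := by
    have := (abs_le.1 (hR.2 p hpR r hrn)).2
    omega
  have hd := dg1_eq m r (show 1 ≤ w by omega) hp hpR
  have hd' : (dg1 w (rw1 w R m r) p : ℤ) =
      ((m : ℤ) / 2 ^ (w * (p + R * r) - 1) % (2 * 2 ^ w) + 1) / 2 := by
    rw [hd, pow_succ']
    push_cast
    rfl
  rw [← h, dgt, msk_eq, msk_eq]
  cases s
  · obtain ⟨t, h1, h2⟩ := digit (X := 2 ^ w) (Y := 2 ^ (w * (p + R * r) - 1)) (m := m) (L := -L)
      (d := -g p r) (H := -H) (by positivity) (by positivity) (by rw [abs_neg]; omega) (by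
        simp only [sv, cond_false] at hH
        linear_combination -hH)
    rw [← hd'] at h1 h2
    have h3 : dg1 w (rw1 w R m r) p ≤ 2 ^ w := by exact_mod_cast h2
    rw [cond_false, Nat.sub_eq, Nat.shiftLeft_eq', Nat.shiftLeft_eq, one_mul]
    push_cast [h3]
    exact (fin_eq (t := 1 - t) hg0 hg1 (by rw [h1]; ring)).symm
  · obtain ⟨t, h1, -⟩ := digit (X := 2 ^ w) (Y := 2 ^ (w * (p + R * r) - 1)) (m := m) (L := L)
      (d := g p r) (H := H) (by positivity) (by positivity) (by omega) (by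
        simpa only [sv, cond_true] using hH)
    rw [← hd'] at h1
    rw [cond_true]
    push_cast
    exact (fin_eq hg0 hg1 h1).symm

end Vale.Agent.P181.S
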