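import Vale.Agent.P181.S.Spec

namespace Vale.Agent.P181.S

open Finset Matrix

namespace CycM

variable {n : ℕ} {ι : Type} [Fintype ι] [DecidableEq ι] {G : GD n ι}

/-- the contravariant form as a bilinear map -/
noncomputable def Bl (G : GD n ι) : LinearMap.BilinForm ℝ (ι → ℝ) :=
  LinearMap.mk₂ ℝ G.B
    (fun x x' y => by simp [GD.B, ← sum_add_distrib, mul_add, add_mul])
    (fun c x y => by simp only [GD.B, Pi.smul_apply, smul_eq_mul, mul_sum]
                     exact sum_congr rfl fun a _ => by ring)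
    (fun x y y' => by simp [GD.B, ← sum_add_distrib, mul_add])
    (fun c x y => by simp only [GD.B, Pi.smul_apply, smul_eq_mul, mul_sum]
                     exact sum_congr rfl fun a _ => by ring)

omit [DecidableEq ι] in
theorem Bl_apply (x y : ι → ℝ) : Bl G x y = G.B x y := rfl

omit [DecidableEq ι] in
theorem B_symm (x y : ι → ℝ) : G.B x y = G.B y x :=
  sum_congr rfl fun a _ => by ring

theorem B_nonneg (h : G.Ok) (x : ι → ℝ) : 0 ≤ G.B x x :=
  sum_nonneg fun a _ => by rw [mul_assoc]; exact mul_nonneg (h.pos a).le (mul_self_nonneg _)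

theorem B_eq_zero (h : G.Ok) {x : ι → ℝ} (hx : G.B x x = 0) : x = 0 := by
  funext a
  have := (sum_eq_zero_iff_of_nonneg fun a _ => by
    rw [mul_assoc]; exact mul_nonneg (h.pos a).le (mul_self_nonneg _)).1 hx a (mem_univ _)
  rw [mul_assoc] at this
  exact mul_self_eq_zero.1 ((mul_eq_zero.1 this).resolve_left (h.pos a).ne')

theorem adj (h : G.Ok) (i j : Fin n) (x y : ι → ℝ) :
    G.B (G.E i j *ᵥ x) y = G.B x (G.E j i *ᵥ y) := by
  simp only [GD.B, mulVec, dotProduct, mul_sum, sum_mul]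
  rw [sum_comm]
  refine sum_congr rfl fun b _ => sum_congr rfl fun a _ => ?_
  have := h.adj i j a b
  linear_combination (x b * y a) * this

theorem shift (h : G.Ok) {i j : Fin n} {a b : ι} (hE : G.E i j b a ≠ 0) (k : Fin n) :
    (G.wt b k : ℝ) + (if j = k then 1 else 0) = G.wt a k + if k = i then 1 else 0 := by
  have := congrFun (congrFun (h.comm k k i j) b) a
  rw [h.diag k] at this
  simp only [Matrix.sub_apply, diagonal_mul, mul_diagonal] at this
  apply mul_right_cancel₀ hE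
  split_ifs at this ⊢ with h1 h2 h2
  · subst h1; subst h2; linarith
  · subst h1; simp only [Matrix.zero_apply] at this; linarith
  · subst h2; simp only [Matrix.zero_apply] at this; linarith
  · simp only [Matrix.zero_apply] at this; linarith

theorem shift_sum (h : G.Ok) {i j : Fin n} {a b : ι} (hE : G.E i j b a ≠ 0) (τ : Fin n → ℝ) :
    ∑ k, τ k * G.wt b k + τ j = ∑ k, τ k * G.wt a k + τ i := by
  have := sum_congr (rfl : (univ : Finset (Fin n)) = univ) fun k _ =>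
    congrArg (τ k * ·) (shift h hE k)
  simpa [mul_add, sum_add_distrib] using this

omit [DecidableEq ι] in
theorem ex_ne {M : Matrix ι ι ℝ} {y : ι → ℝ} {b : ι} (h : (M *ᵥ y) b ≠ 0) :
    ∃ a, M b a ≠ 0 ∧ y a ≠ 0 := by
  obtain ⟨a, -, ha⟩ := exists_ne_zero_of_sum_ne_zero h
  exact ⟨a, left_ne_zero_of_mul ha, right_ne_zero_of_mul ha⟩

theorem wt_eq (h : G.Ok) {l : Fin n → ℕ} {v : ι → ℝ} (hv : ∀ i, G.E i i *ᵥ v = (l i : ℝ) • v)
    {a : ι} (ha : v a ≠ 0) : G.wt a = l := by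
  funext i
  have := congrFun (hv i) a
  rw [h.diag i, mulVec_diagonal] at this
  exact_mod_cast mul_right_cancel₀ ha this

theorem word_nil (v : ι → ℝ) : G.word [] *ᵥ v = v := by simp [GD.word]

theorem word_cons (p : Fin n × Fin n) (w : List (Fin n × Fin n)) (v : ι → ℝ) :
    G.word (p :: w) *ᵥ v = G.E p.1 p.2 *ᵥ (G.word w *ᵥ v) := by
  simp [GD.word]

theorem word_mem {w : List (Fin n × Fin n)} (hw : ∀ p ∈ w, p.2 < p.1) (v : ι → ℝ) :
    G.word w *ᵥ v ∈ G.cyc v := Submodule.subset_span ⟨w, hw, rfl⟩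

theorem self_mem (v : ι → ℝ) : v ∈ G.cyc v := by
  simpa [word_nil] using word_mem (G := G) (w := []) (by simp) v

theorem span_st {S : Set (ι → ℝ)} {N : Submodule ℝ (ι → ℝ)} (M : Matrix ι ι ℝ)
    (h : ∀ x ∈ S, M *ᵥ x ∈ N) : ∀ x ∈ Submodule.span ℝ S, M *ᵥ x ∈ N := fun x hx =>
  (Submodule.span_le.2 h : Submodule.span ℝ S ≤ N.comap M.mulVecLin) hx

theorem low {i j : Fin n} (hij : j < i) (v : ι → ℝ) : ∀ x ∈ G.cyc v, G.E i j *ᵥ x ∈ G.cyc v := by
  refine span_st _ ?_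
  rintro _ ⟨w, hw, rfl⟩
  rw [← word_cons (i, j)]
  exact word_mem (by simpa [hij] using hw) v

theorem comm_vec (h : G.Ok) (i j k l : Fin n) (y : ι → ℝ) :
    G.E i j *ᵥ (G.E k l *ᵥ y) = G.E k l *ᵥ (G.E i j *ᵥ y) +
      ((if j = k then G.E i l *ᵥ y else 0) - if l = i then G.E k j *ᵥ y else 0) := by
  have := congrArg (· *ᵥ y) (h.comm i j k l)
  simp only [sub_mulVec, ← mulVec_mulVec] at this
  rw [← sub_eq_iff_eq_add', this]
  split_ifs <;> simp

theorem inv (h : G.Ok) {l : Fin n → ℕ} {v : ι → ℝ} (hv : v ∈ G.HW l) (i j : Fin n) :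
    ∀ x ∈ G.cyc v, G.E i j *ᵥ x ∈ G.cyc v := by
  refine span_st _ ?_
  rintro _ ⟨w, hw, rfl⟩
  induction w generalizing i j with
  | nil =>
    rw [word_nil]
    rcases lt_trichotomy i j with h1 | rfl | h1
    · rw [hv.2 i j h1]; exact zero_mem _
    · rw [hv.1]; exact Submodule.smul_mem _ _ (self_mem v)
    · exact low h1 v v (self_mem v)
  | cons p w ih =>
    have hw' : ∀ q ∈ w, q.2 < q.1 := fun q hq => hw q (List.mem_cons_of_mem _ hq)
    rw [word_cons, comm_vec h]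
    refine add_mem (low (hw p List.mem_cons_self) v _ (ih i j hw')) (sub_mem ?_ ?_) <;>
      split_ifs
    exacts [ih _ _ hw', zero_mem _, ih _ _ hw', zero_mem _]

theorem anti (h : G.Ok) {l : Fin n → ℕ} {v : ι → ℝ} (hv : v ∈ G.HW l) (h0 : v ≠ 0) :
    Antitone l := by
  intro i j hij
  rcases hij.eq_or_lt with rfl | hij
  · exact le_rfl
  have h1 := B_nonneg h (G.E j i *ᵥ v)
  rw [adj h, comm_vec h, hv.2 i j hij, if_pos rfl, if_pos rfl, hv.1, hv.1, mulVec_zero, zero_add,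
    ← sub_smul, ← Bl_apply, map_smul, Bl_apply, smul_eq_mul] at h1
  have h2 : 0 < G.B v v := (B_nonneg h v).lt_of_ne fun e => h0 (B_eq_zero h e.symm)
  have := nonneg_of_mul_nonneg_left h1 h2
  exact_mod_cast sub_nonneg.1 this

theorem top (h : G.Ok) (N : Submodule ℝ (ι → ℝ)) (hN : ∀ i j, ∀ x ∈ N, G.E i j *ᵥ x ∈ N)
    (hH : ∀ l, G.HW l ≤ N) : N = ⊤ := by
  classical
  by_contra hne
  obtain ⟨f, hf0, hf⟩ := N.exists_le_ker_of_lt_top (lt_top_iff_ne_top.2 hne)
  let P : Submodule ℝ (ι → ℝ) := ⨅ x ∈ N, LinearMap.ker (Bl G x)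
  have hP : ∀ y, y ∈ P ↔ ∀ x ∈ N, G.B x y = 0 := fun y => by
    simp [P, Submodule.mem_iInf, Bl_apply]
  have hPE : ∀ i j, ∀ y ∈ P, G.E i j *ᵥ y ∈ P := fun i j y hy =>
    (hP _).2 fun x hx => by rw [← adj h]; exact (hP y).1 hy _ (hN _ _ x hx)
  have hex : ∃ a, ∃ y ∈ P, y a ≠ 0 := by
    by_contra hc
    push Not at hc
    have hy : (fun a => f (Pi.single a 1) / G.ν a) ∈ P := (hP _).2 fun x hx => by
      have : f x = 0 := hf hx
      rw [← this, LinearMap.pi_apply_eq_sum_univ]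
      refine sum_congr rfl fun a _ => ?_
      have e : (fun j => if a = j then (1 : ℝ) else 0) = Pi.single a 1 := by
        funext j; simp [Pi.single_apply, eq_comm]
      rw [e, smul_eq_mul]
      field_simp [(h.pos a).ne']
    refine hf0 (LinearMap.pi_ext' fun a => LinearMap.ext_ring ?_)
    have := hc a _ hy
    simpa [(h.pos a).ne'] using this
  let τ : Fin n → ℝ := fun k => -(k : ℝ)
  obtain ⟨a0, ha0, hmax⟩ := exists_max_image (univ.filter fun a => ∃ y ∈ P, y a ≠ 0)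
    (fun a => ∑ k, τ k * G.wt a k) (by
      obtain ⟨a, ha⟩ := hex
      exact ⟨a, mem_filter.2 ⟨mem_univ _, ha⟩⟩)
  obtain ⟨y, ⟨hy, hy0⟩, hmin⟩ := WellFounded.has_min
    (InvImage.wf (fun y : ι → ℝ => #{a | y a ≠ 0}) Nat.lt_wfRel.wf)
    {y | y ∈ P ∧ y a0 ≠ 0} (mem_filter.1 ha0).2
  have hw : ∀ i, G.E i i *ᵥ y = (G.wt a0 i : ℝ) • y := by
    intro i
    by_contra hc
    obtain ⟨b, hb⟩ := Function.ne_iff.1 (sub_ne_zero.2 hc)
    set z := G.E i i *ᵥ y - (G.wt a0 i : ℝ) • y with hz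
    have hz' : ∀ a, z a = ((G.wt a i : ℝ) - G.wt a0 i) * y a := fun a => by
      rw [hz, h.diag i, Pi.sub_apply, mulVec_diagonal, Pi.smul_apply, smul_eq_mul]; ring
    have hb' : z b ≠ 0 := hb
    refine hmin (y - (y b / z b) • z) ⟨sub_mem hy (P.smul_mem _ (sub_mem (hPE _ _ _ hy)
      (P.smul_mem _ hy))), by simpa [hz' a0] using hy0⟩ ?_
    refine card_lt_card ⟨fun a ha => ?_, fun hc => ?_⟩
    · refine mem_filter.2 ⟨mem_univ _, fun e => (mem_filter.1 ha).2 ?_⟩
      simp [hz' a, e]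
    · have := hc (mem_filter.2 ⟨mem_univ b, right_ne_zero_of_mul (hz' b ▸ hb')⟩)
      refine (mem_filter.1 this).2 ?_
      simp only [Pi.sub_apply, Pi.smul_apply, smul_eq_mul]
      field_simp
      ring
  have hr : ∀ i j, i < j → G.E i j *ᵥ y = 0 := by
    intro i j hij
    funext b
    by_contra hb
    obtain ⟨a, h1, h2⟩ := ex_ne hb
    have e1 := shift_sum h h1 τ
    have e2 := hmax b (mem_filter.2 ⟨mem_univ _, _, hPE _ _ _ hy, hb⟩)
    rw [wt_eq h hw h2] at e1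
    have : (i : ℝ) < j := by exact_mod_cast hij
    simp only [τ] at e1 e2
    linarith
  have := B_eq_zero h ((hP y).1 hy y (hH _ ⟨hw, hr⟩))
  exact hy0 (by rw [this]; rfl)

theorem span_B {S : Set (ι → ℝ)} {x : ι → ℝ} (h : ∀ y ∈ S, G.B x y = 0) :
    ∀ y ∈ Submodule.span ℝ S, G.B x y = 0 := fun _ hy =>
  (Submodule.span_le.2 h : Submodule.span ℝ S ≤ LinearMap.ker (Bl G x)) hy

theorem orth (h : G.Ok) {l l' : Fin n → ℕ} (hl : l ≠ l') {v v' : ι → ℝ} (hv : v ∈ G.HW l)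
    (hv' : v' ∈ G.HW l') : ∀ x ∈ G.cyc v, ∀ y ∈ G.cyc v', G.B x y = 0 := by
  intro x hx y hy
  rw [B_symm]
  refine span_B ?_ x hx
  rintro _ ⟨w, hw, rfl⟩
  rw [B_symm]
  clear hx
  induction w generalizing y with
  | nil =>
    rw [word_nil]
    refine span_B ?_ y hy
    rintro _ ⟨w, hw, rfl⟩
    cases w with
    | nil =>
      obtain ⟨i, hi⟩ := Function.ne_iff.1 hl
      have := adj h i i v v'
      rw [hv.1, hv'.1, ← Bl_apply, ← Bl_apply, map_smul, map_smul, LinearMap.smul_apply,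
        Bl_apply, smul_eq_mul, smul_eq_mul, ← sub_eq_zero, ← sub_mul] at this
      rw [word_nil]
      exact (mul_eq_zero.1 this).resolve_left (sub_ne_zero.2 (by exact_mod_cast hi))
    | cons p w =>
      rw [word_cons, ← adj h, hv.2 _ _ (hw p List.mem_cons_self), ← Bl_apply, map_zero,
        LinearMap.zero_apply]
  | cons p w ih =>
    rw [word_cons, adj h]
    exact ih _ (inv h hv' _ _ y hy) fun q hq => hw q (List.mem_cons_of_mem _ hq)

end CycM

open CycM in
theorem cycS : StmtCyc := fun _ _ _ _ _ h =>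
  ⟨adj h, fun _ _ hv => inv h hv, fun _ _ hv => anti h hv, top h,
    fun _ _ hl _ hv _ hv' => orth h hl hv hv'⟩

end Vale.Agent.P181.S
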