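import Vale.Agent.P181.S.Cyc

namespace Vale.Agent.P181.S

open Finset Matrix CycM

namespace DecM

variable {n : ℕ} {ι : Type} [Fintype ι] [DecidableEq ι] {G : GD n ι}

/-- the isotypic component -/
def M (G : GD n ι) (l : Fin n → ℕ) : Submodule ℝ (ι → ℝ) :=
  Submodule.span ℝ {x | ∃ v ∈ G.HW l, ∃ w : List (Fin n × Fin n), (∀ p ∈ w, p.2 < p.1) ∧
    x = G.word w *ᵥ v}

theorem cyc_le {l : Fin n → ℕ} {v : ι → ℝ} (hv : v ∈ G.HW l) : G.cyc v ≤ M G l :=
  Submodule.span_mono fun _ ⟨w, hw, e⟩ => ⟨v, hv, w, hw, e⟩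

theorem hw_le (l : Fin n → ℕ) : G.HW l ≤ M G l := fun v hv => cyc_le hv (self_mem v)

theorem M_inv (h : G.Ok) (l : Fin n → ℕ) (i j : Fin n) : ∀ x ∈ M G l, G.E i j *ᵥ x ∈ M G l := by
  refine span_st _ ?_
  rintro _ ⟨v, hv, w, hw, rfl⟩
  exact cyc_le hv (inv h hv i j _ (word_mem hw v))

theorem M_orth (h : G.Ok) {l l' : Fin n → ℕ} (hl : l ≠ l') :
    ∀ x ∈ M G l, ∀ y ∈ M G l', G.B x y = 0 := by
  intro x hx
  refine span_B ?_
  rintro _ ⟨v', hv', w', hw', rfl⟩
  rw [B_symm]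
  refine span_B ?_ x hx
  rintro _ ⟨v, hv, w, hw, rfl⟩
  exact orth h hl.symm hv' hv _ (word_mem hw' v') _ (word_mem hw v)

theorem compl (h : G.Ok) (N : Submodule ℝ (ι → ℝ)) : IsCompl N ((Bl G).orthogonal N) := by
  refine (LinearMap.BilinForm.isCompl_orthogonal_iff_disjoint fun x y e => ?_).2 ?_
  · rw [Bl_apply, B_symm]; exact e
  · exact Submodule.disjoint_def.2 fun x hx hx' => B_eq_zero h (hx' x hx)

/-- the projection -/
noncomputable def pr (h : G.Ok) (l : Fin n → ℕ) : Matrix ι ι ℝ :=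
  LinearMap.toMatrix' ((M G l).projection _ (compl h _))

theorem pr_mem (h : G.Ok) (l : Fin n → ℕ) (x : ι → ℝ) : pr h l *ᵥ x ∈ M G l := by
  rw [pr, LinearMap.toMatrix'_mulVec]; exact Submodule.projection_apply_mem _ _

theorem pr_self (h : G.Ok) {l : Fin n → ℕ} {x : ι → ℝ} (hx : x ∈ M G l) : pr h l *ᵥ x = x := by
  rw [pr, LinearMap.toMatrix'_mulVec]; exact Submodule.projection_apply_of_mem_left _ hx

theorem pr_ne (h : G.Ok) {l l' : Fin n → ℕ} (hl : l ≠ l') {x : ι → ℝ} (hx : x ∈ M G l') :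
    pr h l *ᵥ x = 0 := by
  rw [pr, LinearMap.toMatrix'_mulVec]
  exact Submodule.projection_apply_of_mem_right _ fun y hy => M_orth h hl y hy x hx

/-- the highest weights that occur -/
noncomputable def La (G : GD n ι) : Finset (Fin n → ℕ) :=
  (univ.image G.wt).filter fun l => G.hw l ≠ 0

theorem ex_hw {l : Fin n → ℕ} (hl : G.hw l ≠ 0) : ∃ v ∈ G.HW l, v ≠ 0 := by
  by_contra hc
  push Not at hc
  exact hl (Submodule.finrank_eq_zero.2 ((Submodule.eq_bot_iff _).2 hc))

theorem hw_zero (h : G.Ok) {l : Fin n → ℕ} (hl : l ∉ La G) : G.hw l = 0 := by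
  by_contra hc
  obtain ⟨v, hv, h0⟩ := ex_hw hc
  obtain ⟨a, ha⟩ := Function.ne_iff.1 h0
  exact hl (mem_filter.2 ⟨mem_image.2 ⟨a, mem_univ _, wt_eq h hv.1 ha⟩, hc⟩)

theorem ext_M (h : G.Ok) {A A' : Matrix ι ι ℝ}
    (e : ∀ l ∈ La G, ∀ x ∈ M G l, A *ᵥ x = A' *ᵥ x) : A = A' := by
  have ht : (⨆ l ∈ La G, M G l) = ⊤ := by
    refine top h _ (fun i j x hx => ?_) fun l => ?_
    · refine (?_ : (⨆ l ∈ La G, M G l) ≤ (⨆ l ∈ La G, M G l).comap (G.E i j).mulVecLin) hx
      exact iSup₂_le fun l hl y hy => le_iSup₂_of_le (f := fun l (_ : l ∈ La G) => M G l) l hl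
        le_rfl (M_inv h l i j y hy)
    · by_cases hl : l ∈ La G
      · exact (hw_le l).trans (le_iSup₂_of_le (f := fun l (_ : l ∈ La G) => M G l) l hl le_rfl)
      · rw [Submodule.finrank_eq_zero.1 (hw_zero h hl)]; exact bot_le
  refine ext_iff_mulVec.2 fun x => ?_
  have : (⨆ l ∈ La G, M G l) ≤ LinearMap.eqLocus A.mulVecLin A'.mulVecLin :=
    iSup₂_le fun l hl y hy => e l hl y hy
  exact this (ht ▸ Submodule.mem_top)

theorem pr_comm (h : G.Ok) (l : Fin n → ℕ) (i j : Fin n) :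
    pr h l * G.E i j = G.E i j * pr h l := by
  refine ext_M h fun l' _ x hx => ?_
  rw [← mulVec_mulVec, ← mulVec_mulVec]
  by_cases e : l = l'
  · subst e; rw [pr_self h hx, pr_self h (M_inv h _ _ _ x hx)]
  · rw [pr_ne h e hx, pr_ne h e (M_inv h _ _ _ x hx), mulVec_zero]

theorem cas_vec (x : ι → ℝ) : G.cas *ᵥ x = ∑ i, ∑ j, G.E i j *ᵥ (G.E j i *ᵥ x) := by
  simp only [GD.cas, sum_mulVec, mulVec_mulVec]

theorem cas_comm (h : G.Ok) (k l : Fin n) (x : ι → ℝ) :
    G.cas *ᵥ (G.E k l *ᵥ x) = G.E k l *ᵥ (G.cas *ᵥ x) := by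
  rw [cas_vec, cas_vec, mulVec_sum]
  simp only [mulVec_sum]
  have : ∀ i j, G.E i j *ᵥ (G.E j i *ᵥ (G.E k l *ᵥ x)) = G.E k l *ᵥ (G.E i j *ᵥ (G.E j i *ᵥ x)) +
      (((if j = k then G.E i l *ᵥ (G.E j i *ᵥ x) else 0) -
        if l = i then G.E k j *ᵥ (G.E j i *ᵥ x) else 0) +
      ((if i = k then G.E i j *ᵥ (G.E j l *ᵥ x) else 0) -
        if l = j then G.E i j *ᵥ (G.E k i *ᵥ x) else 0)) := by
    intro i j
    rw [comm_vec h j i k l, mulVec_add, comm_vec h i j k l, add_assoc, mulVec_sub]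
    congr 3 <;> split_ifs <;> simp
  simp only [this, sum_add_distrib, sum_sub_distrib, sum_ite_eq', sum_ite_eq, mem_univ, if_true,
    sum_ite_irrel, sum_const_zero]
  abel

theorem cas_hw (h : G.Ok) {l : Fin n → ℕ} {v : ι → ℝ} (hv : v ∈ G.HW l) :
    G.cas *ᵥ v = casv l • v := by
  rw [cas_vec, casv, ← sum_add_distrib, sum_smul]
  refine sum_congr rfl fun i _ => ?_
  have : ∀ j, G.E i j *ᵥ (G.E j i *ᵥ v) = ((if i = j then (l i : ℝ) ^ 2 else 0) +
      if i < j then (l i : ℝ) - l j else 0) • v := by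
    intro j
    rcases lt_trichotomy i j with h1 | rfl | h1
    · rw [comm_vec h, hv.2 i j h1, if_pos rfl, if_pos rfl, hv.1, hv.1, if_neg h1.ne, if_pos h1]
      simp [sub_smul]
    · rw [hv.1, mulVec_smul, hv.1, smul_smul]; simp [sq]
    · rw [hv.2 j i h1, if_neg h1.ne', if_neg h1.not_gt]; simp
  simp only [this, ← sum_smul, sum_add_distrib, sum_ite_eq, mem_univ, if_true]

theorem cas_M (h : G.Ok) {l : Fin n → ℕ} : ∀ x ∈ M G l, G.cas *ᵥ x = casv l • x := by
  intro x hx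
  refine (Submodule.span_le.2 ?_ : M G l ≤ LinearMap.eqLocus G.cas.mulVecLin
    (casv l • LinearMap.id)) hx
  rintro _ ⟨v, hv, w, hw, rfl⟩
  change G.cas *ᵥ (G.word w *ᵥ v) = casv l • (G.word w *ᵥ v)
  clear hw hx
  induction w with
  | nil => rw [word_nil, cas_hw h hv]
  | cons p w ih => rw [word_cons, cas_comm h, ih, mulVec_smul]

/-- the dominance condition -/
def Q (G : GD n ι) (l : Fin n → ℕ) (a : ι) : Prop :=
  ∑ i, G.wt a i = ∑ i, l i ∧ ∀ τ : Fin n → ℝ, StrictAnti τ →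
    (G.wt a = l ∨ ∑ i, τ i * G.wt a i < ∑ i, τ i * l i)

theorem Q_M (h : G.Ok) {l : Fin n → ℕ} : ∀ x ∈ M G l, ∀ a, x a ≠ 0 → Q G l a := by
  intro x hx a
  induction hx using Submodule.span_induction generalizing a with
  | zero => exact fun e => absurd rfl e
  | add x y _ _ h1 h2 =>
    intro e
    by_cases c : x a = 0
    · exact h2 a (by simpa [c] using e)
    · exact h1 a c
  | smul c x _ h1 => exact fun e => h1 a (right_ne_zero_of_mul e)
  | mem x hx =>
    obtain ⟨v, hv, w, hw, rfl⟩ := hx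
    induction w generalizing a with
    | nil =>
      rw [word_nil]
      intro e
      have := wt_eq h hv.1 e
      exact ⟨by rw [this], fun _ _ => Or.inl this⟩
    | cons p w ih =>
      rw [word_cons]
      intro e
      obtain ⟨b, h1, h2⟩ := ex_ne e
      obtain ⟨q1, q2⟩ := ih b (fun q hq => hw q (List.mem_cons_of_mem _ hq)) h2
      refine ⟨?_, fun τ hτ => Or.inr ?_⟩
      · have := shift_sum h h1 fun _ => 1
        simp only [one_mul, add_left_inj] at this
        rw [← q1]; exact_mod_cast this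
      · have e1 := shift_sum h h1 τ
        have e2 := hτ (hw p List.mem_cons_self)
        rcases q2 τ hτ with e3 | e3
        · rw [e3] at e1; linarith
        · linarith

theorem tr (h : G.Ok) (l : Fin n → ℕ) :
    ∑ a ∈ univ.filter (fun a => G.wt a = l), pr h l a a = G.hw l := by
  let D : Matrix ι ι ℝ := diagonal fun a => if G.wt a = l then 1 else 0
  have hp : LinearMap.IsProj (G.HW l) (toLin' (pr h l * D)) := by
    refine ⟨fun x => ?_, fun x hx => ?_⟩
    · rw [toLin'_apply, ← mulVec_mulVec]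
      have h1 : ∀ i, G.E i i *ᵥ (pr h l *ᵥ (D *ᵥ x)) = (l i : ℝ) • (pr h l *ᵥ (D *ᵥ x)) := by
        intro i
        rw [mulVec_mulVec, ← pr_comm, ← mulVec_mulVec, ← mulVec_smul]
        congr 1
        funext a
        rw [h.diag, mulVec_diagonal, Pi.smul_apply, mulVec_diagonal]
        split_ifs with c
        · rw [c, smul_eq_mul]
        · simp
      refine ⟨h1, fun i j hij => ?_⟩
      funext b
      by_contra hb
      obtain ⟨a, h2, h3⟩ := ex_ne hb
      have hτ : StrictAnti fun k : Fin n => -(k : ℝ) := fun a b c => by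
        have : (a : ℝ) < b := by exact_mod_cast c
        simpa using this
      have e1 := shift_sum h h2 fun k => -(k : ℝ)
      rw [wt_eq h h1 h3] at e1
      have e2 := hτ hij
      rcases (Q_M h _ (M_inv h l i j _ (pr_mem h l _)) b hb).2 _ hτ with e3 | e3
      · rw [e3] at e1; simp only at e2; linarith
      · simp only at e2; linarith
    · rw [toLin'_apply, ← mulVec_mulVec]
      have : D *ᵥ x = x := by
        funext a
        rw [mulVec_diagonal]
        by_cases c : x a = 0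
        · simp [c]
        · rw [if_pos (wt_eq h hx.1 c), one_mul]
      rw [this, pr_self h (hw_le l hx)]
  have := hp.trace
  rw [Matrix.trace_toLin'_eq] at this
  rw [GD.hw, ← this, sum_filter, Matrix.trace]
  refine sum_congr rfl fun a _ => ?_
  simp only [diag_apply, D, mul_diagonal]
  split_ifs <;> simp

end DecM

open DecM in
theorem dec (_hC : StmtCyc) : StmtDec := by
  intro n ι _ _ G h
  refine ⟨La G, pr h, ?_, fun l => hw_zero h, fun l hl => ⟨?_, pr_comm h l, ?_, fun a ha => ?_,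
    tr h l⟩⟩
  · refine ext_M h fun l hl x hx => ?_
    rw [sum_mulVec, one_mulVec, sum_eq_single l (fun l' _ e => pr_ne h e hx) fun c => absurd hl c,
      pr_self h hx]
  · obtain ⟨v, hv, h0⟩ := ex_hw (mem_filter.1 hl).2
    exact anti h hv h0
  · refine ext_M h fun l' _ x hx => ?_
    rw [← mulVec_mulVec, cas_M h x hx, mulVec_smul, smul_mulVec]
    by_cases e : l = l'
    · rw [e]
    · rw [pr_ne h e hx, smul_zero, smul_zero]
  · exact Q_M h _ (pr_mem h l (Pi.single a 1)) a (by simpa using ha)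

end Vale.Agent.P181.S
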