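import Vale.Agent.P181.S.Rec

/-! The duality of the determinantal formula. -/

namespace Vale.Agent.P181.S

open Finset MvPolynomial Matrix

namespace DualM

open UFM RecM

section abs
variable {L : Type} [CommRing L]

theorem refl_prod {ι : Type} [DecidableEq ι] (u v : ι → L) (a : ι → ℕ) (huv : ∀ j, u j * v j = 1)
    (T : Finset ι) :
    (∏ j ∈ T, (1 - Polynomial.C (u j) * Polynomial.X ^ a j)).natDegree ≤ ∑ j ∈ T, a j ∧
    Polynomial.reflect (∑ j ∈ T, a j) (∏ j ∈ T, (1 - Polynomial.C (u j) * Polynomial.X ^ a j)) =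
      Polynomial.C (∏ j ∈ T, -u j) * ∏ j ∈ T, (1 - Polynomial.C (v j) * Polynomial.X ^ a j) := by
  have hd : ∀ j, (1 - Polynomial.C (u j) * Polynomial.X ^ a j).natDegree ≤ a j := fun j =>
    (Polynomial.natDegree_sub_le _ _).trans (max_le (by simp)
      ((Polynomial.natDegree_C_mul_le _ _).trans (Polynomial.natDegree_X_pow_le _)))
  refine ⟨(Polynomial.natDegree_prod_le _ _).trans (sum_le_sum fun j _ => hd j), ?_⟩
  induction T using Finset.induction_on with
  | empty => simp
  | insert j T hj ih =>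
    rw [sum_insert hj, prod_insert hj, prod_insert hj, prod_insert hj, Polynomial.reflect_mul _ _
      (hd j) ((Polynomial.natDegree_prod_le _ _).trans (sum_le_sum fun j _ => hd j)), ih,
      Polynomial.reflect_sub, Polynomial.reflect_C_mul_X_pow, Polynomial.revAt_le le_rfl,
      Polynomial.reflect_one]
    have h := congrArg Polynomial.C (huv j)
    rw [map_mul, map_one] at h
    simp only [map_mul, map_neg, Nat.sub_self, pow_zero, mul_one]
    linear_combination (-Polynomial.C (∏ j ∈ T, -u j) * Polynomial.X ^ a j *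
      ∏ j ∈ T, (1 - Polynomial.C (v j) * Polynomial.X ^ a j)) * h

theorem shift (ψ : ℤ → L) (q : ℕ → L) (h0 : q 0 = 1)
    (h : ∀ n : ℤ, ∑ s ∈ range 7, q s * ψ (n - s) = 0) (x : Fin 6 → ℤ) :
    (Matrix.of fun i j : Fin 6 => ψ (x i + 1 + (j : ℕ))).det =
      q 6 * (Matrix.of fun i j : Fin 6 => ψ (x i + (j : ℕ))).det := by
  let Cm : Matrix (Fin 6) (Fin 6) L := Matrix.of fun j' j =>
    if j = 5 then -q (6 - j') else if (j' : ℕ) = j + 1 then 1 else 0
  have hC : Cm.det = q 6 := by
    rw [det_succ_row_zero, Fin.sum_univ_castSucc, sum_eq_zero fun j _ => by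
      fin_cases j <;> simp [Cm]]
    have : Cm.submatrix Fin.succ (Fin.last 5).succAbove = 1 := by
      ext i j
      fin_cases i <;> fin_cases j <;> simp [Cm, Fin.succAbove]
    rw [this]
    simp [Cm, show Fin.last 5 = 5 from rfl]
    ring
  rw [← hC, mul_comm, ← det_mul]
  congr 1
  ext i j
  have h1 := h (x i + 6)
  simp only [sum_range_succ, range_zero, sum_empty, h0] at h1
  fin_cases j <;> simp [Cm, mul_apply, Fin.sum_univ_succ, add_assoc]
  ring_nf at h1 ⊢
  linear_combination h1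

theorem shift_pow (ψ : ℤ → L) (q : ℕ → L) (h0 : q 0 = 1)
    (h : ∀ n : ℤ, ∑ s ∈ range 7, q s * ψ (n - s) = 0) (x : Fin 6 → ℤ) (t : ℕ) :
    (Matrix.of fun i j : Fin 6 => ψ (x i + t + (j : ℕ))).det =
      q 6 ^ t * (Matrix.of fun i j : Fin 6 => ψ (x i + (j : ℕ))).det := by
  induction t with
  | zero => simp
  | succ t ih =>
    rw [pow_succ', mul_assoc, ← ih, ← shift ψ q h0 h fun i => x i + t]
    simp [add_assoc]

theorem main (hR : StmtRec) {r : List ℕ} (hr : ∀ a ∈ r, 1 ≤ a) (hs : r.sum = 6)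
    (f g : MvPolynomial (Fin r.length) ℤ →+* L) (hfg : ∀ j, f (X j) * g (X j) = 1) (k : ℕ)
    (e : Fin 6 → ℕ) (he : ∀ i, e i ≤ k + 5) :
    f (Matrix.of fun i j : Fin 6 => Phz r ((e i : ℤ) - (del 6 j : ℤ))).det =
      (∏ j, -f (X j)) ^ k * g (Matrix.of fun i j : Fin 6 =>
        Phz r (((k + 5 - e (Fin.rev i) : ℕ) : ℤ) - (del 6 j : ℤ))).det := by
  set c := ∏ j, -f (X j) with hc
  set d := ∏ j, -g (X j) with hd
  have hcd : c * d = 1 := by
    rw [hc, hd, ← prod_mul_distrib]
    exact prod_eq_one fun j _ => by rw [neg_mul_neg, hfg]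
  have hm : ∀ φ' : MvPolynomial (Fin r.length) ℤ →+* L, (Qp r).map φ' =
      ∏ j, (1 - Polynomial.C (φ' (X j)) * Polynomial.X ^ r.get j) := fun φ' => by
    rw [Qp, Polynomial.map_prod]
    simp
  have hq : ∀ s ≤ 6, f ((Qp r).coeff (6 - s)) = c * g ((Qp r).coeff s) := fun s hs' => by
    have h1 := (refl_prod (fun j => f (X j)) (fun j => g (X j)) r.get hfg univ).2
    rw [sum_get, hs, ← hm, ← hm] at h1
    have h2 := congrArg (fun p => Polynomial.coeff p s) h1
    simpa only [Polynomial.coeff_reflect, Polynomial.revAt_le hs', Polynomial.coeff_map,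
      Polynomial.coeff_C_mul] using h2
  have h6 : f ((Qp r).coeff 6) = c := by simpa [coeff_zero_Qp hr] using hq 0 (by omega)
  let ψ : ℤ → L := fun n => f (Phz r n) - d * g (Phz r (-6 - n))
  have hrec : ∀ n : ℤ, ∑ s ∈ range 7, f ((Qp r).coeff s) * ψ (n - s) = 0 := fun n => by
    have h1 := congrArg f (hR r hr n)
    have h2 := congrArg g (hR r hr (-n))
    rw [hs, map_sum] at h1 h2
    simp only [map_mul] at h1 h2
    simp only [ψ, mul_sub, sum_sub_distrib]
    rw [h1, ← sum_range_reflect, sum_congr rfl (g := fun s => g ((Qp r).coeff s) * g (Phz r (-n - s)))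
      fun s hs' => ?_, h2]
    · by_cases hn : n = 0 <;> simp [hn]
    · have := mem_range.1 hs'
      rw [show 7 - 1 - s = 6 - s from rfl, hq s (by omega), Nat.cast_sub (by omega),
        show (-6 - (n - (((6 : ℕ) : ℤ) - s))) = -n - s by push_cast; ring]
      linear_combination (g ((Qp r).coeff s) * g (Phz r (-n - s))) * hcd
  have key := shift_pow ψ (fun s => f ((Qp r).coeff s)) (by simp [coeff_zero_Qp hr]) hrec
    (fun i => (e i : ℤ) - k - 11) (k + 6)
  have e1 : (Matrix.of fun i j : Fin 6 => ψ ((e i : ℤ) - k - 11 + (k + 6 : ℕ) + (j : ℕ))) =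
      f.mapMatrix (Matrix.of fun i j : Fin 6 => Phz r ((e i : ℤ) - (del 6 j : ℤ))) := by
    ext i j
    have := j.2
    have h1 : (e i : ℤ) - k - 11 + (k + 6 : ℕ) + (j : ℕ) = (e i : ℤ) - (del 6 j : ℤ) := by
      simp only [del]; omega
    simp only [of_apply, h1, RingHom.mapMatrix_apply, map_apply, ψ]
    rw [Phz.eq_1 r (-6 - _), if_neg (by simp only [del]; omega)]
    simp
  have e2 : (Matrix.of fun i j : Fin 6 => ψ ((e i : ℤ) - k - 11 + (j : ℕ))) =
      (-d) • (g.mapMatrix (Matrix.of fun i j : Fin 6 =>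
        Phz r (((k + 5 - e (Fin.rev i) : ℕ) : ℤ) - (del 6 j : ℤ)))).submatrix
          Fin.revPerm Fin.revPerm := by
    ext i j
    have := j.2
    have := he i
    have h1 : -6 - ((e i : ℤ) - k - 11 + (j : ℕ)) =
        ((k + 5 - e i : ℕ) : ℤ) - (del 6 (Fin.rev j) : ℤ) := by
      simp only [del, Fin.val_rev]; omega
    simp only [of_apply, h1, RingHom.mapMatrix_apply, map_apply, ψ, Matrix.smul_apply,
      submatrix_apply, Fin.revPerm_apply, Fin.rev_rev]
    rw [Phz.eq_1 r (_ + _), if_neg (by omega)]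
    simp
  rw [e1, e2, det_smul, det_submatrix_equiv_self, ← RingHom.map_det, ← RingHom.map_det, h6] at key
  rw [key, Fintype.card_fin]
  have : c ^ 6 * d ^ 6 = 1 := by rw [← mul_pow, hcd, one_pow]
  linear_combination (c ^ k * g (Matrix.of fun i j : Fin 6 =>
    Phz r (((k + 5 - e (Fin.rev i) : ℕ) : ℤ) - (del 6 j : ℤ))).det) * this

end abs

/-- the exponent vector as an integer vector -/
def cs (l : ℕ) : (Fin l →₀ ℕ) →+ (Fin l → ℤ) where
  toFun m j := m j
  map_zero' := by ext; simp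
  map_add' _ _ := by ext; simp

theorem cs_inj (l : ℕ) : Function.Injective (cs l) := fun a b h => by
  ext j
  exact_mod_cast (show (a j : ℤ) = b j from congrFun h j)

theorem coeff_dom {l : ℕ} (p : (Fin l →₀ ℕ) →+ (Fin l → ℤ)) (hp : Function.Injective p)
    (P : MvPolynomial (Fin l) ℤ) (m : Fin l →₀ ℕ) :
    (AddMonoidAlgebra.mapDomainRingHom ℤ p P).coeff (p m) = coeff m P :=
  Finsupp.mapDomain_apply hp _ _

theorem dom_X {l : ℕ} (p : (Fin l →₀ ℕ) →+ (Fin l → ℤ)) (j : Fin l) :
    AddMonoidAlgebra.mapDomainRingHom ℤ p (X j : MvPolynomial (Fin l) ℤ) =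
      AddMonoidAlgebra.single (p (Finsupp.single j 1)) 1 :=
  AddMonoidAlgebra.mapDomain_single

end DualM

open DualM

theorem dual (hJ : StmtJT) (hR : StmtRec) : StmtDual := by
  intro r hr hs b k hk hb e he
  rw [hJ 6 r hr, hJ 6 r hr]
  have hn : Function.Injective (-cs r.length) := neg_injective.comp (cs_inj _)
  have h := main hR hr hs (AddMonoidAlgebra.mapDomainRingHom ℤ (cs r.length))
    (AddMonoidAlgebra.mapDomainRingHom ℤ (-cs r.length)) (fun j => by
      rw [dom_X, dom_X, AddMonoidAlgebra.single_mul_single]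
      simp [AddMonoidAlgebra.one_def]) k e he
  have hc : (∏ j, -AddMonoidAlgebra.mapDomainRingHom ℤ (cs r.length)
      (X j : MvPolynomial (Fin r.length) ℤ)) ^ k =
      AddMonoidAlgebra.single (cs r.length (fs fun _ => k)) 1 := by
    rw [← prod_pow]
    simp only [hk.neg_pow, ← map_pow]
    rw [← map_prod, show (∏ j, X j ^ k : MvPolynomial (Fin r.length) ℤ) = monomial (fs fun _ => k) 1
      by rw [monomial_eq, Finsupp.prod_fintype _ _ (by simp)]; simp [UFM.fs_apply]]
    exact AddMonoidAlgebra.mapDomain_single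
  rw [← coeff_dom _ (cs_inj _), h, hc, AddMonoidAlgebra.coeff_single_mul_apply, one_mul,
    ← coeff_dom _ hn]
  congr 1
  ext j
  simp [cs, UFM.fs_apply, Nat.cast_sub hb]
  ring

end Vale.Agent.P181.S
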