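import Vale.Agent.P181.S.Link

namespace Vale.Agent.P181.S

open Finset Matrix

namespace EmbM

open LinkM

theorem link_toLin {n : ℕ} {ι : Type} [Fintype ι] [DecidableEq ι] {G : GD n ι} {M : Type}
    [AddCommGroup M] [Module ℂ M] {b : Module.Basis ι ℂ M} {Y : Fin n → Fin n → M →ₗ[ℂ] M}
    (h : Link G b Y) (i j : Fin n) :
    Y i j = Matrix.toLin b b ((G.E i j).map Complex.ofRealHom) := by
  refine b.ext fun a => ?_
  rw [h i j a, Matrix.toLin_self]
  rfl

variable {V : Type} [AddCommGroup V] [Module ℂ V]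

/-- the double product -/
noncomputable def mu (a b : ℕ) (V : Type) [AddCommGroup V] [Module ℂ V] :
    MultilinearMap ℂ (fun _ : (Σ _ : Fin a, Fin b) => V) (SymP a (SymP b V)) :=
  (sp a (SymP b V)).compMultilinearMap (N := fun _ _ => V) fun _ => sp b V

theorem mu_apply (a b : ℕ) (v : (Σ _ : Fin a, Fin b) → V) :
    mu a b V v = sprod fun i => sprod fun j => v ⟨i, j⟩ := rfl

theorem span_mu (a b : ℕ) : Submodule.span ℂ (Set.range (mu a b V)) = ⊤ := by
  set S := Submodule.span ℂ (Set.range (mu a b V)) with hS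
  have h1 : S.mkQ ∘ₗ SymmetricPower.mk ℂ (Fin a) (SymP b V) = 0 :=
    PiTensorProduct.ext_of_span_eq_top (R := ℂ) (M := fun _ : Fin a => SymP b V)
      (γ := fun _ => Fin b → V) (g := fun _ => sp b V) (fun _ => span_sp b) (fun w => by
        have : mu a b V (fun p => w p.1 p.2) ∈ S := Submodule.subset_span ⟨_, rfl⟩
        exact (Submodule.Quotient.mk_eq_zero S).2 this)
  rw [eq_top_iff, ← span_sp a, Submodule.span_le]
  rintro _ ⟨m, rfl⟩
  exact (Submodule.Quotient.mk_eq_zero S).1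
    (LinearMap.congr_fun h1 (PiTensorProduct.tprod ℂ m))

theorem der_mu (a b : ℕ) (X : V →ₗ[ℂ] V) (X1 : SymP b V →ₗ[ℂ] SymP b V)
    (X2 : SymP a (SymP b V) →ₗ[ℂ] SymP a (SymP b V))
    (h1 : ∀ m, X1 (sprod m) = ∑ t, sprod (Function.update m t (X (m t))))
    (h2 : ∀ m, X2 (sprod m) = ∑ t, sprod (Function.update m t (X1 (m t))))
    (v : (Σ _ : Fin a, Fin b) → V) :
    X2 (mu a b V v) = ∑ t, mu a b V (Function.update v t (X (v t))) := by
  rw [mu_apply, h2, Fintype.sum_sigma]
  refine Finset.sum_congr rfl fun i _ => ?_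
  rw [h1, ← sp_apply, MultilinearMap.map_update_sum]
  refine Finset.sum_congr rfl fun j _ => ?_
  rw [sp_apply, mu_apply]
  refine congrArg sprod (funext fun i' => ?_)
  by_cases h : i' = i
  · subst h
    rw [Function.update_self]
    refine congrArg sprod (funext fun j' => ?_)
    by_cases h' : j' = j
    · subst h'
      simp
    · rw [Function.update_of_ne h', Function.update_of_ne (by simpa using h')]
  · rw [Function.update_of_ne h]
    refine congrArg sprod (funext fun j' => ?_)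
    rw [Function.update_of_ne (fun e => h (congrArg Sigma.fst e))]

theorem map_mu (a b : ℕ) (g : V →ₗ[ℂ] V) (v : (Σ _ : Fin a, Fin b) → V) :
    symMap a (symMap b g) (mu a b V v) = mu a b V fun t => g (v t) := by
  rw [mu_apply, mu_apply]
  refine ((exists_symMap a (symMap b g)).choose_spec _).trans ?_
  exact congrArg sprod (funext fun i => (exists_symMap b g).choose_spec _)

end EmbM

open EmbM in
theorem emb (hO : StmtOk) (hI : StmtInj) (hL : StmtLink) (hE : StmtExp) : StmtEmb := by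
  intro a b V _ _ _ hm
  set n := Module.finrank ℂ V
  let e : Module.Basis (Fin n) ℂ V := Module.finBasis ℂ V
  let Y0 : Fin n → Fin n → V →ₗ[ℂ] V := fun i j => (e.coord j).smulRight (e i)
  have hY0 : ∀ i j x, Y0 i j x = e.coord j x • e i := fun _ _ _ => rfl
  have h0 : Link (std n) e Y0 := by
    intro i j c
    rw [hY0, Finset.sum_eq_single i]
    · by_cases h : c = j
      · subst h
        simp [std]
      · simp [std, Ne.symm h]
    · intro x _ hx
      simp [std, Ne.symm hx]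
    · simp
  obtain ⟨b1, Y1, l1, d1⟩ := hL n _ (std n) V e Y0 b h0
  obtain ⟨b2, Y2, l2, d2⟩ := hL n _ _ _ b1 Y1 a l1
  obtain ⟨c1, Z1, k1, f1⟩ := hL n _ (std n) V e Y0 a h0
  obtain ⟨c2, Z2, k2, f2⟩ := hL n _ _ _ c1 Z1 b k1
  obtain ⟨Φ, Ψ, hΨ, hΦ⟩ := hI n _ _ (W n a b) (W n b a)
    (hO.2 n _ _ a (hO.2 n _ _ b (hO.1 n))) (hO.2 n _ _ b (hO.2 n _ _ a (hO.1 n))) hm
  refine ⟨Matrix.toLin b2 c2 (Φ.map Complex.ofRealHom), ?_, ?_⟩
  · apply Function.LeftInverse.injective (g := Matrix.toLin c2 b2 (Ψ.map Complex.ofRealHom))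
    intro x
    rw [← Matrix.toLin_mul_apply, ← Matrix.map_mul, hΨ]
    simp
  · intro g x
    refine hE n V e _ _ _ _ (mu a b V) (mu b a V) Y2 Z2 _ (span_mu a b) (span_mu b a)
      (fun i j v => der_mu a b (Y0 i j) (Y1 i j) (Y2 i j) (d1 i j) (d2 i j) v)
      (fun i j v => der_mu b a (Y0 i j) (Z1 i j) (Z2 i j) (f1 i j) (f2 i j) v) ?_
      g.toLinearMap _ _ (map_mu a b _) (map_mu b a _)
      (fun g' => ⟨_, _, map_mu a b g', map_mu b a g'⟩) x
    intro i j y
    rw [link_toLin l2, link_toLin k2, ← Matrix.toLin_mul_apply, ← Matrix.toLin_mul_apply,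
      ← Matrix.map_mul, ← Matrix.map_mul]
    exact congrArg (fun A => Matrix.toLin b2 c2 (Matrix.map A Complex.ofRealHom) y) (hΦ i j)

end Vale.Agent.P181.S
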