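import Vale.Agent.P181.S.Spec

namespace Vale.Agent.P181.S

open Finset Matrix

namespace ExpM

theorem dbl {σ M : Type} [Fintype σ] [DecidableEq σ] [AddCommGroup M] [Module ℂ M]
    (f : Finset σ → M) (r : ℕ) :
    ∑ S ∈ univ.filter (fun S : Finset σ => S.card = r), ∑ t ∈ Sᶜ, f (insert t S) =
      ((r : ℂ) + 1) • ∑ S ∈ univ.filter (fun S : Finset σ => S.card = r + 1), f S := by
  have : ((r : ℂ) + 1) • ∑ S ∈ univ.filter (fun S : Finset σ => S.card = r + 1), f S =
      ∑ S ∈ univ.filter (fun S : Finset σ => S.card = r + 1), ∑ _t ∈ S, f S := by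
    rw [smul_sum]
    refine sum_congr rfl fun S hS => ?_
    rw [sum_const, (mem_filter.1 hS).2, ← Nat.cast_smul_eq_nsmul ℂ]
    push_cast; rfl
  rw [this, sum_sigma', sum_sigma']
  refine sum_bij' (fun p _ => ⟨insert p.2 p.1, p.2⟩) (fun p _ => ⟨p.1.erase p.2, p.2⟩) ?_ ?_ ?_ ?_ ?_
  · rintro ⟨S, t⟩ h
    simp only [mem_sigma, mem_filter, mem_univ, true_and, mem_compl] at h ⊢
    exact ⟨by rw [card_insert_of_notMem h.2, h.1], mem_insert_self _ _⟩
  · rintro ⟨S, t⟩ h
    simp only [mem_sigma, mem_filter, mem_univ, true_and, mem_compl] at h ⊢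
    exact ⟨by rw [card_erase_of_mem h.2, h.1]; rfl, notMem_erase _ _⟩
  · rintro ⟨S, t⟩ h
    simp only [mem_sigma, mem_filter, mem_univ, true_and, mem_compl] at h
    simp [erase_insert h.2]
  · rintro ⟨S, t⟩ h
    simp only [mem_sigma, mem_filter, mem_univ, true_and] at h
    simp [insert_erase h.2]
  · rintro ⟨S, t⟩ _
    rfl

noncomputable def OL {M : Type} [AddCommGroup M] [Module ℂ M] (Y : M →ₗ[ℂ] M) (κ : ℂ) :
    ℕ → M →ₗ[ℂ] M
  | 0 => LinearMap.id
  | r + 1 => ((r : ℂ) + 1)⁻¹ • (Y ∘ₗ OL Y κ r - (κ * r) • OL Y κ r)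

theorem comm {M N : Type} [AddCommGroup M] [Module ℂ M] [AddCommGroup N] [Module ℂ N]
    {Y : M →ₗ[ℂ] M} {Y' : N →ₗ[ℂ] N} {Φ : M →ₗ[ℂ] N} (h : ∀ x, Φ (Y x) = Y' (Φ x)) (κ : ℂ)
    (r : ℕ) (x : M) : Φ (OL Y κ r x) = OL Y' κ r (Φ x) := by
  induction r with
  | zero => rfl
  | succ r ih => simp [OL, h, ih]

variable {V σ M : Type} [AddCommGroup V] [Module ℂ V] [Fintype σ] [DecidableEq σ]
  [AddCommGroup M] [Module ℂ M]

theorem ol (μ : MultilinearMap ℂ (fun _ : σ => V) M) (X : V →ₗ[ℂ] V) (κ : ℂ)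
    (hX : ∀ x, X (X x) = κ • X x) (Y : M →ₗ[ℂ] M)
    (hY : ∀ v, Y (μ v) = ∑ t, μ (Function.update v t (X (v t)))) (v : σ → V) (r : ℕ) :
    OL Y κ r (μ v) = ∑ S ∈ univ.filter (fun S : Finset σ => S.card = r),
      μ (S.piecewise (fun t => X (v t)) v) := by
  induction r with
  | zero => simp [OL, filter_eq']
  | succ r ih =>
    have key : ∀ S : Finset σ, Y (μ (S.piecewise (fun t => X (v t)) v)) =
        (κ * S.card) • μ (S.piecewise (fun t => X (v t)) v) +
          ∑ t ∈ Sᶜ, μ ((insert t S).piecewise (fun t => X (v t)) v) := by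
      intro S
      rw [hY, ← sum_add_sum_compl S]
      congr 1
      · rw [sum_congr rfl (g := fun _ => κ • μ (S.piecewise (fun t => X (v t)) v)) fun t ht => by
          rw [piecewise_eq_of_mem _ _ _ ht, hX, μ.map_update_smul]
          congr 2
          exact Function.update_eq_self_iff.2 (by rw [piecewise_eq_of_mem _ _ _ ht])]
        rw [sum_const, ← Nat.cast_smul_eq_nsmul ℂ, smul_smul, mul_comm]
      · refine sum_congr rfl fun t ht => ?_
        rw [piecewise_eq_of_notMem _ _ _ (mem_compl.1 ht), piecewise_insert]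
    have h0 : (r : ℂ) + 1 ≠ 0 := by exact_mod_cast Nat.succ_ne_zero r
    simp only [OL, LinearMap.smul_apply, LinearMap.sub_apply, LinearMap.comp_apply, ih, map_sum,
      key, sum_add_distrib]
    rw [dbl (fun S => μ (S.piecewise (fun t => X (v t)) v)) r, smul_sum (r := κ * r),
      sum_congr rfl (g := fun S => (κ * r) • μ (S.piecewise (fun t => X (v t)) v)) fun S hS => by
        rw [(mem_filter.1 hS).2], add_sub_cancel_left, smul_smul, inv_mul_cancel₀ h0, one_smul]

theorem ex (μ : MultilinearMap ℂ (fun _ : σ => V) M) (hμ : Submodule.span ℂ (Set.range μ) = ⊤)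
    (X : V →ₗ[ℂ] V) (κ : ℂ) (hX : ∀ x, X (X x) = κ • X x) (Y : M →ₗ[ℂ] M)
    (hY : ∀ v, Y (μ v) = ∑ t, μ (Function.update v t (X (v t)))) (c : ℂ) (K : ℕ)
    (hK : Fintype.card σ ≤ K) (ρ : M →ₗ[ℂ] M) (hρ : ∀ v, ρ (μ v) = μ fun t => c • X (v t) + v t) :
    ρ = ∑ r ∈ range (K + 1), c ^ r • OL Y κ r := by
  refine LinearMap.ext_on_range hμ fun v => ?_
  have h1 := μ.map_add_univ (fun t => c • X (v t)) v
  rw [hρ, show (fun t => c • X (v t) + v t) = (fun t => c • X (v t)) + v from rfl, h1,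
    ← sum_fiberwise_of_maps_to (s := univ) (t := range (K + 1)) (g := fun S : Finset σ => S.card)
      fun S _ => mem_range.2 (Nat.lt_succ_of_le ((card_le_univ S).trans hK))]
  simp only [LinearMap.sum_apply, LinearMap.smul_apply, ol μ X κ hX Y hY, smul_sum]
  refine sum_congr rfl fun r _ => sum_congr rfl fun S hS => ?_
  rw [← (mem_filter.1 hS).2, ← prod_const, ← μ.map_piecewise_smul (fun _ => c)]
  congr 1
  funext t
  by_cases ht : t ∈ S <;> simp [ht]

end ExpM

theorem expo : StmtExp := by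
  intro n V _ _ e σ τ _ _ _ _ M N _ _ _ _ μ μ' Y Y' Φ h1 h2 hY hY' hΦ g ρ ρ' hρ hρ' hex
  let P : Matrix (Fin n) (Fin n) ℂ → Prop := fun A => ∀ (ρ : M →ₗ[ℂ] M) (ρ' : N →ₗ[ℂ] N),
    (∀ v, ρ (μ v) = μ fun t => toLin e e A (v t)) →
    (∀ v, ρ' (μ' v) = μ' fun t => toLin e e A (v t)) → ∀ x, Φ (ρ x) = ρ' (Φ x)
  have mul : ∀ A B, P A → P B → P (A * B) := by
    intro A B hA hB ρ ρ' a b x
    obtain ⟨a1, a2, ha1, ha2⟩ := hex (toLin e e A)
    obtain ⟨b1, b2, hb1, hb2⟩ := hex (toLin e e B)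
    have e1 : ρ = a1 ∘ₗ b1 := LinearMap.ext_on_range h1 fun v => by
      simp [a, ha1, hb1, toLin_mul e e e]
    have e2 : ρ' = a2 ∘ₗ b2 := LinearMap.ext_on_range h2 fun v => by
      simp [b, ha2, hb2, toLin_mul e e e]
    rw [e1, e2, LinearMap.comp_apply, LinearMap.comp_apply, hA _ _ ha1 ha2, hB _ _ hb1 hb2]
  have el : ∀ i j c, P (1 + single i j c) := by
    intro i j c ρ ρ' a b x
    let X : V →ₗ[ℂ] V := (e.coord j).smulRight (e i)
    have hX : ∀ x, X (X x) = e.coord j (e i) • X x := fun x => by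
      simp only [X, LinearMap.smulRight_apply, map_smul, smul_smul]
      rw [mul_comm]
    have hA : ∀ x, toLin e e (1 + single i j c) x = c • X x + x := fun x => by
      rw [map_add, toLin_one, LinearMap.add_apply, LinearMap.id_apply, add_comm, toLin_apply,
        sum_eq_single i (fun k _ hk => by simp [single_mulVec, hk]) (by simp)]
      simp [X, single_mulVec, smul_smul]
    rw [ExpM.ex μ h1 X _ hX (Y i j) (hY i j) c (Fintype.card σ + Fintype.card τ)
      (Nat.le_add_right _ _) ρ (by simpa only [hA] using a),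
      ExpM.ex μ' h2 X _ hX (Y' i j) (hY' i j) c (Fintype.card σ + Fintype.card τ)
      (Nat.le_add_left _ _) ρ' (by simpa only [hA] using b)]
    simp only [LinearMap.sum_apply, LinearMap.smul_apply, map_sum, map_smul,
      ExpM.comm (hΦ i j)]
  have one : P 1 := by
    rcases isEmpty_or_nonempty (Fin n) with h | ⟨⟨i⟩⟩
    · intro ρ ρ' a b x
      have e1 : ρ = LinearMap.id := LinearMap.ext_on_range h1 fun v => by simp [a]
      have e2 : ρ' = LinearMap.id := LinearMap.ext_on_range h2 fun v => by simp [b]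
      simp [e1, e2]
    · simpa using el i i 0
  have dg : ∀ D : Fin n → ℂ, P (diagonal D) := by
    intro D
    have : ∀ s : Finset (Fin n), P (diagonal fun i => if i ∈ s then D i else 1) := by
      intro s
      induction s using Finset.induction_on with
      | empty => simpa using one
      | insert a s ha ih =>
        have := mul _ _ (el a a (D a - 1)) ih
        convert this using 1
        ext i j
        rw [mul_diagonal]
        by_cases h : i = j
        · subst h
          by_cases h' : i = a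
          · subst h'; simp [ha]
          · simp [h', Ne.symm h']
        · have : ¬ (a = i ∧ a = j) := fun c => h (c.1.symm.trans c.2)
          simp [h, this]
    simpa using this univ
  have all : P (LinearMap.toMatrix e e g) :=
    diagonal_transvection_induction P _ (fun D _ => dg D) (fun t => el t.i t.j t.c) mul
  exact all ρ ρ' (by simpa using hρ) (by simpa using hρ')

end Vale.Agent.P181.S
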