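import Vale.Agent.P181.S.Spec

namespace Vale.Agent.P181.S.InjM

open Finset Matrix

variable {n : ℕ} {ι κ : Type} [Fintype ι] [DecidableEq ι] [Fintype κ] [DecidableEq κ]

/-- rescaling to the Euclidean space -/
noncomputable def sc (ν : ι → ℝ) (h : ∀ a, 0 < ν a) : (ι → ℝ) ≃ₗ[ℝ] EuclideanSpace ℝ ι :=
  (LinearEquiv.piCongrRight fun a =>
    LinearEquiv.smulOfNeZero ℝ ℝ (Real.sqrt (ν a)) (Real.sqrt_pos.2 (h a)).ne').trans
    (WithLp.linearEquiv 2 ℝ (ι → ℝ)).symm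

theorem sc_inner (G : GD n ι) (h : ∀ a, 0 < G.ν a) (x y : ι → ℝ) :
    inner ℝ (sc G.ν h x) (sc G.ν h y) = G.B x y := by
  unfold GD.B
  rw [PiLp.inner_apply]
  refine sum_congr rfl fun a _ => ?_
  have := Real.mul_self_sqrt (h a).le
  simp [sc]
  linear_combination (x a * y a) * this

theorem exists_iso (G : GD n ι) (G' : GD n κ) (h : ∀ a, 0 < G.ν a) (h' : ∀ a, 0 < G'.ν a)
    (U : Submodule ℝ (ι → ℝ)) (U' : Submodule ℝ (κ → ℝ))
    (hr : Module.finrank ℝ U ≤ Module.finrank ℝ U') :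
    ∃ f : U →ₗ[ℝ] U', ∀ x y, G'.B (f x) (f y) = G.B x y := by
  let e := (sc G.ν h).submoduleMap U
  let e' := (sc G'.ν h').submoduleMap U'
  have hr' : Module.finrank ℝ (U.map (sc G.ν h : (ι → ℝ) →ₗ[ℝ] EuclideanSpace ℝ ι)) ≤
      Module.finrank ℝ (U'.map (sc G'.ν h' : (κ → ℝ) →ₗ[ℝ] EuclideanSpace ℝ κ)) := by
    rw [← e.finrank_eq, ← e'.finrank_eq]; exact hr
  let b := stdOrthonormalBasis ℝ (U.map (sc G.ν h : (ι → ℝ) →ₗ[ℝ] EuclideanSpace ℝ ι))
  let b' := stdOrthonormalBasis ℝ (U'.map (sc G'.ν h' : (κ → ℝ) →ₗ[ℝ] EuclideanSpace ℝ κ))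
  let g := b.toBasis.constr ℝ fun i => b' (Fin.castLE hr' i)
  have hg : Orthonormal ℝ (g ∘ b.toBasis) := by
    have : g ∘ b.toBasis = b' ∘ Fin.castLE hr' := by
      funext i
      simp only [g, Function.comp, Module.Basis.constr_basis]
    rw [this]
    exact b'.orthonormal.comp _ (Fin.castLE_injective hr')
  have hb : Orthonormal ℝ b.toBasis := by simpa using b.orthonormal
  let gi := g.isometryOfOrthonormal hb hg
  refine ⟨(e'.symm : _ →ₗ[ℝ] _) ∘ₗ g ∘ₗ (e : _ →ₗ[ℝ] _), fun x y => ?_⟩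
  have a1 : ∀ z, sc G'.ν h' ((e'.symm z : U') : κ → ℝ) = z := fun z => by
    have := congrArg Subtype.val (e'.apply_symm_apply z)
    exact this
  rw [← sc_inner G' h', ← sc_inner G h]
  simp only [LinearMap.comp_apply, LinearEquiv.coe_coe, a1]
  have := gi.inner_map_map (e x) (e y)
  exact this

/-- direct sum -/
def ds (G : GD n ι) (G' : GD n κ) : GD n (ι ⊕ κ) where
  E i j := fromBlocks (G.E i j) 0 0 (G'.E i j)
  wt := Sum.elim G.wt G'.wt
  ν := Sum.elim G.ν G'.ν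

theorem ds_ok {G : GD n ι} {G' : GD n κ} (h : G.Ok) (h' : G'.Ok) : (ds G G').Ok := by
  refine ⟨?_, fun i => ?_, fun i j k l => ?_, ?_⟩
  · rintro (a | a)
    · exact h.pos a
    · exact h'.pos a
  · simp only [ds, h.diag, h'.diag, fromBlocks_diagonal]
    congr 1
    funext a
    rcases a with a | a <;> rfl
  · have a1 := h.comm i j k l
    have a2 := h'.comm i j k l
    simp only [ds, fromBlocks_multiply, Matrix.mul_zero, Matrix.zero_mul, add_zero, zero_add]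
    ext (a | a) (b | b)
    · have := congrFun (congrFun a1 a) b
      split_ifs at this ⊢ <;> simpa using this
    · split_ifs <;> simp
    · split_ifs <;> simp
    · have := congrFun (congrFun a2 a) b
      split_ifs at this ⊢ <;> simpa using this
  · rintro i j (a | a) (b | b)
    · exact h.adj i j a b
    · simp [ds]
    · simp [ds]
    · exact h'.adj i j a b

theorem ds_mul (G : GD n ι) (G' : GD n κ) (i j : Fin n) (z : ι ⊕ κ → ℝ) :
    (ds G G').E i j *ᵥ z =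
      Sum.elim (G.E i j *ᵥ (z ∘ Sum.inl)) (G'.E i j *ᵥ (z ∘ Sum.inr)) := by
  simp [ds, fromBlocks_mulVec]

theorem B_self {G : GD n ι} (h : G.Ok) {x : ι → ℝ} (hx : G.B x x = 0) : x = 0 := by
  unfold GD.B at hx
  rw [sum_eq_zero_iff_of_nonneg fun a _ => by
    rw [mul_assoc]; exact mul_nonneg (h.pos a).le (mul_self_nonneg _)] at hx
  funext a
  have := hx a (mem_univ a)
  rw [mul_assoc, mul_eq_zero, mul_self_eq_zero] at this
  exact this.resolve_left (h.pos a).ne'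

theorem B_comm (G : GD n ι) (x y : ι → ℝ) : G.B x y = G.B y x :=
  sum_congr rfl fun a _ => by ring

theorem B_zero (G : GD n ι) (y : ι → ℝ) : G.B 0 y = 0 := by simp [GD.B]

theorem B_add (G : GD n ι) (x y z : ι → ℝ) : G.B x (y + z) = G.B x y + G.B x z := by
  simp [GD.B, mul_add, sum_add_distrib]

theorem B_smul (G : GD n ι) (x y : ι → ℝ) (c : ℝ) : G.B x (c • y) = c * G.B x y := by
  simp only [GD.B, mul_sum, Pi.smul_apply, smul_eq_mul]
  exact sum_congr rfl fun a _ => by ring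

/-- the difference form -/
def Bm (G : GD n ι) (G' : GD n κ) (z y : ι ⊕ κ → ℝ) : ℝ :=
  G.B (z ∘ Sum.inl) (y ∘ Sum.inl) - G'.B (z ∘ Sum.inr) (y ∘ Sum.inr)

theorem Bm_comm (G : GD n ι) (G' : GD n κ) (z y : ι ⊕ κ → ℝ) : Bm G G' z y = Bm G G' y z := by
  unfold Bm; rw [B_comm G, B_comm G']

theorem Bm_span (G : GD n ι) (G' : GD n κ) (z : ι ⊕ κ → ℝ) (S : Set (ι ⊕ κ → ℝ))
    (h : ∀ y ∈ S, Bm G G' z y = 0) : ∀ y ∈ Submodule.span ℝ S, Bm G G' z y = 0 := by
  intro y hy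
  induction hy using Submodule.span_induction with
  | mem y hy => exact h y hy
  | zero => rw [Bm_comm]; simp [Bm, B_zero]
  | add x y _ _ hx hy =>
    unfold Bm at *
    have e1 : (x + y) ∘ Sum.inl = x ∘ Sum.inl + y ∘ Sum.inl := rfl
    have e2 : (x + y) ∘ Sum.inr = x ∘ Sum.inr + y ∘ Sum.inr := rfl
    rw [e1, e2, B_add, B_add]; linarith
  | smul c x _ hx =>
    unfold Bm at *
    have e1 : (c • x) ∘ Sum.inl = c • (x ∘ Sum.inl) := rfl
    have e2 : (c • x) ∘ Sum.inr = c • (x ∘ Sum.inr) := rfl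
    rw [e1, e2, B_smul, B_smul, ← mul_sub, hx, mul_zero]

theorem word_nil (G : GD n ι) (v : ι → ℝ) : G.word [] *ᵥ v = v := by simp [GD.word]

theorem word_cons (G : GD n ι) (p : Fin n × Fin n) (w : List (Fin n × Fin n)) (v : ι → ℝ) :
    G.word (p :: w) *ᵥ v = G.E p.1 p.2 *ᵥ (G.word w *ᵥ v) := by
  simp [GD.word]

theorem self_cyc (G : GD n ι) (v : ι → ℝ) : v ∈ G.cyc v :=
  Submodule.subset_span ⟨[], by simp, (word_nil G v).symm⟩

end Vale.Agent.P181.S.InjM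

namespace Vale.Agent.P181.S

open Finset Matrix InjM

theorem inj (hC : StmtCyc) : StmtInj := by
  intro n ι κ _ _ _ _ G G' hG hG' hle
  obtain ⟨c1, -, -, c4, c5⟩ := hC n ι G hG
  obtain ⟨d1, -, -, -, d5⟩ := hC n κ G' hG'
  obtain ⟨-, e2, -, -, -⟩ := hC n (ι ⊕ κ) (ds G G') (ds_ok hG hG')
  choose f hf using fun l => exists_iso G G' hG.pos hG'.pos (G.HW l) (G'.HW l) (hle l)
  let u : ∀ l, G.HW l → ι ⊕ κ → ℝ := fun l v => Sum.elim (v : ι → ℝ) (f l v : κ → ℝ)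
  have hu : ∀ l v, u l v ∈ (ds G G').HW l := by
    intro l v
    refine ⟨fun i => ?_, fun i j hij => ?_⟩
    · rw [ds_mul]
      simp only [u, Sum.elim_comp_inl, Sum.elim_comp_inr]
      rw [v.2.1 i, (f l v).2.1 i]
      funext a
      rcases a with a | a <;> rfl
    · rw [ds_mul]
      simp only [u, Sum.elim_comp_inl, Sum.elim_comp_inr]
      rw [v.2.2 i j hij, (f l v).2.2 i j hij]
      funext a
      rcases a with a | a <;> rfl
  let S : Set (ι ⊕ κ → ℝ) := {x | ∃ l v, ∃ w : List (Fin n × Fin n), (∀ p ∈ w, p.2 < p.1) ∧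
    x = (ds G G').word w *ᵥ u l v}
  let Γ := Submodule.span ℝ S
  have hinv : ∀ i j, ∀ x ∈ Γ, (ds G G').E i j *ᵥ x ∈ Γ := by
    intro i j x hx
    induction hx using Submodule.span_induction with
    | mem y hy =>
      obtain ⟨l, v, w, hw, rfl⟩ := hy
      have a1 : (ds G G').cyc (u l v) ≤ Γ :=
        Submodule.span_mono fun x ⟨w, hw, e⟩ => ⟨l, v, w, hw, e⟩
      exact a1 (e2 l _ (hu l v) i j _ (Submodule.subset_span ⟨w, hw, rfl⟩))
    | zero => simp
    | add x y _ _ hx hy => rw [mulVec_add]; exact Γ.add_mem hx hy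
    | smul c x _ hx => rw [mulVec_smul]; exact Γ.smul_mem c hx
  have hadj : ∀ i j z y, Bm G G' ((ds G G').E i j *ᵥ z) y = Bm G G' z ((ds G G').E j i *ᵥ y) := by
    intro i j z y
    simp only [Bm, ds_mul, Sum.elim_comp_inl, Sum.elim_comp_inr, c1, d1]
  have base : ∀ l v, ∀ y ∈ Γ, Bm G G' (u l v) y = 0 := by
    intro l v
    refine Bm_span G G' _ S ?_
    rintro y ⟨l', v', w, hw, rfl⟩
    rcases w with _ | ⟨p, w⟩
    · rw [word_nil]
      simp only [Bm, u, Sum.elim_comp_inl, Sum.elim_comp_inr]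
      by_cases h : l = l'
      · subst h
        rw [hf, sub_self]
      · rw [c5 l l' h _ v.2 _ v'.2 _ (self_cyc G _) _ (self_cyc G _),
          d5 l l' h _ (f l v).2 _ (f l' v').2 _ (self_cyc G' _) _ (self_cyc G' _), sub_self]
    · rw [word_cons, ← hadj, (hu l v).2 _ _ (hw p (by simp))]
      simp [Bm, B_zero]
  have gen : ∀ l v (w : List (Fin n × Fin n)), ∀ y ∈ Γ,
      Bm G G' ((ds G G').word w *ᵥ u l v) y = 0 := by
    intro l v w
    induction w with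
    | nil => intro y hy; rw [word_nil]; exact base l v y hy
    | cons p w ih => intro y hy; rw [word_cons, hadj]; exact ih _ (hinv _ _ y hy)
  have all : ∀ y ∈ Γ, Bm G G' y y = 0 := by
    intro y hy
    refine Bm_span G G' y S ?_ y hy
    rintro x ⟨l, v, w, -, rfl⟩
    rw [Bm_comm]; exact gen l v w y hy
  let p1 : Γ →ₗ[ℝ] (ι → ℝ) := (LinearMap.funLeft ℝ ℝ Sum.inl) ∘ₗ Γ.subtype
  let p2 : Γ →ₗ[ℝ] (κ → ℝ) := (LinearMap.funLeft ℝ ℝ Sum.inr) ∘ₗ Γ.subtype
  have q1 : ∀ z : Γ, p1 z = (z : ι ⊕ κ → ℝ) ∘ Sum.inl := fun z => rfl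
  have q2 : ∀ z : Γ, p2 z = (z : ι ⊕ κ → ℝ) ∘ Sum.inr := fun z => rfl
  have hB : ∀ z : Γ, G.B (p1 z) (p1 z) = G'.B (p2 z) (p2 z) := fun z =>
    sub_eq_zero.1 (all z z.2)
  have i1 : Function.Injective p1 := by
    rw [injective_iff_map_eq_zero]
    intro z hz
    have h2 : p2 z = 0 := B_self hG' (by rw [← hB, hz, B_zero])
    refine Subtype.ext (funext fun a => ?_)
    rcases a with a | a
    · exact congrFun hz a
    · exact congrFun h2 a
  have s1 : Function.Surjective p1 := by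
    rw [← LinearMap.range_eq_top]
    refine c4 _ ?_ fun l v hv => ?_
    · rintro i j x ⟨z, rfl⟩
      refine ⟨⟨_, hinv i j z z.2⟩, ?_⟩
      rw [q1, q1, Subtype.coe_mk, ds_mul, Sum.elim_comp_inl]
    · exact ⟨⟨u l ⟨v, hv⟩, Submodule.subset_span ⟨l, ⟨v, hv⟩, [], by simp,
        (word_nil _ _).symm⟩⟩, rfl⟩
  let e := LinearEquiv.ofBijective p1 ⟨i1, s1⟩
  let Φ : (ι → ℝ) →ₗ[ℝ] (κ → ℝ) := p2 ∘ₗ (e.symm : (ι → ℝ) →ₗ[ℝ] Γ)
  have hΦ : ∀ z : Γ, Φ (p1 z) = p2 z := fun z => by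
    have : e.symm (p1 z) = z := e.symm_apply_apply z
    simp only [Φ, LinearMap.comp_apply, LinearEquiv.coe_coe, this]
  have i2 : LinearMap.ker Φ = ⊥ := by
    rw [LinearMap.ker_eq_bot, injective_iff_map_eq_zero]
    intro x hx
    obtain ⟨z, rfl⟩ := s1 x
    rw [hΦ] at hx
    exact B_self hG (by rw [hB, hx, B_zero])
  obtain ⟨g, hg⟩ := Φ.exists_leftInverse_of_injective i2
  refine ⟨LinearMap.toMatrix' Φ, LinearMap.toMatrix' g, ?_, fun i j => ?_⟩
  · rw [← LinearMap.toMatrix'_comp, hg, LinearMap.toMatrix'_id]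
  · refine Matrix.toLin'.injective (LinearMap.ext fun x => ?_)
    obtain ⟨z, rfl⟩ := s1 x
    simp only [toLin'_apply, ← mulVec_mulVec, LinearMap.toMatrix'_mulVec]
    have a1 : G.E i j *ᵥ p1 z = p1 ⟨_, hinv i j z z.2⟩ := by
      simp only [q1, ds_mul, Sum.elim_comp_inl]
    rw [a1, hΦ, hΦ]
    simp only [q2, ds_mul, Sum.elim_comp_inr]

end Vale.Agent.P181.S
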