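import Vale.Agent.P181.S.UF

/-! The determinantal formula. -/

namespace Vale.Agent.P181.S

open Finset MvPolynomial Matrix

namespace JTM

open UFM

theorem coeff_prod' {ι σ : Type} [DecidableEq ι] [DecidableEq σ] (f : ι → MvPolynomial σ ℤ)
    (d : σ →₀ ℕ) (s : Finset ι) :
    coeff d (∏ j ∈ s, f j) = ∑ l ∈ finsuppAntidiag s d, ∏ i ∈ s, coeff (l i) (f i) := by
  rw [← coeff_coe, ← coeToMvPowerSeries.ringHom_apply, map_prod, MvPowerSeries.coeff_prod]
  simp

theorem core {n : ℕ} {r : List ℕ} (hr : ∀ a ∈ r, 1 ≤ a) (b : ℕ) (a : Fin n →₀ ℕ) :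
    coeff a (r.map fun j => hp n b j).prod = coeff (fs fun _ => b) (∏ i, Ph r (a i)) := by
  rw [coeff_prod', ← Fin.prod_univ_fun_getElem]
  simp only [hp, coeff_Ph hr, Fintype.prod_boole]
  rw [prod_univ_sum, coeff_sum]
  simp only [← monomial_sum_one, coeff_monomial]
  refine sum_nbij' (fun p => Finsupp.equivFunOnFinite.symm fun i => fs fun j => p j i)
    (fun l j => fs fun i => l i j) ?_ ?_ ?_ ?_ ?_
  · intro p hp
    rw [mem_finsuppAntidiag]
    refine ⟨Finsupp.ext fun j => ?_, subset_univ _⟩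
    rw [Finsupp.finsetSum_apply]
    exact (mem_finsuppAntidiag.1 (Fintype.mem_piFinset.1 hp j)).1
  · intro l hl
    refine Fintype.mem_piFinset.2 fun j => mem_finsuppAntidiag.2 ⟨?_, subset_univ _⟩
    have := DFunLike.congr_fun (mem_finsuppAntidiag.1 hl).1 j
    rw [Finsupp.finsetSum_apply] at this
    exact this
  · intro p _; ext j i; rfl
  · intro l _; ext i j; rfl
  · intro p _
    congr 1
    rw [eq_iff_iff, Finsupp.ext_iff]
    refine forall_congr' fun i => ?_
    rw [Finsupp.finsetSum_apply]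
    rfl

end JTM

open JTM UFM

theorem jt : StmtJT := by
  intro n r hr b e
  rw [Dq, ad, sum_mul, coeff_sum, ← det_transpose, det_apply', coeff_sum]
  refine sum_congr rfl fun σ _ => ?_
  rw [← eq_intCast (C : ℤ →+* MvPolynomial (Fin r.length) ℤ), coeff_C_mul, coeff_monomial_mul']
  simp only [transpose_apply, of_apply]
  split_ifs with h
  · rw [core hr]
    congr 2
    refine prod_congr rfl fun i _ => ?_
    have h1 : del n (σ i) ≤ e i := h i
    rw [Phz, if_pos (by omega), Finsupp.tsub_apply, fs_apply, fs_apply]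
    congr 1
    omega
  · obtain ⟨i, hi⟩ := not_forall.1 h
    have h1 : ¬ del n (σ i) ≤ e i := hi
    rw [prod_eq_zero (mem_univ i) (by rw [Phz, if_neg (by omega)])]
    simp

end Vale.Agent.P181.S
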