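import Vale.Agent.P181.S.Spec

namespace Vale.Agent.P181.S.LapM

open Finset MvPolynomial Matrix

variable {n : ℕ}

/-- the Euler operator in the variable `i` -/
noncomputable def D (i : Fin n) :
    Derivation ℝ (MvPolynomial (Fin n) ℝ) (MvPolynomial (Fin n) ℝ) :=
  (X i : MvPolynomial (Fin n) ℝ) • pderiv i

lemma D_apply (i : Fin n) (f : MvPolynomial (Fin n) ℝ) : D i f = X i * pderiv i f := by
  simp [D]

lemma D_mon (i : Fin n) (m : Fin n →₀ ℕ) (r : ℝ) :
    D i (monomial m r) = monomial m ((m i : ℝ) * r) := by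
  rw [D_apply, X_mul_pderiv_monomial, smul_monomial, nsmul_eq_mul]

lemma D_X (i k : Fin n) : D i (X k : MvPolynomial (Fin n) ℝ) = if i = k then X k else 0 := by
  rw [D_apply, pderiv_X]
  by_cases h : i = k
  · subst h; simp
  · simp [h]

lemma coeff_D (i : Fin n) (m : Fin n →₀ ℕ) (f : MvPolynomial (Fin n) ℝ) :
    coeff m (D i f) = (m i : ℝ) * coeff m f := by
  induction f using MvPolynomial.induction_on' with
  | monomial u a =>
    rw [D_mon, coeff_monomial, coeff_monomial]
    by_cases h : u = m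
    · subst h; simp
    · simp [h]
  | add p q hp hq => rw [map_add, coeff_add, coeff_add, hp, hq, mul_add]

lemma D_prod {α : Type} [DecidableEq α] (i : Fin n) (s : Finset α)
    (f : α → MvPolynomial (Fin n) ℝ) :
    D i (∏ p ∈ s, f p) = ∑ p ∈ s, (∏ q ∈ s.erase p, f q) * D i (f p) := by
  induction s using Finset.induction_on with
  | empty => simp
  | insert a s ha ih =>
    rw [prod_insert ha, Derivation.leibniz, ih, sum_insert ha, erase_insert ha, smul_eq_mul,
      smul_eq_mul, mul_sum, add_comm]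
    congr 1
    refine sum_congr rfl fun p hp => ?_
    have hne : a ≠ p := fun h => ha (h ▸ hp)
    rw [erase_insert_of_ne hne, prod_insert (fun h => ha (mem_of_mem_erase h)), mul_assoc]

/-- the Laplace operator -/
noncomputable def Lp (f : MvPolynomial (Fin n) ℝ) : MvPolynomial (Fin n) ℝ := ∑ i, D i (D i f)

lemma coeff_Lp (m : Fin n →₀ ℕ) (f : MvPolynomial (Fin n) ℝ) :
    coeff m (Lp f) = (∑ i, (m i : ℝ) ^ 2) * coeff m f := by
  rw [Lp, coeff_sum, sum_mul]
  refine sum_congr rfl fun i _ => ?_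
  rw [coeff_D, coeff_D]; ring

lemma Lp_mul (f g : MvPolynomial (Fin n) ℝ) :
    Lp (f * g) = Lp f * g + 2 * ∑ i, D i f * D i g + f * Lp g := by
  rw [Lp, Lp, Lp, sum_mul, mul_sum, mul_sum, ← sum_add_distrib, ← sum_add_distrib]
  refine sum_congr rfl fun i _ => ?_
  simp only [Derivation.leibniz, map_add, smul_eq_mul]
  ring

/-- the pairs `i < j` -/
def Pr (n : ℕ) : Finset (Σ _ : Fin n, Fin n) := univ.sigma fun i => Ioi i

lemma sum_Pr {M : Type} [AddCommMonoid M] (f : Fin n → Fin n → M) :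
    ∑ p ∈ Pr n, (f p.2 p.1 + f p.1 p.2) + ∑ i, f i i = ∑ i, ∑ j, f j i := by
  rw [Pr, sum_sigma (f := fun p : (Σ _ : Fin n, Fin n) => f p.2 p.1 + f p.1 p.2)]
  simp only
  rw [sum_sum_Ioi_add_eq_sum_sum_off_diag, ← sum_add_distrib]
  refine sum_congr rfl fun i _ => ?_
  rw [← sum_compl_add_sum {i} fun j => f j i, sum_singleton]

/-- the Vandermonde product -/
noncomputable def V (n : ℕ) : MvPolynomial (Fin n) ℝ := ∏ p ∈ Pr n, (X p.2 - X p.1)

lemma ad_eq : ∃ ε : ℝ, MvPolynomial.map (Int.castRingHom ℝ) (ad n) = C ε * V n := by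
  refine ⟨((Equiv.Perm.sign (Fin.revPerm : Equiv.Perm (Fin n)) : ℤˣ) : ℤ), ?_⟩
  have h1 := det_permute (Fin.revPerm : Equiv.Perm (Fin n))
    (vandermonde fun i : Fin n => (X i : MvPolynomial (Fin n) ℝ))ᵀ
  rw [det_transpose, det_vandermonde, det_apply'] at h1
  have h2 : V n = ∏ i : Fin n, ∏ j ∈ Ioi i, (X j - X i : MvPolynomial (Fin n) ℝ) := by
    rw [V, Pr, prod_sigma (f := fun p : (Σ _ : Fin n, Fin n) =>
      (X p.2 - X p.1 : MvPolynomial (Fin n) ℝ))]
  rw [h2, map_intCast, ← h1, ad, map_sum]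
  refine sum_congr rfl fun w _ => ?_
  rw [map_monomial, monomial_eq, Finsupp.prod_fintype _ _ (fun i => pow_zero _)]
  simp only [eq_intCast, map_intCast]
  congr 1
  refine prod_congr rfl fun i _ => ?_
  simp only [submatrix_apply, transpose_apply, vandermonde_apply, id, fs, del,
    Finsupp.equivFunOnFinite_symm_apply_apply, Fin.revPerm_apply, Fin.val_rev]
  congr 1
  omega

lemma fs_apply (e : Fin n → ℕ) (i : Fin n) : fs e i = e i := by simp [fs]

lemma Lp_ad : Lp (MvPolynomial.map (Int.castRingHom ℝ) (ad n)) =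
    C (∑ i, (del n i : ℝ) ^ 2) * MvPolynomial.map (Int.castRingHom ℝ) (ad n) := by
  ext m
  rw [coeff_Lp, coeff_C_mul, ad, map_sum, coeff_sum, mul_sum, mul_sum]
  refine sum_congr rfl fun w _ => ?_
  rw [map_monomial, coeff_monomial]
  split_ifs with h
  · subst h
    congr 1
    simp only [fs_apply]
    exact Equiv.sum_comp w fun i => (del n i : ℝ) ^ 2
  · simp

lemma cross (F : MvPolynomial (Fin n) ℝ) (A : Fin n → Fin n → MvPolynomial (Fin n) ℝ)
    (h1 : ∀ i j, A i j - A j i = D i F - D j F) (h2 : ∀ i j, X i * A j i = X j * A i j) :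
    2 * ∑ k, D k (V n) * D k F =
      V n * ∑ p ∈ Pr n, ((A p.2 p.1 + A p.1 p.2) + (D p.1 F + D p.2 F)) := by
  have h3 : ∀ k, D k (V n) * D k F = ∑ p ∈ Pr n, (∏ q ∈ (Pr n).erase p, (X q.2 - X q.1)) *
      (D k (X p.2 - X p.1) * D k F) := by
    intro k
    rw [V, D_prod, sum_mul]
    exact sum_congr rfl fun p _ => mul_assoc _ _ _
  simp only [h3]
  rw [sum_comm, mul_sum, mul_sum]
  refine sum_congr rfl fun p hp => ?_
  rw [← mul_sum]
  have h4 : ∑ k, D k (X p.2 - X p.1 : MvPolynomial (Fin n) ℝ) * D k F =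
      X p.2 * D p.2 F - X p.1 * D p.1 F := by
    simp only [map_sub, D_X, sub_mul, sum_sub_distrib, ite_mul, zero_mul, sum_ite_eq', mem_univ,
      if_true]
  have h5 : V n = (∏ q ∈ (Pr n).erase p, (X q.2 - X q.1)) * (X p.2 - X p.1) := by
    rw [V, prod_erase_mul _ _ hp]
  rw [h4, h5]
  generalize (∏ q ∈ (Pr n).erase p, (X q.2 - X q.1 : MvPolynomial (Fin n) ℝ)) = a
  have e1 := h1 p.1 p.2
  have e2 := h2 p.1 p.2
  linear_combination (a * (X p.1 + X p.2)) * e1 + (2 * a) * e2

variable {ι : Type} [Fintype ι] [DecidableEq ι]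

/-- the graded trace -/
noncomputable def chi (G : GD n ι) (Y : Matrix ι ι ℝ) : MvPolynomial (Fin n) ℝ :=
  ∑ a, monomial (fs (G.wt a)) (Y a a)

omit [DecidableEq ι] in
lemma chi_sub (G : GD n ι) (Y Z : Matrix ι ι ℝ) : chi G (Y - Z) = chi G Y - chi G Z := by
  simp [chi, sum_sub_distrib]

omit [DecidableEq ι] in
lemma chi_smul (G : GD n ι) (c : ℝ) (Y : Matrix ι ι ℝ) : chi G (c • Y) = C c * chi G Y := by
  simp [chi, mul_sum, C_mul_monomial]

omit [DecidableEq ι] in
lemma chi_sum (G : GD n ι) {α : Type} (s : Finset α) (Y : α → Matrix ι ι ℝ) :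
    chi G (∑ p ∈ s, Y p) = ∑ p ∈ s, chi G (Y p) := by
  simp only [chi, Matrix.sum_apply, map_sum]
  exact sum_comm

lemma chi_diag {G : GD n ι} (hG : G.Ok) (Y : Matrix ι ι ℝ) (i : Fin n) :
    chi G (Y * G.E i i) = D i (chi G Y) := by
  rw [chi, chi, map_sum]
  refine sum_congr rfl fun a _ => ?_
  rw [D_mon, hG.diag, mul_diagonal, fs_apply, mul_comm]

lemma shift {G : GD n ι} (hG : G.Ok) {i j : Fin n} {a b : ι} (h : G.E i j b a ≠ 0) :
    Finsupp.single i 1 + fs (G.wt a) = Finsupp.single j 1 + fs (G.wt b) := by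
  ext k
  have h1 := congrFun (congrFun (hG.comm k k i j) b) a
  rw [hG.diag k, Matrix.sub_apply, diagonal_mul, mul_diagonal, Matrix.sub_apply] at h1
  simp only [Finsupp.add_apply, fs_apply, Finsupp.single_apply]
  have h2 : ((if i = k then 1 else 0 : ℕ) : ℝ) + G.wt a k =
      ((if j = k then 1 else 0 : ℕ) : ℝ) + G.wt b k := by
    apply mul_right_cancel₀ h
    by_cases hi : k = i
    · subst hi
      by_cases hj : j = k
      · subst hj
        simp only [if_true] at h1 ⊢
        linear_combination -h1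
      · simp only [if_true, if_neg hj, Matrix.zero_apply] at h1 ⊢
        push_cast
        linear_combination -h1
    · have hi' : ¬ i = k := fun h => hi h.symm
      by_cases hj : j = k
      · subst hj
        simp only [if_true, if_neg hi, if_neg hi', Matrix.zero_apply] at h1 ⊢
        push_cast
        linear_combination -h1
      · simp only [if_neg hi, if_neg hi', if_neg hj, Matrix.zero_apply] at h1 ⊢
        push_cast
        linear_combination -h1
  exact_mod_cast h2

lemma chi_swap {G : GD n ι} (hG : G.Ok) {π : Matrix ι ι ℝ}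
    (hπ : ∀ i j, π * G.E i j = G.E i j * π) (i j : Fin n) :
    X i * chi G (π * (G.E j i * G.E i j)) = X j * chi G (π * (G.E i j * G.E j i)) := by
  have e1 : π * (G.E i j * G.E j i) = G.E i j * (π * G.E j i) := by
    rw [← Matrix.mul_assoc, hπ, Matrix.mul_assoc]
  rw [e1, ← Matrix.mul_assoc]
  generalize π * G.E j i = M
  simp only [chi, Matrix.mul_apply, map_sum, mul_sum]
  rw [sum_comm]
  refine sum_congr rfl fun b _ => sum_congr rfl fun a _ => ?_
  by_cases h : G.E i j b a = 0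
  · simp [h]
  · rw [← pow_one (X i), ← pow_one (X j), ← monomial_single_add, ← monomial_single_add, shift hG h,
      mul_comm]

lemma chi_comm {G : GD n ι} (hG : G.Ok) (π : Matrix ι ι ℝ) (i j : Fin n) :
    chi G (π * (G.E i j * G.E j i)) - chi G (π * (G.E j i * G.E i j)) =
      D i (chi G π) - D j (chi G π) := by
  rw [← chi_sub, ← Matrix.mul_sub, hG.comm i j j i, if_pos rfl, if_pos rfl, Matrix.mul_sub, chi_sub,
    chi_diag hG, chi_diag hG]

omit [DecidableEq ι] in
lemma euler (G : GD n ι) (π : Matrix ι ι ℝ) (N : ℕ) (hN : ∀ a, π a a ≠ 0 → ∑ i, G.wt a i = N) :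
    ∑ k, D k (chi G π) = C (N : ℝ) * chi G π := by
  simp only [chi, map_sum, D_mon, mul_sum, C_mul_monomial]
  rw [sum_comm]
  refine sum_congr rfl fun a _ => ?_
  rw [← map_sum, ← sum_mul]
  by_cases h : π a a = 0
  · simp [h]
  · simp only [fs_apply]
    rw [← hN a h, Nat.cast_sum]

lemma main {G : GD n ι} (hG : G.Ok) (π : Matrix ι ι ℝ) (c : ℝ) (N : ℕ)
    (hπ : ∀ i j, π * G.E i j = G.E i j * π) (hc : π * G.cas = c • π)
    (hN : ∀ a, π a a ≠ 0 → ∑ i, G.wt a i = N) :
    2 * ∑ k, D k (V n) * D k (chi G π) + V n * Lp (chi G π) =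
      C (c + ((n : ℝ) - 1) * N) * (V n * chi G π) := by
  set F := chi G π with hF
  have h1 := cross F (fun i j => chi G (π * (G.E i j * G.E j i))) (chi_comm hG π)
    (chi_swap hG hπ)
  have h2 := sum_Pr fun i j => chi G (π * (G.E i j * G.E j i))
  have h3 := sum_Pr (n := n) fun _ j => D j F
  have h4 : ∑ k, D k F = C (N : ℝ) * F := euler G π N hN
  have h5 : ∑ i, ∑ j, chi G (π * (G.E j i * G.E i j)) = C c * F := by
    rw [sum_comm, hF, ← chi_smul, ← hc, GD.cas, Matrix.mul_sum, chi_sum]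
    refine sum_congr rfl fun i _ => ?_
    rw [Matrix.mul_sum, chi_sum]
  have h6 : ∑ i, chi G (π * (G.E i i * G.E i i)) = Lp F := by
    refine sum_congr rfl fun i _ => ?_
    rw [← Matrix.mul_assoc, chi_diag hG, chi_diag hG]
  have h7 : ∑ i : Fin n, ∑ _j : Fin n, D i F = (n : MvPolynomial (Fin n) ℝ) * ∑ i, D i F := by
    simp [mul_sum]
  rw [h5, h6] at h2
  rw [h7, h4] at h3
  rw [h1, sum_add_distrib]
  simp only [map_add, map_mul, map_sub, map_one, map_natCast] at h3 ⊢
  linear_combination (V n) * h2 + (V n) * h3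

end Vale.Agent.P181.S.LapM

namespace Vale.Agent.P181.S

open Finset MvPolynomial Matrix LapM

theorem lap : StmtLap := by
  intro n ι _ _ G hG π c N hπ hc hN e he
  obtain ⟨ε, hε⟩ := ad_eq (n := n)
  have h1 := main hG π c N hπ hc hN
  have h2 := Lp_ad (n := n)
  have h3 := Lp_mul (MvPolynomial.map (Int.castRingHom ℝ) (ad n)) (chi G π)
  have h4 : ∀ k, D k (MvPolynomial.map (Int.castRingHom ℝ) (ad n)) = C ε * D k (V n) := by
    intro k
    rw [hε, ← smul_eq_C_mul, ← smul_eq_C_mul, Derivation.map_smul]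
  have h5 : ∑ k, D k (MvPolynomial.map (Int.castRingHom ℝ) (ad n)) * D k (chi G π) =
      C ε * ∑ k, D k (V n) * D k (chi G π) := by
    simp only [h4, mul_sum, mul_assoc]
  have h6 : Lp (MvPolynomial.map (Int.castRingHom ℝ) (ad n) * chi G π) =
      C (∑ i, (del n i : ℝ) ^ 2 + c + ((n : ℝ) - 1) * N) *
        (MvPolynomial.map (Int.castRingHom ℝ) (ad n) * chi G π) := by
    rw [h3, h2, h5, add_assoc (∑ i, (del n i : ℝ) ^ 2), map_add]
    generalize MvPolynomial.map (Int.castRingHom ℝ) (ad n) = a at hε ⊢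
    subst hε
    linear_combination (C ε) * h1
  have h7 := congrArg (coeff (fs e)) h6
  rw [coeff_Lp, coeff_C_mul] at h7
  have h8 := mul_right_cancel₀ he h7
  simpa only [fs_apply] using h8

end Vale.Agent.P181.S
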