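import Vale.Agent.P181.S.Spec

namespace Vale.Agent.P181.S

open Finset MvPolynomial Matrix

set_option linter.unusedSectionVars false

namespace LinkM

variable {ι : Type} [Fintype ι] [DecidableEq ι]

/-- content of a tuple -/
noncomputable def cnt {k : ℕ} (f : Fin k → ι) : ι →₀ ℕ := ∑ t, Finsupp.single (f t) 1

omit [Fintype ι] in
theorem cnt_apply {k : ℕ} (f : Fin k → ι) (a : ι) :
    cnt f a = (univ.filter fun t => f t = a).card := by
  unfold cnt
  rw [Finsupp.finsetSum_apply, Finset.card_filter]
  exact Finset.sum_congr rfl fun t _ => by simp [Finsupp.single_apply]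

theorem cnt_mem {k : ℕ} (f : Fin k → ι) : cnt f ∈ finsuppAntidiag (univ : Finset ι) k := by
  rw [mem_finsuppAntidiag]
  refine ⟨?_, subset_univ _⟩
  unfold cnt
  simp only [Finsupp.finsetSum_apply]
  rw [Finset.sum_comm]
  simp [Finsupp.single_apply]

theorem ex_cnt (k : ℕ) : ∀ s : ι →₀ ℕ, ∑ a, s a = k → ∃ f : Fin k → ι, cnt f = s := by
  induction k with
  | zero =>
    intro s hs
    refine ⟨Fin.elim0, ?_⟩
    ext a
    have := Finset.sum_eq_zero_iff.1 hs a (mem_univ a)
    simp [cnt, this]
  | succ k ih =>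
    intro s hs
    obtain ⟨a, ha⟩ : ∃ a, s a ≠ 0 := by
      by_contra h
      push Not at h
      simp [h] at hs
    have hle : Finsupp.single a 1 ≤ s := by
      rw [Finsupp.single_le_iff]
      omega
    have e : Finsupp.single a 1 + (s - Finsupp.single a 1) = s := add_tsub_cancel_of_le hle
    have h2 : ∑ x, (s - Finsupp.single a 1 : ι →₀ ℕ) x = k := by
      have h3 : ∑ x, (Finsupp.single a 1 + (s - Finsupp.single a 1) : ι →₀ ℕ) x = k + 1 := by
        rw [e]
        exact hs
      simp only [Finsupp.add_apply, Finset.sum_add_distrib] at h3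
      have h4 : ∑ x, (Finsupp.single a 1 : ι →₀ ℕ) x = 1 := by simp [Finsupp.single_apply]
      omega
    obtain ⟨f, hf⟩ := ih _ h2
    refine ⟨Fin.cons a f, ?_⟩
    rw [← e, ← hf]
    simp [cnt, Fin.sum_univ_succ]

omit [Fintype ι] in
theorem perm_of_cnt {k : ℕ} (f g : Fin k → ι) (h : cnt f = cnt g) :
    ∃ σ : Equiv.Perm (Fin k), ∀ t, g (σ t) = f t := by
  have hc : ∀ a, Fintype.card {t // f t = a} = Fintype.card {t // g t = a} := by
    intro a
    rw [Fintype.card_subtype, Fintype.card_subtype, ← cnt_apply, ← cnt_apply, h]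
  exact ⟨Equiv.ofFiberEquiv fun a => Fintype.equivOfCardEq (hc a),
    fun t => Equiv.ofFiberEquiv_map _ t⟩

omit [Fintype ι] [DecidableEq ι] in
theorem prod_X {k : ℕ} (f : Fin k → ι) :
    ∏ t, (X (f t) : MvPolynomial ι ℂ) = monomial (cnt f) 1 := by
  unfold cnt
  rw [monomial_sum_one]
  rfl

variable {M : Type} [AddCommGroup M] [Module ℂ M]

theorem sprod_perm {k : ℕ} (σ : Equiv.Perm (Fin k)) (m : Fin k → M) :
    sprod (fun i => m (σ i)) = sprod m := SymmetricPower.tprod_equiv σ m

/-- the product as a multilinear map -/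
noncomputable def sp (k : ℕ) (M : Type) [AddCommGroup M] [Module ℂ M] :
    MultilinearMap ℂ (fun _ : Fin k => M) (SymP k M) := SymmetricPower.tprod ℂ

theorem sp_apply {k : ℕ} (m : Fin k → M) : sp k M m = sprod m := rfl

theorem span_sp (k : ℕ) : Submodule.span ℂ (Set.range (sp k M)) = ⊤ :=
  SymmetricPower.span_tprod_eq_top ℂ (Fin k) M

theorem ex_der (k : ℕ) (Y : M →ₗ[ℂ] M) : ∃ Y' : SymP k M →ₗ[ℂ] SymP k M,
    ∀ m, Y' (sprod m) = ∑ t, sprod (Function.update m t (Y (m t))) := by
  let μ : MultilinearMap ℂ (fun _ : Fin k => M) (SymP k M) :=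
    ∑ t, (sp k M).compLinearMap (Function.update (fun _ => LinearMap.id) t Y)
  have hμ : ∀ m, μ m = ∑ t, sprod (Function.update m t (Y (m t))) := by
    intro m
    simp only [μ, _root_.sum_apply, MultilinearMap.compLinearMap_apply, sp_apply]
    refine Finset.sum_congr rfl fun t _ => congrArg sprod (funext fun s => ?_)
    by_cases h : s = t
    · subst h
      simp
    · simp [Function.update_of_ne h]
  obtain ⟨F, hF⟩ := exists_symLift μ (by
    intro σ m
    rw [hμ, hμ, ← Equiv.sum_comp σ (fun t => sprod (Function.update m t (Y (m t))))]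
    refine Finset.sum_congr rfl fun t _ => ?_
    rw [← sprod_perm σ (Function.update m (σ t) (Y (m (σ t))))]
    refine congrArg sprod (funext fun s => ?_)
    by_cases h : s = t
    · subst h
      simp
    · rw [Function.update_of_ne h, Function.update_of_ne (fun h' => h (σ.injective h'))])
  exact ⟨F, fun m => (hF m).trans (hμ m)⟩

theorem ex_T (k : ℕ) (lin : M →ₗ[ℂ] MvPolynomial ι ℂ) :
    ∃ T : SymP k M →ₗ[ℂ] MvPolynomial ι ℂ, ∀ m, T (sprod m) = ∏ t, lin (m t) := by
  obtain ⟨F, hF⟩ := exists_symLift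
    ((MultilinearMap.mkPiAlgebra ℂ (Fin k) (MvPolynomial ι ℂ)).compLinearMap fun _ => lin) (by
      intro σ m
      simp only [MultilinearMap.compLinearMap_apply, MultilinearMap.mkPiAlgebra_apply]
      exact Equiv.prod_comp σ fun t => lin (m t))
  exact ⟨F, fun m => by simpa using hF m⟩

theorem der_map {n : ℕ} (G : GD n ι) (i j : Fin n) (f : MvPolynomial ι ℝ) :
    mkDerivation ℂ (fun a => ∑ a', ((G.E i j a' a : ℝ) : ℂ) • (X a' : MvPolynomial ι ℂ))
      (MvPolynomial.map Complex.ofRealHom f) = MvPolynomial.map Complex.ofRealHom (G.der i j f) := by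
  induction f using MvPolynomial.induction_on with
  | C c => simp [derivation_C]
  | add p q hp hq => simp only [map_add, hp, hq]
  | mul_X p a hp =>
    simp only [map_mul, map_X, Derivation.leibniz, hp, smul_eq_mul, map_add, mkDerivation_X]
    congr 2
    simp only [GD.der, mkDerivation_X, map_sum, smul_eq_C_mul, map_mul, map_C, map_X]
    rfl

theorem leib {R A τ : Type} [CommRing R] [CommRing A] [Algebra R A] [DecidableEq τ]
    (D : Derivation R A A) (S : Finset τ) (g : τ → A) :
    D (∏ t ∈ S, g t) = ∑ t ∈ S, (∏ u ∈ S.erase t, g u) • D (g t) := by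
  induction S using Finset.induction_on with
  | empty => simp
  | insert a S ha ih =>
    rw [Finset.prod_insert ha, Finset.sum_insert ha, Derivation.leibniz, ih, Finset.erase_insert ha,
      add_comm, Finset.smul_sum]
    congr 1
    refine Finset.sum_congr rfl fun t ht => ?_
    have hne : a ≠ t := fun h => ha (h ▸ ht)
    rw [Finset.erase_insert_of_ne hne,
      Finset.prod_insert (fun h => ha (Finset.mem_of_mem_erase h)), smul_smul]

end LinkM

open LinkM in
theorem link : StmtLink := by
  intro n ι _ _ G M _ _ b Y k hL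
  have hex : ∀ s : Ix ι k, ∃ f : Fin k → ι, cnt f = s.1 := fun s =>
    ex_cnt k s.1 (mem_finsuppAntidiag.1 s.2).1
  choose f hf using hex
  let lin : M →ₗ[ℂ] MvPolynomial ι ℂ := b.constr ℂ fun a => X a
  have hlin : ∀ a, lin (b a) = X a := fun a => by simp [lin]
  obtain ⟨T, hT⟩ := ex_T k lin
  let v : Ix ι k → SymP k M := fun s => sprod fun t => b (f s t)
  have hTv : ∀ s, T (v s) = monomial s.1 1 := by
    intro s
    simp only [v, hT, hlin]
    rw [prod_X, hf]
  have hind : LinearIndependent ℂ v := by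
    apply LinearIndependent.of_comp T
    have h1 := (basisMonomials ι ℂ).linearIndependent.comp (fun s : Ix ι k => s.1)
      Subtype.val_injective
    have e : (T ∘ v) = (basisMonomials ι ℂ) ∘ fun s : Ix ι k => s.1 := by
      funext s
      simp [hTv]
    rw [e]
    exact h1
  have hspan : ⊤ ≤ Submodule.span ℂ (Set.range v) := by
    rw [← span_sp k, Submodule.span_le]
    rintro _ ⟨m, rfl⟩
    have e : m = fun t => ∑ a, b.repr (m t) a • b a := funext fun t => (b.sum_repr (m t)).symm
    rw [e, MultilinearMap.map_sum]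
    refine Submodule.sum_mem _ fun g _ => ?_
    rw [MultilinearMap.map_smul_univ]
    refine Submodule.smul_mem _ _ (Submodule.subset_span ⟨⟨cnt g, cnt_mem g⟩, ?_⟩)
    obtain ⟨σ, hσ⟩ := perm_of_cnt (f ⟨cnt g, cnt_mem g⟩) g (hf _)
    rw [sp_apply, ← sprod_perm σ]
    simp only [v, hσ]
  choose Y' hY' using fun i j => ex_der k (Y i j)
  refine ⟨Module.Basis.mk hind hspan, Y', ?_, hY'⟩
  intro i j s
  let D : Derivation ℂ (MvPolynomial ι ℂ) (MvPolynomial ι ℂ) :=
    mkDerivation ℂ (fun a => ∑ a', ((G.E i j a' a : ℝ) : ℂ) • (X a' : MvPolynomial ι ℂ))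
  have hD : ∀ x, D (lin x) = lin (Y i j x) := by
    intro x
    have : D.toLinearMap ∘ₗ lin = lin ∘ₗ Y i j := by
      refine b.ext fun a => ?_
      simp only [LinearMap.comp_apply, hlin, hL i j a, map_sum, map_smul]
      exact mkDerivation_X ℂ _ a
    exact LinearMap.congr_fun this x
  have hTY : T (Y' i j (v s)) = D (T (v s)) := by
    simp only [v, hY', map_sum, hT]
    rw [leib]
    refine Finset.sum_congr rfl fun t _ => ?_
    rw [hD, smul_eq_mul, ← Finset.mul_prod_erase univ _ (mem_univ t), Function.update_self,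
      mul_comm]
    congr 1
    exact Finset.prod_congr rfl fun u hu => by
      rw [Function.update_of_ne (Finset.ne_of_mem_erase hu)]
  set B := Module.Basis.mk hind hspan with hB
  have hBv : ∀ s, B s = v s := fun s => by simp [hB]
  rw [← B.sum_repr (Y' i j (B s))]
  refine Finset.sum_congr rfl fun s' _ => ?_
  congr 1
  have h1 : coeff s'.1 (T (Y' i j (B s))) = B.repr (Y' i j (B s)) s' := by
    conv_lhs => rw [← B.sum_repr (Y' i j (B s))]
    simp only [map_sum, map_smul, hBv, hTv, coeff_sum, coeff_smul, coeff_monomial, smul_eq_mul]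
    rw [Finset.sum_eq_single s']
    · simp
    · intro x _ hx
      rw [if_neg (fun h => hx (Subtype.ext h)), mul_zero]
    · simp
  rw [← h1, hBv, hTY, hTv]
  have h2 := der_map G i j (monomial s.1 1)
  rw [map_monomial, map_one] at h2
  simp only [D]
  rw [h2, coeff_map]
  rfl

end Vale.Agent.P181.S
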