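import Vale.Agent.P181.S.Spec

namespace Vale.Agent.P181.S.NewtM

open Finset MvPolynomial

section gen

variable {R : Type} [CommRing R] {ι : Type} [Fintype ι] [DecidableEq ι]

noncomputable def hh (x : ι → R) (k : ℕ) : R :=
  ∑ s ∈ finsuppAntidiag (univ : Finset ι) k, ∏ a, x a ^ s a

lemma mem_ad {k : ℕ} {s : ι →₀ ℕ} :
    s ∈ finsuppAntidiag (univ : Finset ι) k ↔ ∑ a, s a = k := by
  rw [mem_finsuppAntidiag]
  simp

lemma shift (x : ι → R) (a : ι) (j k : ℕ) (hj : j ≤ k) :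
    x a ^ j * hh x (k - j) =
      ∑ s ∈ finsuppAntidiag (univ : Finset ι) k, if j ≤ s a then ∏ b, x b ^ s b else 0 := by
  rw [← Finset.sum_filter, hh, Finset.mul_sum]
  refine Finset.sum_bij' (fun t _ => t + Finsupp.single a j) (fun s _ => s - Finsupp.single a j)
    ?_ ?_ ?_ ?_ ?_
  · intro t ht
    rw [mem_ad] at ht
    rw [mem_filter, mem_ad]
    refine ⟨?_, by simp⟩
    simp only [Finsupp.coe_add, Pi.add_apply, sum_add_distrib, ht]
    rw [Finset.sum_eq_single a (fun b _ hb => Finsupp.single_eq_of_ne hb) (by simp)]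
    simp only [Finsupp.single_eq_same]
    omega
  · intro s hs
    rw [mem_filter, mem_ad] at hs
    rw [mem_ad]
    have h1 : ∀ b, (s - Finsupp.single a j) b + Finsupp.single a j b = s b := by
      intro b
      rw [Finsupp.tsub_apply]
      apply Nat.sub_add_cancel
      by_cases hb : b = a
      · subst hb
        simpa using hs.2
      · rw [Finsupp.single_eq_of_ne hb]
        exact Nat.zero_le _
    have h2 : ∑ b, ((s - Finsupp.single a j) b + Finsupp.single a j b) = k := by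
      simp only [h1, hs.1]
    rw [sum_add_distrib,
      Finset.sum_eq_single (f := fun b => Finsupp.single a j b) a
        (fun b _ hb => Finsupp.single_eq_of_ne hb) (by simp)] at h2
    simp only [Finsupp.single_eq_same] at h2
    omega
  · intro t _
    simp
  · intro s hs
    rw [mem_filter] at hs
    apply tsub_add_cancel_of_le
    rw [Finsupp.single_le_iff]
    exact hs.2
  · intro t _
    simp only [Finsupp.coe_add, Pi.add_apply, pow_add, prod_mul_distrib]
    rw [mul_comm]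
    congr 1
    rw [Finset.prod_eq_single a (fun b _ hb => by rw [Finsupp.single_eq_of_ne hb, pow_zero])
      (by simp)]
    simp

lemma newton (x : ι → R) (k : ℕ) :
    (k : R) * hh x k = ∑ j ∈ Icc 1 k, (∑ a, x a ^ j) * hh x (k - j) := by
  have h1 : ∀ j ∈ Icc 1 k, (∑ a, x a ^ j) * hh x (k - j) =
      ∑ a, ∑ s ∈ finsuppAntidiag (univ : Finset ι) k, if j ≤ s a then ∏ b, x b ^ s b else 0 := by
    intro j hj
    rw [Finset.sum_mul]
    exact Finset.sum_congr rfl fun a _ => shift x a j k (mem_Icc.1 hj).2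
  rw [Finset.sum_congr rfl h1, Finset.sum_comm]
  simp_rw [Finset.sum_comm (s := Icc 1 k)]
  rw [Finset.sum_comm, hh, Finset.mul_sum]
  refine Finset.sum_congr rfl fun s hs => ?_
  rw [mem_ad] at hs
  have h2 : ∀ a, (∑ j ∈ Icc 1 k, if j ≤ s a then ∏ b, x b ^ s b else 0) =
      (s a : R) * ∏ b, x b ^ s b := by
    intro a
    rw [← Finset.sum_filter, Finset.sum_const, nsmul_eq_mul]
    congr 2
    have ha : s a ≤ k := by
      rw [← hs]
      exact Finset.single_le_sum (f := fun b => s b) (fun _ _ => Nat.zero_le _) (mem_univ a)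
    have : (Icc 1 k).filter (fun j => j ≤ s a) = Icc 1 (s a) := by
      ext j
      simp only [mem_filter, mem_Icc]
      omega
    rw [this]
    simp
  simp only [h2]
  rw [← Finset.sum_mul, ← Nat.cast_sum, hs]

lemma hh_zero (x : ι → R) : hh x 0 = 1 := by
  simp [hh]

end gen

noncomputable def xm (n d : ℕ) (m : Ix (Fin n) d) : MvPolynomial (Fin n) ℤ := monomial m.1 1

lemma sum_Ix {ι : Type} [Fintype ι] [DecidableEq ι] {M : Type} [AddCommMonoid M] (k : ℕ)
    (f : (ι →₀ ℕ) → M) :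
    ∑ s : Ix ι k, f s.1 = ∑ s ∈ finsuppAntidiag (univ : Finset ι) k, f s :=
  Finset.sum_coe_sort (finsuppAntidiag (univ : Finset ι) k) f

lemma hp_eq (n d j : ℕ) : hp n d j = ∑ m, xm n d m ^ j := by
  rw [hp, ← sum_Ix d fun m => (monomial (j • m) 1 : MvPolynomial (Fin n) ℤ)]
  refine Finset.sum_congr rfl fun m _ => ?_
  rw [xm, monomial_pow, one_pow]

lemma wt_sym (n d : ℕ) (m : Ix (Fin n) d) (i : Fin n) : ((std n).sym d).wt m i = m.1 i := by
  show ∑ a, m.1 a * (if a = i then 1 else 0) = m.1 i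
  simp

lemma wt_W (n k d : ℕ) (s : Ix (Ix (Fin n) d) k) :
    fs ((W n k d).wt s) = ∑ m, s.1 m • m.1 := by
  ext i
  show ∑ a, s.1 a * ((std n).sym d).wt a i = _
  simp only [wt_sym, Finsupp.finsetSum_apply, Finsupp.smul_apply, smul_eq_mul]

lemma H_eq (n k d : ℕ) : H n k d = hh (xm n d) k := by
  have h := sum_Ix k fun s : Ix (Fin n) d →₀ ℕ => ∏ a, xm n d a ^ s a
  refine Eq.trans ?_ h
  show ∑ s : Ix (Ix (Fin n) d) k, monomial (fs ((W n k d).wt s)) (1 : ℤ) = _
  refine Finset.sum_congr rfl fun s _ => ?_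
  rw [wt_W, monomial_sum_one]
  refine Finset.prod_congr rfl fun m _ => ?_
  rw [xm, monomial_pow, one_pow]

lemma six {R : Type} [CommRing R] (h p : ℕ → R) (h0 : h 0 = 1)
    (hr : ∀ k : ℕ, (k : R) * h k = ∑ j ∈ Icc 1 k, p j * h (k - j)) :
    ((720 : ℕ) : R) * h 6 =
      (cls.map fun q => ((q.1 : ℕ) : R) * (q.2.map fun j => p j).prod).sum := by
  have h1 := hr 1
  have h2 := hr 2
  have h3 := hr 3
  have h4 := hr 4
  have h5 := hr 5
  have h6 := hr 6
  have i1 : Icc 1 1 = ({1} : Finset ℕ) := rfl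
  have i2 : Icc 1 2 = ({1, 2} : Finset ℕ) := rfl
  have i3 : Icc 1 3 = ({1, 2, 3} : Finset ℕ) := rfl
  have i4 : Icc 1 4 = ({1, 2, 3, 4} : Finset ℕ) := rfl
  have i5 : Icc 1 5 = ({1, 2, 3, 4, 5} : Finset ℕ) := rfl
  have i6 : Icc 1 6 = ({1, 2, 3, 4, 5, 6} : Finset ℕ) := rfl
  rw [i1] at h1
  rw [i2] at h2
  rw [i3] at h3
  rw [i4] at h4
  rw [i5] at h5
  rw [i6] at h6
  simp [h0] at h1 h2 h3 h4 h5 h6
  simp only [cls, List.map_cons, List.map_nil, List.sum_cons, List.sum_nil, List.prod_cons,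
    List.prod_nil, mul_one, add_zero]
  have g2 : 2 * h 2 = p 1 ^ 2 + p 2 := by
    linear_combination h2 + p 1 * h1
  have g3 : 6 * h 3 = p 1 ^ 3 + 3 * p 1 * p 2 + 2 * p 3 := by
    linear_combination 2 * h3 + p 1 * g2 + 2 * p 2 * h1
  have g4 : 24 * h 4 =
      p 1 ^ 4 + 6 * p 1 ^ 2 * p 2 + 3 * p 2 ^ 2 + 8 * p 1 * p 3 + 6 * p 4 := by
    linear_combination 6 * h4 + p 1 * g3 + 3 * p 2 * g2 + 6 * p 3 * h1
  have g5 : 120 * h 5 = p 1 ^ 5 + 10 * p 1 ^ 3 * p 2 + 15 * p 1 * p 2 ^ 2 +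
      20 * p 1 ^ 2 * p 3 + 20 * p 2 * p 3 + 30 * p 1 * p 4 + 24 * p 5 := by
    linear_combination 24 * h5 + p 1 * g4 + 4 * p 2 * g3 + 12 * p 3 * g2 + 24 * p 4 * h1
  push_cast
  linear_combination 120 * h6 + p 1 * g5 + 5 * p 2 * g4 + 20 * p 3 * g3 + 60 * p 4 * g2 +
    120 * p 5 * h1

lemma coeff_list {σ : Type} (e : σ →₀ ℕ) (a : MvPolynomial σ ℤ)
    (f : List ℕ → MvPolynomial σ ℤ) (L : List (ℕ × List ℕ)) :
    coeff e (a * (L.map fun q => ((q.1 : ℕ) : MvPolynomial σ ℤ) * f q.2).sum) =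
      (L.map fun q => ((q.1 : ℕ) : ℤ) * coeff e (a * f q.2)).sum := by
  induction L with
  | nil => simp
  | cons q L ih =>
    rw [List.map_cons, List.sum_cons, List.map_cons, List.sum_cons, mul_add, coeff_add, ih,
      mul_left_comm, ← nsmul_eq_mul, coeff_smul, nsmul_eq_mul]

end Vale.Agent.P181.S.NewtM

namespace Vale.Agent.P181.S

open Finset MvPolynomial NewtM

theorem newt : StmtNewt := by
  intro n d
  refine ⟨by rw [H_eq, hh_zero], fun k => ?_⟩
  simp only [H_eq, hp_eq]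
  exact newton _ k

theorem clsS (hN : StmtNewt) : StmtCls := by
  intro n b e
  obtain ⟨h0, h⟩ := hN n b
  have h6 := six (fun k => H n k b) (fun j => hp n b j) h0 h
  have h7 := coeff_list (fs e) (ad n) (fun r => (r.map fun j => hp n b j).prod) cls
  rw [← h6, mul_left_comm, ← nsmul_eq_mul, coeff_smul, nsmul_eq_mul] at h7
  exact h7

end Vale.Agent.P181.S
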