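import Vale.Agent.P181.S.Poly

namespace Vale.Agent.P181.S

open Finset MvPolynomial Matrix PolyM
open scoped Nat

namespace OkM

variable {n : ℕ} {ι : Type} [Fintype ι] [DecidableEq ι] {k : ℕ}

theorem std_ok (n : ℕ) : (std n).Ok where
  pos _ := one_pos
  diag i := by
    ext a b
    simp only [std, single_apply, diagonal_apply]
    by_cases h : a = b
    · subst h; by_cases h' : i = a <;> simp [h', eq_comm]
    · rw [if_neg h, if_neg]; rintro ⟨rfl, rfl⟩; exact h rfl
  comm i j k l := by
    simp only [std]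
    congr 1
    · split_ifs with h
      · subst h; rw [single_mul_single_same, one_mul]
      · exact single_mul_single_of_ne _ _ _ _ h _
    · split_ifs with h
      · subst h; rw [single_mul_single_same, one_mul]
      · exact single_mul_single_of_ne _ _ _ _ h _
  adj i j a b := by simp [std, single_apply, and_comm]

omit [DecidableEq ι] in
theorem dm_sub (M M' : Matrix ι ι ℝ) : dm (M - M') = dm M - dm M' :=
  derivation_ext fun a => by simp [dm_X, sub_smul]

omit [DecidableEq ι] in
theorem dm_zero : dm (0 : Matrix ι ι ℝ) = 0 := derivation_ext fun a => by simp [dm_X]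

omit [DecidableEq ι] in
theorem dm_dm (M M' : Matrix ι ι ℝ) (a : ι) : dm M (dm M' (X a)) = dm (M * M') (X a) := by
  simp only [dm_X, map_sum, Derivation.map_smul, smul_sum, smul_smul, mul_apply, sum_smul]
  rw [sum_comm]
  exact sum_congr rfl fun _ _ => sum_congr rfl fun _ _ => by rw [mul_comm]

omit [DecidableEq ι] in
theorem dm_lie (M M' : Matrix ι ι ℝ) (f : MvPolynomial ι ℝ) :
    dm M (dm M' f) - dm M' (dm M f) = dm (M * M' - M' * M) f := by
  rw [← Derivation.commutator_apply]
  congr 1
  exact derivation_ext fun a => by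
    rw [Derivation.commutator_apply, dm_dm, dm_dm, dm_sub, Derivation.sub_apply]

omit [DecidableEq ι] in
theorem dm_diag [DecidableEq ι] (c : ι → ℝ) (s : ι →₀ ℕ) :
    dm (diagonal c) (monomial s 1) = monomial s (∑ a, s a * c a) := by
  rw [dm_mon, map_sum]
  refine sum_congr rfl fun a _ => ?_
  rw [sum_eq_single a (fun b _ h => by simp [h]) (by simp), diagonal_apply_eq, mul_comm]
  by_cases h : s a = 0
  · simp [h]
  · rw [tsub_add_cancel_of_le (Finsupp.single_le_iff.2 (by omega))]

/-- the norm of a monomial -/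
noncomputable def N (ν : ι → ℝ) (s : ι →₀ ℕ) : ℝ := ∏ a, (((s a) ! : ℝ) * ν a ^ s a)

theorem N_add (ν : ι → ℝ) (t : ι →₀ ℕ) (a : ι) :
    N ν (t + Finsupp.single a 1) = N ν t * ((t a + 1) * ν a) := by
  unfold N
  rw [← mul_prod_erase _ _ (mem_univ a), ← mul_prod_erase _ (fun b => ((t b) ! : ℝ) * ν b ^ t b)
    (mem_univ a), prod_congr rfl (g := fun b => ((t b) ! : ℝ) * ν b ^ t b) fun b hb => by
      simp [(ne_of_mem_erase hb).symm]]
  simp only [Finsupp.add_apply, Finsupp.single_eq_same, Nat.factorial_succ]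
  push_cast
  ring

theorem term (ν : ι → ℝ) (s s' : ι →₀ ℕ) (a a' : ι) (x y : ℝ) (h : ν a' * x = ν a * y) :
    N ν s' * (if s - Finsupp.single a 1 + Finsupp.single a' 1 = s' then x * s a else 0) =
      N ν s * if s' - Finsupp.single a' 1 + Finsupp.single a 1 = s then y * s' a' else 0 := by
  by_cases h1 : s a = 0
  · rw [if_neg (c := s' - _ + _ = s) fun e => by
      have := DFunLike.congr_fun e a
      simp [h1] at this]
    simp [h1]
  by_cases h2 : s' a' = 0
  · rw [if_neg (c := s - _ + _ = s') fun e => by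
      have := DFunLike.congr_fun e a'
      simp [h2] at this]
    simp [h2]
  obtain ⟨t, rfl⟩ : ∃ t, s = t + Finsupp.single a 1 :=
    ⟨_, (tsub_add_cancel_of_le (Finsupp.single_le_iff.2 (by omega))).symm⟩
  obtain ⟨t', rfl⟩ : ∃ t, s' = t + Finsupp.single a' 1 :=
    ⟨_, (tsub_add_cancel_of_le (Finsupp.single_le_iff.2 (by omega))).symm⟩
  simp only [add_tsub_cancel_right, add_left_inj]
  by_cases e : t = t'
  · subst e
    simp only [if_true, N_add, Finsupp.add_apply, Finsupp.single_eq_same]
    push_cast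
    linear_combination (N ν t * (t a + 1) * (t a' + 1)) * h
  · rw [if_neg e, if_neg (Ne.symm e), mul_zero, mul_zero]

theorem sym_E (G : GD n ι) (i j : Fin n) (s' s : Ix ι k) : (G.sym k).E i j s' s =
    ∑ a, ∑ a', if s.1 - Finsupp.single a 1 + Finsupp.single a' 1 = s'.1 then
      G.E i j a' a * s.1 a else 0 := by
  change coeff s'.1 (dm (G.E i j) (monomial s.1 1)) = _
  simp only [dm_mon, coeff_sum, coeff_monomial]

theorem sym_ok (G : GD n ι) (k : ℕ) (h : G.Ok) : (G.sym k).Ok where
  pos s := prod_pos fun a _ => mul_pos (by positivity) (pow_pos (h.pos a) _)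
  diag i := by
    ext s' s
    change coeff s'.1 (dm (G.E i i) (monomial s.1 1)) = _
    rw [h.diag, dm_diag, coeff_monomial, diagonal_apply]
    by_cases e : s' = s
    · subst e; simp [GD.sym]
    · rw [if_neg e, if_neg fun c => e (Subtype.ext c.symm)]
  comm i j a b := by
    refine ext_iff_mulVec.2 fun v => th_inj ?_
    rw [sub_mulVec, map_sub, ← mulVec_mulVec, ← mulVec_mulVec, th_E, th_E, th_E, th_E, der_eq,
      der_eq, dm_lie, h.comm, dm_sub, sub_mulVec, map_sub, Derivation.sub_apply]
    congr 1 <;> split_ifs <;> simp [th_E, der_eq, dm_zero]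
  adj i j s' s := by
    rw [sym_E, sym_E, sum_comm (s := univ) (t := univ)
      (f := fun a a' => if s'.1 - Finsupp.single a 1 + Finsupp.single a' 1 = s.1 then
        G.E j i a' a * s'.1 a else 0)]
    simp only [mul_sum]
    exact sum_congr rfl fun a _ => sum_congr rfl fun a' _ =>
      term G.ν s.1 s'.1 a a' _ _ (h.adj i j a' a)

end OkM

open OkM in
theorem okS (_hP : StmtPoly) : StmtOk := ⟨std_ok, fun _ _ _ _ G k h => sym_ok G k h⟩

end Vale.Agent.P181.S
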