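import Vale.Agent.P181.S.Ok

namespace Vale.Agent.P181.S

open Finset MvPolynomial Matrix PolyM OkM

namespace SemiM

variable {n : ℕ} {ι κ : Type} [Fintype ι] [DecidableEq ι] [Fintype κ] [DecidableEq κ]

theorem le_of (G : GD n ι) (G' : GD n κ) (k k' : ℕ) (l l' : Fin n → ℕ)
    (F : MvPolynomial ι ℝ →ₗ[ℝ] MvPolynomial κ ℝ) (hF : Function.Injective F)
    (h : ∀ f ∈ ((G.sym k).HW l).map (th ι k), F f ∈ ((G'.sym k').HW l').map (th κ k')) :
    (G.sym k).hw l ≤ (G'.sym k').hw l' := by
  unfold GD.hw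
  rw [(Submodule.equivMapOfInjective _ th_inj ((G.sym k).HW l)).finrank_eq,
    (Submodule.equivMapOfInjective _ th_inj ((G'.sym k').HW l')).finrank_eq,
    (Submodule.equivMapOfInjective _ hF _).finrank_eq]
  exact Submodule.finrank_mono (Submodule.map_le_iff_le_comap.2 h)

theorem ren (σ : ι → κ) (D : Derivation ℝ (MvPolynomial ι ℝ) (MvPolynomial ι ℝ))
    (D' : Derivation ℝ (MvPolynomial κ ℝ) (MvPolynomial κ ℝ))
    (h : ∀ m, D' (X (σ m)) = rename σ (D (X m))) (f : MvPolynomial ι ℝ) :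
    D' (rename σ f) = rename σ (D f) := by
  induction f using MvPolynomial.induction_on with
  | C a => simp
  | add p q h1 h2 => simp [h1, h2]
  | mul_X p a h1 => simp [h1, h]

theorem euler {k : ℕ} {f : MvPolynomial ι ℝ} (h : f.IsHomogeneous k) :
    dm (1 : Matrix ι ι ℝ) f = (k : ℝ) • f := by
  rw [← th_coeff h, dm_th, th_apply, smul_sum]
  refine sum_congr rfl fun s _ => ?_
  have : (k : ℝ) = ∑ a, (s.1 a : ℝ) := by
    rw [← Nat.cast_sum, ← Finsupp.degree_eq_sum, deg s]
  rw [← diagonal_one, dm_diag, smul_comm, smul_monomial, smul_monomial, smul_monomial, this]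
  simp

/-- multiply by the first variable -/
noncomputable def sh {d : ℕ} (m : Ix (Fin (n + 1)) d) : Ix (Fin (n + 1)) (d + 1) :=
  ⟨m.1 + Finsupp.single 0 1, mem_iff.2 (by simp [deg m])⟩

theorem sh_inj {d : ℕ} : Function.Injective (sh (n := n) (d := d)) := fun _ _ h =>
  Subtype.ext (add_right_cancel (congrArg Subtype.val h))

theorem std_E (d : ℕ) (i j : Fin n) (m' m : Ix (Fin n) d) : ((std n).sym d).E i j m' m =
    if m.1 - Finsupp.single j 1 + Finsupp.single i 1 = m'.1 then (m.1 j : ℝ) else 0 := by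
  rw [sym_E, sum_eq_single j, sum_eq_single i]
  · simp [std]
  · intro b _ hb; simp [std, hb.symm]
  · simp
  · intro b _ hb
    exact sum_eq_zero fun a _ => by simp [std, hb.symm]
  · simp

theorem der_X (d : ℕ) (i j : Fin n) (m m' : Ix (Fin n) d)
    (h : m.1 - Finsupp.single j 1 + Finsupp.single i 1 = m'.1) :
    ((std n).sym d).der i j (X m) = (m.1 j : ℝ) • X m' := by
  rw [der_eq, dm_X, sum_eq_single m']
  · rw [std_E, if_pos h]
  · intro b _ hb
    rw [std_E, if_neg fun e => hb (Subtype.ext (e.symm.trans h)), zero_smul]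
  · simp

theorem der_X0 (d : ℕ) (i j : Fin n) (m : Ix (Fin n) d) (h : m.1 j = 0) :
    ((std n).sym d).der i j (X m) = 0 := by
  rw [der_eq, dm_X]
  exact sum_eq_zero fun b _ => by simp [std_E, h]

theorem der_sh (d : ℕ) (i j : Fin (n + 1)) (hj : j ≠ 0) (m : Ix (Fin (n + 1)) d) :
    ((std (n + 1)).sym (d + 1)).der i j (X (sh m)) =
      rename sh (((std (n + 1)).sym d).der i j (X m)) := by
  have e : (sh m).1 j = m.1 j := by simp [sh, hj]
  by_cases h : m.1 j = 0
  · rw [der_X0 _ _ _ _ h, der_X0 _ _ _ _ (e.trans h), map_zero]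
  · have h1 : Finsupp.single j 1 ≤ m.1 := Finsupp.single_le_iff.2 (by omega)
    have h2 : (m.1 - Finsupp.single j 1 + Finsupp.single i 1).degree = d := by
      refine Eq.trans ?_ (deg m)
      conv_rhs => rw [← tsub_add_cancel_of_le h1]
      simp
    obtain ⟨m', hm'⟩ : ∃ m' : Ix (Fin (n + 1)) d,
        m.1 - Finsupp.single j 1 + Finsupp.single i 1 = m'.1 := ⟨⟨_, mem_iff.2 h2⟩, rfl⟩
    rw [der_X d i j m m' hm', der_X (d + 1) i j (sh m) (sh m'), e, map_smul, rename_X]
    change m.1 + _ - _ + _ = m'.1 + _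
    rw [← hm']
    rw [add_comm m.1, add_tsub_assoc_of_le h1, add_assoc]
    exact add_comm _ _

theorem der_diag (d : ℕ) (i : Fin n) (m : Ix (Fin n) d) :
    ((std n).sym d).der i i (X m) = (m.1 i : ℝ) • X m := by
  by_cases h : m.1 i = 0
  · rw [der_X0 _ _ _ _ h, h]; simp
  · exact der_X d i i m m (tsub_add_cancel_of_le (Finsupp.single_le_iff.2 (by omega)))

end SemiM

open SemiM

theorem semi (_hP : StmtPoly) : StmtSemi := by
  intro n k k' d l m hm
  obtain ⟨v, hv, h0⟩ : ∃ v ∈ (W n k' d).HW m, v ≠ 0 := by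
    by_contra hc
    push Not at hc
    exact hm (Submodule.finrank_eq_zero.2 ((Submodule.eq_bot_iff _).2 hc))
  have hg := (mem_map _ m _).1 (Submodule.mem_map_of_mem (f := th _ k') hv)
  have hg0 : th _ k' v ≠ 0 := fun e => h0 (th_inj (e.trans (map_zero _).symm))
  refine le_of _ _ k (k + k') l _ (LinearMap.mulRight ℝ (th _ k' v))
    (mul_left_injective₀ hg0) fun f hf => ?_
  obtain ⟨h1, h2, h3⟩ := (mem_map _ l _).1 hf
  refine (mem_map _ _ _).2 ⟨h1.mul hg.1, fun i => ?_, fun i j hij => ?_⟩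
  · rw [LinearMap.mulRight_apply, Derivation.leibniz, h2, hg.2.1]
    simp only [smul_eq_mul, mul_smul_comm, Nat.cast_add, add_smul]
    rw [mul_comm _ f, add_comm]
  · rw [LinearMap.mulRight_apply, Derivation.leibniz, h3 i j hij, hg.2.2 i j hij]
    simp

theorem mono (_hP : StmtPoly) : StmtMono := by
  intro n k d l
  refine le_of _ _ k k l _ (rename (R := ℝ) (sh (n := n) (d := d))).toLinearMap
    (rename_injective _ sh_inj) fun f hf => ?_
  obtain ⟨h1, h2, h3⟩ := (mem_map _ l _).1 hf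
  refine (mem_map _ _ _).2 ⟨h1.rename_isHomogeneous, fun i => ?_, fun i j hij => ?_⟩
  · rw [AlgHom.toLinearMap_apply, ren sh (((std (n + 1)).sym d).der i i +
      (if i = 0 then (1 : ℝ) else 0) • dm 1) _ fun m => ?_]
    · rw [Derivation.add_apply, Derivation.smul_apply, h2, euler h1, smul_smul, ← add_smul,
        map_smul]
      congr 1
      split_ifs <;> simp
    · rw [Derivation.add_apply, Derivation.smul_apply, der_diag, der_diag,
        euler (isHomogeneous_X ℝ m), smul_smul, ← add_smul, map_smul, rename_X]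
      congr 1
      by_cases c : i = 0 <;> simp [sh, c]
  · rw [AlgHom.toLinearMap_apply, ren sh _ _ (der_sh d i j (Fin.pos_iff_ne_zero.1
      (lt_of_le_of_lt (Fin.zero_le i) hij))), h3 i j hij, map_zero]

end Vale.Agent.P181.S
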