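import Vale.Agent.P181.S.UF

/-! Stability under adding a variable. -/

namespace Vale.Agent.P181.S

open Finset MvPolynomial Matrix

namespace StabM

open UFM

variable {n : ℕ}

/-- kill the last variable -/
noncomputable def kill (n : ℕ) : MvPolynomial (Fin (n + 1)) ℤ →ₐ[ℤ] MvPolynomial (Fin n) ℤ :=
  aeval (Fin.snoc X 0 : Fin (n + 1) → MvPolynomial (Fin n) ℤ)

theorem kill_monomial (m : Fin (n + 1) →₀ ℕ) (c : ℤ) : kill n (monomial m c) =
    if m (Fin.last n) = 0 then monomial (fs fun i => m i.castSucc) c else 0 := by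
  rw [kill, aeval_monomial, Finsupp.prod_fintype _ _ (by simp), Fin.prod_univ_castSucc]
  simp only [Fin.snoc_castSucc, Fin.snoc_last]
  split_ifs with h
  · rw [h, monomial_eq, Finsupp.prod_fintype _ _ (by simp)]
    simp [fs_apply]
  · simp [h]

theorem coeff_kill (e : Fin n → ℕ) (f : MvPolynomial (Fin (n + 1)) ℤ) :
    coeff (fs (Fin.snoc e 0 : Fin (n + 1) → ℕ)) f = coeff (fs e) (kill n f) := by
  induction f using MvPolynomial.induction_on' with
  | add p q hp hq => simp [hp, hq]
  | monomial m c =>
    rw [kill_monomial, coeff_monomial]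
    by_cases h : m = fs (Fin.snoc e 0 : Fin (n + 1) → ℕ)
    · subst h
      simp [fs_apply]
    · rw [if_neg h]
      split_ifs with h1
      · rw [coeff_monomial, if_neg]
        intro h2
        refine h (Finsupp.ext fun i => ?_)
        induction i using Fin.lastCases with
        | last => simpa [fs_apply] using h1
        | cast i => simpa [fs_apply] using DFunLike.congr_fun h2 i
      · simp

theorem kill_hp (d j : ℕ) (hj : 1 ≤ j) : kill n (hp (n + 1) d j) = hp n d j := by
  rw [hp, hp, map_sum]
  simp only [kill_monomial]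
  rw [← sum_filter]
  refine sum_nbij' (fun m => fs fun i => m i.castSucc)
    (fun m => fs (Fin.snoc m 0 : Fin (n + 1) → ℕ)) ?_ ?_ ?_ ?_ ?_
  · intro m hm
    obtain ⟨h1, h2⟩ := mem_filter.1 hm
    have h3 : m (Fin.last n) = 0 := by simpa [show j ≠ 0 by omega] using h2
    have h4 := (mem_finsuppAntidiag.1 h1).1
    rw [Fin.sum_univ_castSucc, h3] at h4
    exact mem_finsuppAntidiag.2 ⟨h4, subset_univ _⟩
  · intro m hm
    refine mem_filter.2 ⟨mem_finsuppAntidiag.2 ⟨?_, subset_univ _⟩, by simp [fs_apply]⟩
    rw [Fin.sum_univ_castSucc]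
    simpa [fs_apply] using (mem_finsuppAntidiag.1 hm).1
  · intro m hm
    have h3 : m (Fin.last n) = 0 := by simpa [show j ≠ 0 by omega] using (mem_filter.1 hm).2
    ext i
    induction i using Fin.lastCases with
    | last => simp [fs_apply, h3]
    | cast i => simp [fs_apply]
  · intro m _
    ext i
    simp [fs_apply]
  · intro m _
    congr 2
    ext i
    simp [fs_apply]

theorem kill_H (hN : StmtNewt) (d k : ℕ) : kill n (H (n + 1) k d) = H n k d := by
  induction k using Nat.strong_induction_on with
  | _ k ih =>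
  rcases Nat.eq_zero_or_pos k with rfl | hk
  · rw [(hN _ d).1, (hN _ d).1, map_one]
  have h := congrArg (kill n) ((hN (n + 1) d).2 k)
  rw [map_mul, map_natCast, map_sum, sum_congr rfl (g := fun j => hp n d j * H n (k - j) d)
    fun j hj => by
      have := mem_Icc.1 hj
      rw [map_mul, kill_hp d j this.1, ih _ (by omega)], ← (hN n d).2 k] at h
  exact mul_left_cancel₀ (Nat.cast_ne_zero.2 hk.ne') h

theorem ad_det (n : ℕ) : ad n = (Matrix.of fun i j : Fin n =>
    (X i : MvPolynomial (Fin n) ℤ) ^ del n j).det := by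
  rw [ad, ← det_transpose, det_apply']
  refine sum_congr rfl fun σ _ => ?_
  rw [monomial_eq, Finsupp.prod_fintype _ _ (by simp)]
  simp [fs_apply]

theorem kill_ad : kill n (ad (n + 1)) = monomial (fs fun _ => 1) 1 * ad n := by
  rw [ad_det, ad_det, AlgHom.map_det, det_succ_row _ (Fin.last n), Fin.sum_univ_castSucc,
    sum_eq_zero fun j _ => by
      have := j.2
      simp [kill, del, show n - j ≠ 0 by omega]]
  have h1 : (monomial (fs fun _ => 1) 1 : MvPolynomial (Fin n) ℤ) = ∏ i, X i := by
    rw [monomial_eq, Finsupp.prod_fintype _ _ (by simp)]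
    simp [fs_apply]
  rw [h1, ← det_mul_column]
  simp only [Fin.val_last, ← two_mul, pow_mul, neg_one_sq, one_pow, one_mul, zero_add,
    Fin.succAbove_last]
  rw [show (AlgHom.mapMatrix (kill n)) (of fun i j : Fin (n + 1) => X i ^ del (n + 1) j)
    (Fin.last n) (Fin.last n) = 1 by simp [del], one_mul]
  congr 1
  ext1 i j
  have := j.2
  simp [kill, del, ← pow_succ', show n - j = n - 1 - j + 1 by omega]

end StabM

open StabM UFM

theorem stab (hN : StmtNewt) : StmtStab := by
  intro n k d l
  have h : (fun i => (Fin.snoc l 0 : Fin (n + 1) → ℕ) i + del (n + 1) i) =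
      (Fin.snoc (fun i => l i + del n i + 1) 0 : Fin (n + 1) → ℕ) := by
    ext i
    induction i using Fin.lastCases with
    | last => simp [del]
    | cast i =>
      have := i.2
      simp only [Fin.snoc_castSucc, del, Fin.val_castSucc]
      omega
  rw [h, A, A, coeff_kill, map_mul, kill_ad, kill_H hN, mul_assoc, coeff_monomial_mul',
    if_pos (show (fs fun _ => 1) ≤ fs fun i => l i + del n i + 1 from fun i => by
      simp [fs_apply]), one_mul]
  congr 1
  ext i
  simp [fs_apply]

end Vale.Agent.P181.S
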