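import Vale.Agent.P181.S.Spec

namespace Vale.Agent.P181.S.UBM

open Finset MvPolynomial Matrix

theorem okW (hO : StmtOk) (n k d : ℕ) : (W n k d).Ok :=
  hO.2 n _ _ k (hO.2 n _ _ d (hO.1 n))

theorem multA (hO : StmtOk) (hW : StmtWeyl) (n k d : ℕ) (l : Fin n → ℕ) (hl : Antitone l) :
    (mult n k d l : ℤ) = A n k d fun i => l i + del n i :=
  hW n _ (W n k d) (okW hO n k d) l hl

theorem cls_ok : ∀ p ∈ cls, (∀ a ∈ p.2, 1 ≤ a) ∧ p.2.sum = 6 := by
  intro p hp
  simp only [cls, List.mem_cons, List.not_mem_nil, or_false] at hp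
  rcases hp with rfl | rfl | rfl | rfl | rfl | rfl | rfl | rfl | rfl | rfl | rfl <;> simp

theorem anti6 (l1 l2 l3 l4 l5 l6 : ℕ) (h1 : l2 ≤ l1) (h2 : l3 ≤ l2) (h3 : l4 ≤ l3) (h4 : l5 ≤ l4)
    (h5 : l6 ≤ l5) : Antitone (![l1, l2, l3, l4, l5, l6] : Fin 6 → ℕ) := by
  rw [Fin.antitone_iff_succ_le]
  intro i
  fin_cases i <;> simpa

theorem monoIt (hM : StmtMono) (b t l1 l2 l3 l4 l5 l6 : ℕ) :
    mult 6 6 b ![l1, l2, l3, l4, l5, l6] ≤ mult 6 6 (b + t) ![l1 + 6 * t, l2, l3, l4, l5, l6] := by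
  induction t with
  | zero => simp
  | succ t ih =>
    refine ih.trans ?_
    have h := hM 5 6 (b + t) ![l1 + 6 * t, l2, l3, l4, l5, l6]
    have e : (fun i : Fin (5 + 1) => (![l1 + 6 * t, l2, l3, l4, l5, l6] : Fin (5 + 1) → ℕ) i +
        if i = 0 then 6 else 0) = ![l1 + 6 * (t + 1), l2, l3, l4, l5, l6] := by
      funext i
      fin_cases i <;> simp
      ring
    rw [e] at h
    exact h

theorem ub1 (hO : StmtOk) (hW : StmtWeyl) (hM : StmtMono) (hC : StmtCls) (hU : StmtUF)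
    (b l1 l2 l3 l4 l5 l6 : ℕ) (h1 : l2 ≤ l1) (h2 : l3 ≤ l2) (h3 : l4 ≤ l3) (h4 : l5 ≤ l4)
    (h5 : l6 ≤ l5) (hs : l1 + l2 + l3 + l4 + l5 + l6 = 6 * b) :
    720 * (mult 6 6 b ![l1, l2, l3, l4, l5, l6] : ℤ) ≤
      UU ![l2 + 4, l3 + 3, l4 + 2, l5 + 1, l6] := by
  set t := l2 + l3 + l4 + l5 + l6 + 10 with ht
  have hm := monoIt hM b t l1 l2 l3 l4 l5 l6
  have hA := multA hO hW 6 6 (b + t) _ (anti6 (l1 + 6 * t) l2 l3 l4 l5 l6 (by omega) h2 h3 h4 h5)
  have he : (fun i : Fin 6 => (![l1 + 6 * t, l2, l3, l4, l5, l6] : Fin 6 → ℕ) i + del 6 i) =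
      ![l1 + 6 * t + 5, l2 + 4, l3 + 3, l4 + 2, l5 + 1, l6] := by
    funext i
    fin_cases i <;> simp [del]
  rw [he] at hA
  have hc := hC 6 (b + t) ![l1 + 6 * t + 5, l2 + 4, l3 + 3, l4 + 2, l5 + 1, l6]
  have hu : (cls.map fun p => (p.1 : ℤ) *
      Dq 6 p.2 (b + t) ![l1 + 6 * t + 5, l2 + 4, l3 + 3, l4 + 2, l5 + 1, l6]) =
      cls.map fun p => (p.1 : ℤ) * D5 p.2 ![l2 + 4, l3 + 3, l4 + 2, l5 + 1, l6] := by
    refine List.map_congr_left fun p hp => ?_
    rw [hU p.2 (cls_ok p hp).1 (cls_ok p hp).2 (b + t) _ (by simp [Fin.sum_univ_succ]; omega)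
      (by simp [Fin.sum_univ_succ]; omega)]
    congr 2
  rw [hu, ← hA] at hc
  have : (mult 6 6 b ![l1, l2, l3, l4, l5, l6] : ℤ) ≤
      mult 6 6 (b + t) ![l1 + 6 * t, l2, l3, l4, l5, l6] := by exact_mod_cast hm
  unfold UU
  linarith

theorem ub2 (hO : StmtOk) (hW : StmtWeyl) (hM : StmtMono) (hC : StmtCls) (hD : StmtDual)
    (hU : StmtUF) (b k l1 l2 l3 l4 l5 l6 : ℕ) (h1 : l2 ≤ l1) (h2 : l3 ≤ l2) (h3 : l4 ≤ l3)
    (h4 : l5 ≤ l4) (h5 : l6 ≤ l5) (hs : l1 + l2 + l3 + l4 + l5 + l6 = 6 * b) (hk : Even k)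
    (hl : l1 ≤ k) :
    720 * (mult 6 6 b ![l1, l2, l3, l4, l5, l6] : ℤ) ≤
      UU ![k - l5 + 4, k - l4 + 3, k - l3 + 2, k - l2 + 1, k - l1] := by
  have hb : b ≤ k := by omega
  have h := ub1 hO hW hM hC hU (k - b) (k - l6) (k - l5) (k - l4) (k - l3) (k - l2) (k - l1)
    (by omega) (by omega) (by omega) (by omega) (by omega) (by omega)
  have hA := multA hO hW 6 6 b _ (anti6 l1 l2 l3 l4 l5 l6 h1 h2 h3 h4 h5)
  have hB := multA hO hW 6 6 (k - b) _ (anti6 (k - l6) (k - l5) (k - l4) (k - l3) (k - l2) (k - l1)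
    (by omega) (by omega) (by omega) (by omega) (by omega))
  have he : (fun i : Fin 6 => (![l1, l2, l3, l4, l5, l6] : Fin 6 → ℕ) i + del 6 i) =
      ![l1 + 5, l2 + 4, l3 + 3, l4 + 2, l5 + 1, l6] := by
    funext i
    fin_cases i <;> simp [del]
  have he' : (fun i : Fin 6 =>
      (![k - l6, k - l5, k - l4, k - l3, k - l2, k - l1] : Fin 6 → ℕ) i + del 6 i) =
      fun i => k + 5 - (![l1 + 5, l2 + 4, l3 + 3, l4 + 2, l5 + 1, l6] : Fin 6 → ℕ) (Fin.rev i) := by
    funext i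
    fin_cases i <;> simp [del, Fin.rev] <;> omega
  rw [he] at hA
  rw [he'] at hB
  have hc := hC 6 b ![l1 + 5, l2 + 4, l3 + 3, l4 + 2, l5 + 1, l6]
  have hc' := hC 6 (k - b)
    fun i => k + 5 - (![l1 + 5, l2 + 4, l3 + 3, l4 + 2, l5 + 1, l6] : Fin 6 → ℕ) (Fin.rev i)
  have hu : (cls.map fun p => (p.1 : ℤ) *
      Dq 6 p.2 b ![l1 + 5, l2 + 4, l3 + 3, l4 + 2, l5 + 1, l6]) =
      cls.map fun p => (p.1 : ℤ) * Dq 6 p.2 (k - b) fun i =>
        k + 5 - (![l1 + 5, l2 + 4, l3 + 3, l4 + 2, l5 + 1, l6] : Fin 6 → ℕ) (Fin.rev i) := by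
    refine List.map_congr_left fun p hp => ?_
    rw [hD p.2 (cls_ok p hp).1 (cls_ok p hp).2 b k hk hb _ (by
      intro i
      fin_cases i <;> simp <;> omega)]
  rw [hu, ← hc', ← hA, ← hB] at hc
  linarith

theorem stab' (hO : StmtOk) (hW : StmtWeyl) (hS : StmtStab) (n k d : ℕ) (l : Fin n → ℕ)
    (hl : Antitone l) :
    Antitone (Fin.snoc l 0 : Fin (n + 1) → ℕ) ∧
      mult (n + 1) k d (Fin.snoc l 0 : Fin (n + 1) → ℕ) = mult n k d l := by
  have ha : Antitone (Fin.snoc l 0 : Fin (n + 1) → ℕ) := by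
    intro i j hij
    induction j using Fin.lastCases with
    | last => simp
    | cast j =>
      induction i using Fin.lastCases with
      | last => exact absurd hij (not_le.2 (Fin.castSucc_lt_last j))
      | cast i =>
        simp only [Fin.snoc_castSucc]
        exact hl (Fin.castSucc_le_castSucc_iff.1 hij)
  refine ⟨ha, ?_⟩
  have h1 := multA hO hW (n + 1) k d _ ha
  have h2 := multA hO hW n k d l hl
  rw [hS n k d l, ← h2] at h1
  exact_mod_cast h1

end Vale.Agent.P181.S.UBM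

namespace Vale.Agent.P181.S

open UBM Finset

theorem ub (hO : StmtOk) (hW : StmtWeyl) (hM : StmtMono) (hC : StmtCls) (hD : StmtDual)
    (hU : StmtUF) : StmtUB :=
  ⟨fun b l1 l2 l3 l4 l5 l6 h1 h2 h3 h4 h5 hs => ub1 hO hW hM hC hU b l1 l2 l3 l4 l5 l6 h1 h2 h3 h4 h5 hs,
    fun b k l1 l2 l3 l4 l5 l6 h1 h2 h3 h4 h5 hs hk hl =>
      ub2 hO hW hM hC hD hU b k l1 l2 l3 l4 l5 l6 h1 h2 h3 h4 h5 hs hk hl⟩

theorem red (hO : StmtOk) (hC : StmtCyc) (hW : StmtWeyl) (hA : StmtAnti) (hS : StmtStab)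
    (hK : StmtCls) (hV : StmtVan) : StmtRed := by
  intro b h6
  have base : ∀ l : Fin 6 → ℕ, Antitone l → mult 6 6 b l ≤ mult 6 b 6 l := by
    intro l hl
    have el : l = ![l 0, l 1, l 2, l 3, l 4, l 5] := by
      funext i
      fin_cases i <;> rfl
    by_cases hs : l 0 + l 1 + l 2 + l 3 + l 4 + l 5 = 6 * b
    · rw [el]
      exact h6 _ _ _ _ _ _ (hl (by decide)) (hl (by decide)) (hl (by decide)) (hl (by decide))
        (hl (by decide)) hs
    · have h1 := multA hO hW 6 6 b l hl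
      have h0 : A 6 6 b (fun i => l i + del 6 i) = 0 := by
        by_contra hne
        have := hA.2.1 6 6 b _ hne
        rw [sum_add_distrib] at this
        simp only [Fin.sum_univ_six] at this
        omega
      rw [h0] at h1
      have : mult 6 6 b l = 0 := by exact_mod_cast h1
      omega
  have down : ∀ m n : ℕ, n + m = 6 → ∀ l : Fin n → ℕ, Antitone l → mult n 6 b l ≤ mult n b 6 l := by
    intro m
    induction m with
    | zero =>
      intro n hn
      obtain rfl : n = 6 := by omega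
      exact base
    | succ m ih =>
      intro n hn l hl
      have h1 := stab' hO hW hS n 6 b l hl
      have h2 := stab' hO hW hS n b 6 l hl
      rw [← h1.2, ← h2.2]
      exact ih (n + 1) (by omega) _ h1.1
  have up : ∀ n : ℕ, 6 ≤ n → ∀ l : Fin n → ℕ, Antitone l → mult n 6 b l ≤ mult n b 6 l := by
    intro n hn
    induction n, hn using Nat.le_induction with
    | base => exact base
    | succ n hn ih =>
      intro l hl
      by_cases h0 : l (Fin.last n) = 0
      · have el : l = Fin.snoc (Fin.init l) 0 := by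
          rw [← h0]
          exact (Fin.snoc_init_self l).symm
        have hi : Antitone (Fin.init l) := fun i j hij =>
          hl (Fin.castSucc_le_castSucc_iff.2 hij)
        rw [el, (stab' hO hW hS n 6 b _ hi).2, (stab' hO hW hS n b 6 _ hi).2]
        exact ih _ hi
      · have h1 := multA hO hW (n + 1) 6 b l hl
        have h2 := hK (n + 1) b fun i => l i + del (n + 1) i
        have h3 : (cls.map fun p => (p.1 : ℤ) * Dq (n + 1) p.2 b fun i => l i + del (n + 1) i) =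
            cls.map fun _ => (0 : ℤ) := by
          refine List.map_congr_left fun p hp => ?_
          rw [hV (n + 1) p.2 (cls_ok p hp).1 (cls_ok p hp).2 b _ (by omega) ?_, mul_zero]
          intro i hi
          have := hl (Fin.le_last i)
          have hi' := i.2
          simp only [del]
          omega
        rw [h3, ← h1] at h2
        have h4 : (mult (n + 1) 6 b l : ℤ) = 0 := by
          simp only [List.map_const', List.sum_replicate, smul_zero] at h2
          linarith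
        have : mult (n + 1) 6 b l = 0 := by exact_mod_cast h4
        omega
  intro n l
  by_cases hl : Antitone l
  · rcases le_total n 6 with h | h
    · exact down (6 - n) n (by omega) l hl
    · exact up n h l hl
  · have hb : (W n 6 b).HW l = ⊥ := by
      rw [Submodule.eq_bot_iff]
      intro v hv
      by_contra hne
      exact hl ((hC n _ (W n 6 b) (okW hO n 6 b)).2.2.1 l v hv hne)
    have : mult n 6 b l = 0 := by
      unfold mult GD.hw
      rw [hb, finrank_bot]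
    omega

end Vale.Agent.P181.S
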