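import Vale.Agent.P181.S.Spec

/-! The stable determinant formula. -/

namespace Vale.Agent.P181.S

open Finset MvPolynomial Matrix

namespace UFM

theorem fs_apply {n : ℕ} (e : Fin n → ℕ) (i : Fin n) : fs e i = e i := rfl

theorem fs_coe {n : ℕ} (d : Fin n →₀ ℕ) : fs d = d := by ext i; rfl

theorem get_pos {r : List ℕ} (hr : ∀ a ∈ r, 1 ≤ a) (j : Fin r.length) : 1 ≤ r.get j :=
  hr _ (List.get_mem r j)

theorem le_wt {r : List ℕ} (hr : ∀ a ∈ r, 1 ≤ a) (c : Fin r.length → ℕ) (j : Fin r.length) :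
    c j ≤ ∑ j, r.get j * c j :=
  (Nat.le_mul_of_pos_left _ (get_pos hr j)).trans
    (single_le_sum (f := fun j => r.get j * c j) (fun _ _ => Nat.zero_le _) (mem_univ j))

theorem coeff_Ph {r : List ℕ} (hr : ∀ a ∈ r, 1 ≤ a) (k : ℕ) (d : Fin r.length →₀ ℕ) :
    coeff d (Ph r k) = if ∑ j, r.get j * d j = k then 1 else 0 := by
  rw [Ph, coeff_sum, sum_eq_single (d : Fin r.length → ℕ)]
  · split_ifs <;> simp [fs_coe]
  · intro c _ hc
    split_ifs
    · rw [coeff_monomial, if_neg]
      intro h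
      exact hc (by rw [← h]; rfl)
    · simp
  · intro h
    rw [if_neg, coeff_zero]
    intro hk
    exact h (Fintype.mem_piFinset.2 fun j => mem_range.2 (by have := le_wt hr d j; omega))

theorem sum_cons {n K : ℕ} (f : (Fin (n + 1) → ℕ) → ℤ) :
    ∑ c ∈ Fintype.piFinset (fun _ : Fin (n + 1) => range K), f c =
      ∑ t ∈ range K, ∑ c ∈ Fintype.piFinset (fun _ : Fin n => range K), f (Fin.cons t c) := by
  rw [← sum_product']
  refine sum_nbij' (fun c => (c 0, Fin.tail c)) (fun p => Fin.cons p.1 p.2) ?_ ?_ ?_ ?_ ?_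
  · intro c hc
    rw [Fintype.mem_piFinset] at hc
    exact mem_product.2 ⟨hc 0, Fintype.mem_piFinset.2 fun j => hc _⟩
  · intro p hp
    obtain ⟨h1, h2⟩ := mem_product.1 hp
    refine Fintype.mem_piFinset.2 fun j => ?_
    induction j using Fin.cases with
    | zero => simpa using h1
    | succ j => simpa using Fintype.mem_piFinset.1 h2 j
  · intro c _; simp
  · intro p _; simp
  · intro c _; simp

theorem cnt (K : ℕ) : ∀ (r : List ℕ), (∀ a ∈ r, 1 ≤ a) → ∀ k < K,
    ∑ c ∈ Fintype.piFinset (fun _ : Fin r.length => range K),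
      (if ∑ j, r.get j * c j = k then (1 : ℤ) else 0) = psi r k
  | [], _, k, _ => by simp [psi, eq_comm]
  | a :: r, hr, k, hk => by
    have ha : 1 ≤ a := hr a (by simp)
    have ih := cnt K r fun x hx => hr x (by simp [hx])
    have := sum_cons (n := r.length) (K := K)
      fun c => if ∑ j : Fin (r.length + 1), (a :: r).get j * c j = k then (1 : ℤ) else 0
    refine this.trans ?_
    rw [psi, Nat.cast_sum, sum_subset (range_subset_range.2 (by omega : k + 1 ≤ K))]
    · refine sum_congr rfl fun t _ => ?_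
      simp only [Fin.sum_univ_succ, Fin.cons_zero, Fin.cons_succ]
      split_ifs with h
      · rw [← ih _ (by omega : k - a * t < K)]
        refine sum_congr rfl fun c _ => if_congr ?_ rfl rfl
        change a * t + ∑ j, r.get j * c j = k ↔ _
        omega
      · refine (sum_eq_zero fun c _ => if_neg ?_).trans (by simp)
        change ¬ a * t + ∑ j, r.get j * c j = k
        omega
    · intro t _ ht
      rw [if_neg, Nat.cast_zero]
      have := Nat.le_mul_of_pos_left t ha
      simp at ht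
      omega

theorem eval_Ph {r : List ℕ} (hr : ∀ a ∈ r, 1 ≤ a) (k : ℕ) :
    eval (fun _ => 1) (Ph r k) = (psi r k : ℤ) := by
  rw [← cnt (k + 1) r hr k (by omega), Ph, map_sum]
  refine sum_congr rfl fun c _ => ?_
  split_ifs <;> simp [eval_monomial]

theorem hom_Ph {r : List ℕ} (hr : ∀ a ∈ r, 1 ≤ a) (k : ℕ) :
    IsWeightedHomogeneous r.get (Ph r k) k := by
  intro d hd
  rw [coeff_Ph hr] at hd
  rw [Finsupp.weight_eq_sum]
  split_ifs at hd with h
  · simpa [mul_comm] using h
  · exact absurd rfl hd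

theorem coeff_top {r : List ℕ} (hr : ∀ a ∈ r, 1 ≤ a) (b k a0 : ℕ) (hk : k ≤ b)
    (hs : a0 + k = r.sum * b) (F : MvPolynomial (Fin r.length) ℤ)
    (hF : IsWeightedHomogeneous r.get F k) :
    coeff (fs fun _ => b) (Ph r a0 * F) = eval (fun _ => 1) F := by
  conv_lhs => rw [F.as_sum]
  conv_rhs => rw [F.as_sum]
  rw [mul_sum, coeff_sum, map_sum]
  refine sum_congr rfl fun m hm => ?_
  have hw := hF (mem_support_iff.1 hm)
  rw [Finsupp.weight_eq_sum] at hw
  have hw' : ∑ j, r.get j * m j = k := by simpa [mul_comm] using hw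
  have hle : ∀ j, m j ≤ b := fun j => by have := le_wt hr m j; omega
  rw [coeff_mul_monomial', if_pos (show m ≤ fs fun _ => b from fun j => hle j), coeff_Ph hr,
    if_pos, eval_monomial]
  · simp
  · have h1 : ∑ j, r.get j * ((fs fun _ => b) - m : Fin r.length →₀ ℕ) j + ∑ j, r.get j * m j =
        ∑ j, r.get j * b := by
      rw [← sum_add_distrib]
      refine sum_congr rfl fun j _ => ?_
      rw [← mul_add, Finsupp.tsub_apply, fs_apply, Nat.sub_add_cancel (hle j)]
    have h2 : ∑ j, r.get j = r.sum := by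
      rw [← List.sum_ofFn, List.ofFn_get]
    rw [← sum_mul, h2] at h1
    omega

theorem coeff_prod {r : List ℕ} (hr : ∀ a ∈ r, 1 ≤ a) (hs : r.sum = 6) (b : ℕ) (a : Fin 6 → ℤ)
    (h1 : ∑ i, a i = 6 * b) (h2 : ∑ i : Fin 5, a i.succ ≤ b) :
    coeff (fs fun _ => b) (∏ i, Phz r (a i)) = ∏ i : Fin 5, psz r (a i.succ) := by
  rw [Fin.prod_univ_succ]
  by_cases h : ∀ i : Fin 5, 0 ≤ a i.succ
  · have e1 : ∑ i : Fin 5, a i.succ = ((∑ i : Fin 5, (a i.succ).toNat : ℕ) : ℤ) := by
      rw [Nat.cast_sum]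
      exact sum_congr rfl fun i _ => (Int.toNat_of_nonneg (h i)).symm
    rw [Fin.sum_univ_succ] at h1
    have h0 : 0 ≤ a 0 := by omega
    simp only [Phz, psz, if_pos (h _), if_pos h0]
    rw [coeff_top hr b (∑ i : Fin 5, (a i.succ).toNat) _ (by omega) (by rw [hs]; omega) _
      (IsWeightedHomogeneous.prod _ _ _ fun i _ => hom_Ph hr _), map_prod]
    exact prod_congr rfl fun i _ => eval_Ph hr _
  · obtain ⟨i, hi⟩ := not_forall.1 h
    rw [prod_eq_zero (mem_univ i) (by rw [Phz, if_neg hi]),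
      prod_eq_zero (mem_univ i) (by rw [psz, if_neg hi])]
    simp

end UFM

open UFM

theorem uf (hJ : StmtJT) : StmtUF := by
  intro r hr hs b e h1 h2
  let N : Matrix (Fin 6) (Fin 6) ℤ :=
    Matrix.of fun i j => Fin.cases 1 (fun i' : Fin 5 => psz r ((e i'.succ : ℤ) - del 6 j)) i
  have hN : Dq 6 r b e = N.det := by
    rw [hJ 6 r hr b e, ← det_transpose, ← det_transpose N, det_apply', det_apply', coeff_sum]
    refine sum_congr rfl fun σ _ => ?_
    rw [← eq_intCast (C : ℤ →+* MvPolynomial (Fin r.length) ℤ), coeff_C_mul]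
    simp only [transpose_apply, of_apply]
    rw [coeff_prod hr hs b (fun i => (e i : ℤ) - del 6 (σ i))]
    · simp [N, Fin.prod_univ_succ]
    · rw [sum_sub_distrib, Equiv.sum_comp σ fun j => (del 6 j : ℤ), ← Nat.cast_sum, h1]
      simp [del, Fin.sum_univ_succ]
    · refine le_trans (sum_le_sum fun i _ => ?_ : _ ≤ ∑ i : Fin 5, (e i.succ : ℤ)) ?_
      · simp
      · exact_mod_cast h2
  let B : Matrix (Fin 6) (Fin 6) ℤ :=
    Matrix.of fun i j => Fin.cases (N i 0) (fun j' : Fin 5 => N i j'.succ - N i j'.castSucc) j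
  have hB : N.det = B.det :=
    det_eq_of_forall_col_eq_smul_add_pred (fun _ => 1) (fun i => rfl) fun i j => by simp [B]
  rw [hN, hB, det_succ_row_zero, Fin.sum_univ_succ, sum_eq_zero fun j _ => by simp [B, N], D5]
  simp only [B, N, of_apply, Fin.cases_zero, Fin.val_zero, pow_zero, one_mul, add_zero,
    Fin.succAbove_zero]
  congr 1
  ext i j
  simp only [submatrix_apply, of_apply, Fin.cases_succ, phz, del, Fin.val_succ, Fin.val_castSucc]
  have := j.2
  congr 2 <;> omega

end Vale.Agent.P181.S
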