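import Vale.Agent.P181.S.Spec

namespace Vale.Agent.P181.S.WeylM

open Finset MvPolynomial Matrix

variable {n : ℕ}

theorem fs_inj {e e' : Fin n → ℕ} (h : fs e = fs e') : e = e' :=
  Finsupp.equivFunOnFinite.symm.injective h

theorem fs_add (e e' : Fin n → ℕ) : fs e + fs e' = fs fun i => e i + e' i := by
  ext i; simp [fs]

theorem del_anti : StrictAnti fun i : Fin n => (del n i : ℝ) := by
  intro i j h
  have h1 : (i : ℕ) < j := h
  have h2 := j.2
  have : del n j < del n i := by unfold del; omega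
  exact Nat.cast_lt.2 this

theorem del_cast (i : Fin n) : (del n i : ℝ) = (n : ℝ) - 1 - (i : ℕ) := by
  have h2 := i.2
  have : del n i + 1 + (i : ℕ) = n := by unfold del; omega
  have h3 : ((del n i + 1 + (i : ℕ) : ℕ) : ℝ) = n := by rw [this]
  push_cast at h3
  linarith

theorem norm_id (m : Fin n → ℕ) :
    ∑ i, ((m i + del n i : ℕ) : ℝ) ^ 2 =
      ∑ i, (del n i : ℝ) ^ 2 + casv m + ((n : ℝ) - 1) * ((∑ i, m i : ℕ) : ℝ) := by
  have h1 : ∑ i : Fin n, ∑ j : Fin n, (if i < j then (m i : ℝ) - m j else 0) =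
      ∑ i : Fin n, (m i : ℝ) * del n i - ∑ j : Fin n, (m j : ℝ) * (j : ℕ) := by
    have e : ∀ i j : Fin n, (if i < j then (m i : ℝ) - m j else 0) =
        (if i < j then (m i : ℝ) else 0) - (if i < j then (m j : ℝ) else 0) := by
      intro i j; split_ifs <;> simp
    simp only [e, sum_sub_distrib]
    congr 1
    · refine sum_congr rfl fun i _ => ?_
      rw [← sum_filter, sum_const, filter_lt_eq_Ioi, Fin.card_Ioi, nsmul_eq_mul, mul_comm]
      rfl
    · rw [sum_comm]
      refine sum_congr rfl fun j _ => ?_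
      rw [← sum_filter, sum_const, filter_gt_eq_Iio, Fin.card_Iio, nsmul_eq_mul, mul_comm]
  unfold casv
  rw [h1]
  push_cast
  rw [mul_sum, ← sum_sub_distrib, ← sum_add_distrib, ← sum_add_distrib, ← sum_add_distrib]
  refine sum_congr rfl fun i _ => ?_
  rw [del_cast]; ring

theorem key (l m u : Fin n → ℕ) (hl : Antitone l) (hm : Antitone m) (w : Equiv.Perm (Fin n))
    (hu : ∀ τ : Fin n → ℝ, StrictAnti τ → (u = m ∨ ∑ i, τ i * u i < ∑ i, τ i * m i))
    (he : ∀ i, del n (w i) + u i = l i + del n i)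
    (hn : ∑ i, ((l i + del n i : ℕ) : ℝ) ^ 2 = ∑ i, ((m i + del n i : ℕ) : ℝ) ^ 2) :
    u = m ∧ w = 1 := by
  set τ : Fin n → ℝ := fun i => (l i : ℝ) + m i + 2 * del n i with hτ
  have hs : StrictAnti τ := by
    intro i j h
    have a1 : (l j : ℝ) ≤ l i := by exact_mod_cast hl h.le
    have a2 : (m j : ℝ) ≤ m i := by exact_mod_cast hm h.le
    have a3 := del_anti h
    simp only [hτ]
    simp only at a3
    linarith
  have hmv : Monovary τ fun i : Fin n => (del n i : ℝ) := by
    intro i j h
    have : j < i := (del_anti.lt_iff_gt).1 h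
    exact (hs this).le
  have h1 := hmv.sum_mul_comp_perm_le_sum_mul (σ := w)
  have h0 : ∑ i, τ i * m i - ∑ i, τ i * u i +
      (∑ i, τ i * del n i - ∑ i, τ i * del n (w i)) = 0 := by
    have : ∑ i, ((m i + del n i : ℕ) : ℝ) ^ 2 - ∑ i, ((l i + del n i : ℕ) : ℝ) ^ 2 = 0 := by
      rw [hn, sub_self]
    rw [← this]
    simp only [← sum_sub_distrib, ← sum_add_distrib]
    refine sum_congr rfl fun i _ => ?_
    have h2 : (del n (w i) : ℝ) + u i = l i + del n i := by exact_mod_cast he i
    have h3 : (u i : ℝ) = l i + del n i - del n (w i) := by linarith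
    simp only [hτ]
    push_cast
    rw [h3]; ring
  have hum : u = m := by
    rcases hu τ hs with h | h
    · exact h
    · exfalso; linarith
  refine ⟨hum, ?_⟩
  subst hum
  have h2 : ∑ i, τ i * del n (w i) = ∑ i, τ i * del n i := by linarith
  have h3 := (hmv.sum_mul_comp_perm_eq_sum_mul_iff (σ := w)).1 h2
  have h4 : StrictMono w.symm := by
    intro a b hab
    have h5 : ((fun i : Fin n => (del n i : ℝ)) ∘ w) (w.symm b) <
        ((fun i : Fin n => (del n i : ℝ)) ∘ w) (w.symm a) := by
      simp only [Function.comp, Equiv.apply_symm_apply]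
      exact del_anti hab
    have h6 : w.symm a ≤ w.symm b := hs.le_iff_ge.1 (h3 h5)
    exact lt_of_le_of_ne h6 fun c => hab.ne (w.symm.injective c)
  ext i
  have h5 := h4.apply_eq (x := w i)
  rw [Equiv.symm_apply_apply] at h5
  rw [Equiv.Perm.one_apply, ← h5]

theorem coeff_exp {ι : Type} [Fintype ι] (wt : ι → Fin n → ℕ) (c : ι → ℝ) (e : Fin n → ℕ) :
    coeff (fs e) (MvPolynomial.map (Int.castRingHom ℝ) (ad n) *
      ∑ a, monomial (fs (wt a)) (c a)) =
    ∑ w : Equiv.Perm (Fin n), ∑ a, if (fun i => del n (w i) + wt a i) = e then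
      (((Equiv.Perm.sign w : ℤˣ) : ℤ) : ℝ) * c a else 0 := by
  unfold ad
  rw [map_sum, sum_mul_sum, coeff_sum]
  refine sum_congr rfl fun w _ => ?_
  rw [coeff_sum]
  refine sum_congr rfl fun a _ => ?_
  rw [map_monomial, monomial_mul, coeff_monomial, fs_add]
  refine if_congr ⟨fs_inj, fun h => by rw [h]⟩ ?_ rfl
  simp

end Vale.Agent.P181.S.WeylM

namespace Vale.Agent.P181.S

open Finset MvPolynomial Matrix WeylM

theorem weyl (hD : StmtDec) (hL : StmtLap) : StmtWeyl := by
  intro n ι _ _ G hG l hl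
  obtain ⟨Λ, q, hq1, hq0, hq⟩ := hD n ι G hG
  set e : Fin n → ℕ := fun i => l i + del n i with he
  set c : (Fin n → ℕ) → ℝ := fun m => coeff (fs e) (MvPolynomial.map (Int.castRingHom ℝ) (ad n) *
      ∑ a, monomial (fs (G.wt a)) (q m a a)) with hc
  have s1 : ((coeff (fs e) (ad n * G.ch) : ℤ) : ℝ) = ∑ m ∈ Λ, c m := by
    have a1 : ((coeff (fs e) (ad n * G.ch) : ℤ) : ℝ) =
        coeff (fs e) (MvPolynomial.map (Int.castRingHom ℝ) (ad n * G.ch)) := by
      rw [coeff_map]; simp
    have a2 : MvPolynomial.map (Int.castRingHom ℝ) G.ch =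
        ∑ m ∈ Λ, ∑ a, monomial (fs (G.wt a)) (q m a a) := by
      rw [sum_comm]
      unfold GD.ch
      rw [map_sum]
      refine sum_congr rfl fun a _ => ?_
      rw [map_monomial, ← map_sum]
      congr 1
      have := congrFun (congrFun hq1 a) a
      rw [Matrix.sum_apply] at this
      rw [this]; simp
    rw [a1, map_mul, a2, mul_sum, coeff_sum]
  have s2 : ∀ m ∈ Λ, ∑ i, ((l i + del n i : ℕ) : ℝ) ^ 2 = ∑ i, ((m i + del n i : ℕ) : ℝ) ^ 2 →
      c m = if m = l then (G.hw l : ℝ) else 0 := by
    intro m hm hn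
    obtain ⟨b1, b2, b3, b4, b5⟩ := hq m hm
    simp only [hc]
    rw [coeff_exp, sum_eq_single (1 : Equiv.Perm (Fin n))]
    · split_ifs with h
      · subst h
        rw [← b5, sum_filter]
        refine sum_congr rfl fun a _ => ?_
        refine if_congr ⟨fun h => ?_, fun h => ?_⟩ (by simp) rfl
        · funext i
          have := congrFun h i
          simp only [he, Equiv.Perm.one_apply] at this
          omega
        · funext i
          simp only [he, Equiv.Perm.one_apply, h]
          omega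
      · refine sum_eq_zero fun a _ => ?_
        split_ifs with h1
        · by_contra h2
          have h3 : q m a a ≠ 0 := fun c => h2 (by rw [c, mul_zero])
          have h4 := (key l m (G.wt a) hl b1 1 (b4 a h3).2 (fun i => congrFun h1 i) hn).1
          refine h (funext fun i => ?_)
          have := congrFun h1 i
          simp only [he, Equiv.Perm.one_apply, h4] at this
          omega
        · rfl
    · intro w _ hw
      refine sum_eq_zero fun a _ => ?_
      split_ifs with h1
      · by_contra h2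
        have h3 : q m a a ≠ 0 := fun c => h2 (by rw [c, mul_zero])
        exact hw (key l m (G.wt a) hl b1 w (b4 a h3).2 (fun i => congrFun h1 i) hn).2
      · rfl
    · simp
  have s3 : ∀ m ∈ Λ, c m = if m = l then (G.hw l : ℝ) else 0 := by
    intro m hm
    by_cases h : c m = 0
    · by_cases h1 : m = l
      · exact s2 m hm (by rw [h1])
      · rw [if_neg h1, h]
    · obtain ⟨b1, b2, b3, b4, b5⟩ := hq m hm
      have := hL n ι G hG (q m) (casv m) (∑ i, m i) b2 b3 (fun a ha => (b4 a ha).1) e h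
      exact s2 m hm (by rw [norm_id m]; exact this)
  have s4 : ∑ m ∈ Λ, c m = G.hw l := by
    rw [sum_congr rfl s3, sum_ite_eq']
    split_ifs with h
    · rfl
    · rw [hq0 l h]; simp
  have : ((G.hw l : ℤ) : ℝ) = ((coeff (fs e) (ad n * G.ch) : ℤ) : ℝ) := by
    rw [s1, s4]; simp
  exact_mod_cast this

end Vale.Agent.P181.S
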