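import Vale.Agent.P181.S.Poly
import Vale.Agent.P181.S.Ok
import Vale.Agent.P181.S.Cyc
import Vale.Agent.P181.S.Dec
import Vale.Agent.P181.S.Lap
import Vale.Agent.P181.S.Weyl
import Vale.Agent.P181.S.Inj
import Vale.Agent.P181.S.Link
import Vale.Agent.P181.S.Exp
import Vale.Agent.P181.S.Emb
import Vale.Agent.P181.S.Semi
import Vale.Agent.P181.S.Newt
import Vale.Agent.P181.S.Anti
import Vale.Agent.P181.S.Al
import Vale.Agent.P181.S.Stab
import Vale.Agent.P181.S.JT
import Vale.Agent.P181.S.Rec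
import Vale.Agent.P181.S.Dual
import Vale.Agent.P181.S.UF
import Vale.Agent.P181.S.UB
import Vale.Agent.P181.S.CUniq
import Vale.Agent.P181.S.CVal
import Vale.Agent.P181.S.CSl
import Vale.Agent.P181.S.CLay
import Vale.Agent.P181.S.CMul
import Vale.Agent.P181.S.CStep
import Vale.Agent.P181.S.CTab
import Vale.Agent.P181.S.CPhi
import Vale.Agent.P181.S.CUV
import Vale.Agent.P181.S.CGet
import Vale.Agent.P181.S.CExc
import Vale.Agent.P181.S.CRun
import Vale.Agent.P181.S.CFast

namespace Vale.Agent.P181.S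

theorem hOk : StmtOk := okS poly
theorem hWeyl : StmtWeyl := weyl (dec cycS) lap
theorem hAl : StmtAl := alS hOk hWeyl newt (anti newt)
theorem hUB : StmtUB := ub hOk hWeyl (mono poly) (clsS newt) (dual jt recS) (uf jt)
theorem hRed : StmtRed := red hOk cycS hWeyl (anti newt) (stab newt) (clsS newt) (van jt recS)
theorem hEmb : StmtEmb := emb hOk (inj cycS) link expo
theorem hTab : StmtTab := tabS hAl (stepS hAl uniq dokS (slS hAl) layS mulS)
theorem hGet : StmtGet := getS hAl valS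
theorem hRun : StmtRun :=
  runS (semi poly) (lowS hGet (semi poly)) (staS valS uvS hUB) (excS valS uvS hUB hGet)

theorem frc_eq {α : Type} (x : ℕ) (F : ℕ → α) : frc x F = F x := by cases x <;> rfl

theorem allR_iff (P : ℕ → Bool) (lo len : ℕ) :
    allR P lo len = true ↔ ∀ t < len, P (lo + t) = true := by
  induction len with
  | zero => exact ⟨fun _ t ht => absurd ht (Nat.not_lt_zero t), fun _ => rfl⟩
  | succ n ih =>
    have : allR P lo (n + 1) = (P (lo + n) && allR P lo n) := rfl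
    rw [this, Bool.and_eq_true, ih]
    constructor
    · rintro ⟨h1, h2⟩ t ht
      rcases Nat.lt_succ_iff_lt_or_eq.1 ht with h | h
      · exact h2 t h
      · rw [h]; exact h1
    · exact fun h => ⟨h n (Nat.lt_succ_self n), fun t ht => h t (Nat.lt_succ_of_lt ht)⟩

theorem allR_join {P : ℕ → Bool} {a b : ℕ} (c : ℕ) (h1 : allR P 0 a = true)
    (h2 : allR P a b = true) (e : c = a + b) : allR P 0 c = true := by
  rw [allR_iff] at *
  intro t ht
  by_cases h : t < a
  · exact h1 t h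
  · have := h2 (t - a) (by omega)
    rwa [show a + (t - a) = 0 + t by omega] at this

theorem chk_one {T : List Tb} {w R d β k lo len : ℕ} (h : chkRF T w R d β k lo len = true) :
    chkR T w R d β k lo len = true := by rw [chkRF_eq]; exact h

theorem chk_join {T : List Tb} {w R d β k a b : ℕ} (c : ℕ) (h1 : chkR T w R d β k 0 a = true)
    (h2 : chkRF T w R d β k a b = true) (e : c = a + b) : chkR T w R d β k 0 c = true :=
  allR_join c h1 (chk_one h2) e

theorem chk_lev {T : List Tb} {w R d β β' k : ℕ} (h : chkR T w R d β k 0 512 = true)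
    (e : β' = β) : chkR T w R d β' k 0 512 = true := e ▸ h

theorem all_one {E : Env} {cs : List (List ℕ)} {l5 l6 a b : ℕ}
    (h : allRF (cov4F E cs l5 l6) a b = true) : allR (cov4 E cs l5 l6) a b = true := by
  rw [allRF_eq, cov4F_eq]; exact h

/-- the inequality for all partitions with `32 l6 + (l5 - l6)` in the given range -/
def Gd (lo len : ℕ) : Prop :=
  ∀ b l1 l2 l3 l4 l5 l6 : ℕ, 7 ≤ b → b ≤ 24 → Par (6 * b) l1 l2 l3 l4 l5 l6 →
    lo ≤ 32 * l6 + (l5 - l6) → 32 * l6 + (l5 - l6) < lo + len →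
    mult 6 6 b ![l1, l2, l3, l4, l5, l6] ≤ mult 6 b 6 ![l1, l2, l3, l4, l5, l6]

theorem gd_rng {E : Env} {cs : List (List (List ℕ))} {lo len : ℕ} (hE : EnvOk E)
    (hp : pos E 256 = true) (h : covRF E cs lo len = true) : Gd lo len :=
  hRun E cs lo len hE hp (by rw [covRF_eq]; exact h)

theorem gd_one {E : Env} {cs : List (List ℕ)} {l5 l6 : ℕ} (u : ℕ) (hE : EnvOk E)
    (hp : pos E 256 = true) (h : allR (cov4 E cs l5 l6) 0 37 = true) (h6 : u / 32 = l6)
    (h5 : l6 + u % 32 = l5) : Gd u 1 := by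
  refine hRun E [cs] u 1 hE hp ?_
  unfold covR
  rw [allR_iff]
  intro t ht
  obtain rfl : t = 0 := by omega
  unfold cov5
  rw [frc_eq, frc_eq]
  have e1 : Nat.sub (u + 0) u = 0 := by simp
  rw [e1]
  subst h6 h5
  exact h

theorem gd_join {a b : ℕ} (c : ℕ) (h1 : Gd 0 a) (h2 : Gd a b) (e : c = a + b) : Gd 0 c := by
  intro n l1 l2 l3 l4 l5 l6 h7 h24 hP _ hc
  by_cases h : 32 * l6 + (l5 - l6) < a
  · exact h1 n l1 l2 l3 l4 l5 l6 h7 h24 hP (Nat.zero_le _) (by omega)
  · exact h2 n l1 l2 l3 l4 l5 l6 h7 h24 hP (by omega) (by omega)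

theorem sixth (h : Gd 0 800) (b : ℕ) (h7 : 7 ≤ b) (h24 : b ≤ 24) (V : Type) [AddCommGroup V]
    [Module ℂ V] [FiniteDimensional ℂ V] :
    ∃ Φ : SymP 6 (SymP b V) →ₗ[ℂ] SymP b (SymP 6 V), Function.Injective Φ ∧ IsEquivariant Φ := by
  refine hEmb 6 b V fun l => hRed b ?_ _ l
  intro l1 l2 l3 l4 l5 l6 a1 a2 a3 a4 a5 hs
  exact h b l1 l2 l3 l4 l5 l6 h7 h24 ⟨a1, a2, a3, a4, a5, hs⟩ (Nat.zero_le _) (by omega)

end Vale.Agent.P181.S
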