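import Mathlib.Data.Nat.Notation
import Mathlib.Data.Int.Notation

namespace Vale.Agent.P181.S

structure Ent where
  n : Nat
  s : Bool
  m : Nat

/-- `a + b * 2 ^ s` -/
def jn (s a b : Nat) : Nat := Nat.add a (Nat.shiftLeft b s)

/-- `F x`, with `x` evaluated first -/
noncomputable def frc {α : Type} (x : Nat) (F : Nat → α) : α :=
  Nat.rec (motive := fun _ => α) (F 0) (fun n _ => F (Nat.succ n)) x

noncomputable def lget {α : Type} (d : α) (l : List α) (i : Nat) : α :=
  List.rec (motive := fun _ => Nat → α) (fun _ => d)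
    (fun a _ ih i => Nat.rec (motive := fun _ => α) a (fun i' _ => ih i') i) l i

abbrev Tb : Type := List (List (List Ent))

noncomputable def look (t : Tb) (a b c : Nat) : Ent :=
  lget (Ent.mk 0 true 0) (lget [] (lget [] t c) (Nat.sub (Nat.sub b c) 1)) (Nat.sub (Nat.sub a b) 1)

noncomputable def neg (e : Ent) : Ent :=
  Ent.rec (motive := fun _ => Ent) (fun n s m => cond s (Ent.mk n false m) (Ent.mk n true m)) e

def zer : Ent := Ent.mk 1000 true 0

/-- `b > c` is known -/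
noncomputable def sl2 (t : Tb) (a b c : Nat) : Ent :=
  cond (Nat.blt b a) (look t a b c)
    (cond (Nat.beq a b) zer
      (cond (Nat.blt c a) (neg (look t b a c)) (cond (Nat.beq a c) zer (look t b c a))))

/-- the vector of the (unsorted) tail `a b c` at a level of total degree `N` -/
noncomputable def sl (t : Tb) (N a b c : Nat) : Ent :=
  cond (Nat.ble (Nat.add (Nat.add a b) c) N)
    (cond (Nat.blt c b) (sl2 t a b c) (cond (Nat.beq b c) zer (neg (sl2 t a c b)))) zer

structure Acc where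
  ok : Bool
  p : Nat
  q : Nat

noncomputable def stp (nt : Nat) (e : Ent) (acc : Acc) : Acc :=
  Acc.rec (motive := fun _ => Acc) (fun ok p q =>
    Ent.rec (motive := fun _ => Acc) (fun n s m =>
      cond (Nat.beq m 0) (Acc.mk (and (Nat.ble nt n) ok) p q)
        (cond s (Acc.mk (and (Nat.ble nt n) ok) (Nat.add p m) q)
          (Acc.mk (and (Nat.ble nt n) ok) p (Nat.add q m)))) e) acc

def mn (a b : Nat) : Nat := cond (Nat.ble a b) a b

noncomputable def lay5 (t : Tb) (N nt j i f4 f5 c : Nat) (acc6 : Acc) : Acc :=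
  Nat.rec (motive := fun _ => Acc) acc6 (fun m5 acc5 =>
    cond (Nat.ble (Nat.mul j (Nat.sub i m5)) f4)
      (frc (Nat.sub f5 (Nat.mul j m5)) fun b => frc (Nat.sub f4 (Nat.mul j (Nat.sub i m5))) fun a =>
        stp nt (sl t N a b c) acc5) acc5)
    (Nat.succ (mn i (Nat.div f5 j)))

/-- all tails `f - j m` with `|m| = i` -/
noncomputable def lay (t : Tb) (N nt j i f4 f5 f6 : Nat) : Acc :=
  Nat.rec (motive := fun _ => Acc) (Acc.mk true 0 0) (fun m6 acc6 =>
    frc (Nat.sub f6 (Nat.mul j m6)) fun c => lay5 t N nt j (Nat.sub i m6) f4 f5 c acc6)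
    (Nat.succ (mn i (Nat.div f6 j)))

/-- `∑_{m ≤ r} 2 ^ (s m)` -/
noncomputable def geo (s r : Nat) : Nat :=
  Nat.rec (motive := fun _ => Nat) 1 (fun _ a => Nat.succ (Nat.shiftLeft a s)) r

/-- `∑_{m2 + m3 ≤ r, j m3 < n} 2 ^ (w (j m2 + R j m3))` -/
noncomputable def pp (w R n j r : Nat) : Nat :=
  Nat.rec (motive := fun _ => Nat) 0 (fun m3 a =>
    cond (Nat.blt (Nat.mul j m3) n)
      (jn (Nat.mul (Nat.mul w R) (Nat.mul j m3)) a (geo (Nat.mul w j) (Nat.sub r m3))) a)
    (Nat.succ r)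

def msk (w R n : Nat) : Nat := Nat.pred (Nat.shiftLeft 1 (Nat.mul (Nat.mul w R) n))

noncomputable def cmb (P mask : Nat) (l acc : Acc) : Acc :=
  Acc.rec (motive := fun _ => Acc) (fun ok p q =>
    Acc.rec (motive := fun _ => Acc) (fun ok' p' q' =>
      cond (Nat.beq p' q') (Acc.mk (and ok' ok) p q)
        (cond (Nat.ble q' p')
          (Acc.mk (and ok' ok) (Nat.add p (Nat.mul P (Nat.land (Nat.sub p' q') mask))) q)
          (Acc.mk (and ok' ok) p (Nat.add q (Nat.mul P (Nat.land (Nat.sub q' p') mask)))))) l) acc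

noncomputable def rhj (t : Tb) (w R d N nt j f4 f5 f6 : Nat) (acc0 : Acc) : Acc :=
  Nat.rec (motive := fun _ => Acc) acc0 (fun i acc =>
    cmb (pp w R nt j (Nat.sub d i)) (msk w R nt) (lay t N nt j i f4 f5 f6) acc) (Nat.succ d)

/-- sum over `j = 1..k`, the source level is `k - j` -/
noncomputable def rhs (T : List Tb) (w R d k nt f4 f5 f6 : Nat) : Acc :=
  Nat.rec (motive := fun _ => Acc) (Acc.mk true 0 0) (fun k' acc =>
    rhj (lget [] T k') w R d (Nat.add (Nat.mul k' d) 15) nt (Nat.sub k k') f4 f5 f6 acc) k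

def ones (w R n : Nat) : Nat := Nat.div (msk w R n) (Nat.pred (Nat.shiftLeft 1 w))

def off (w R β n : Nat) : Nat := Nat.shiftLeft (ones w R n) β

def dmk (w R β n : Nat) : Nat := Nat.mul (ones w R n) (Nat.pred (Nat.shiftLeft 1 (Nat.succ β)))

def dok1 (D z : Nat) : Bool := Nat.beq (Nat.land z D) z

/-- all balanced digits of the entry lie in `[-2^β, 2^β)` -/
def dok (w R β n : Nat) (s : Bool) (m : Nat) : Bool :=
  cond s (dok1 (dmk w R β n) (Nat.add (off w R β n) m))
    (and (Nat.ble m (off w R β n)) (dok1 (dmk w R β n) (Nat.sub (off w R β n) m)))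

noncomputable def chk1 (T : List Tb) (w R d β k f4 f5 f6 : Nat) (e : Ent) : Bool :=
  Ent.rec (motive := fun _ => Bool) (fun n s m =>
    and (dok w R β n s m)
      (Acc.rec (motive := fun _ => Bool) (fun ok p q =>
        and ok (cond s
          (Nat.beq (Nat.land (Nat.add (Nat.mul k m) q) (msk w R n)) (Nat.land p (msk w R n)))
          (Nat.beq (Nat.land (Nat.add (Nat.mul k m) p) (msk w R n)) (Nat.land q (msk w R n)))))
        (rhs T w R d k n f4 f5 f6))) e

/-- check all entries of a list, the first one has index `i` -/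
noncomputable def allI {α : Type} (P : Nat → α → Bool) (l : List α) (i : Nat) : Bool :=
  List.rec (motive := fun _ => Nat → Bool) (fun _ => true)
    (fun a _ ih i => and (P i a) (ih (Nat.succ i))) l i

/-- `P u` for `lo ≤ u < lo + len` -/
noncomputable def allR (P : Nat → Bool) (lo len : Nat) : Bool :=
  Nat.rec (motive := fun _ => Bool) true (fun t r => and (P (Nat.add lo t)) r) len

/-- apply a check to the entries with `32 f6 + (f5 - f6 - 1) = u` -/
noncomputable def rowC (t : Tb) (P : Nat → Nat → Nat → Ent → Bool) (u : Nat) : Bool :=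
  frc (Nat.div u 32) fun f6 => frc (Nat.succ (Nat.add f6 (Nat.mod u 32))) fun f5 =>
    allI (fun f4 e => P f4 f5 f6 e) (lget [] (lget [] t f6) (Nat.mod u 32)) (Nat.succ f5)

noncomputable def chkR (T : List Tb) (w R d β k lo len : Nat) : Bool :=
  allR (rowC (lget [] T k) (chk1 T w R d β k)) lo len

noncomputable def shp (T : List Tb) (K : Nat) : Bool :=
  and (Nat.ble (List.length T) (Nat.succ K))
    (allI (fun _ t => and (Nat.ble (List.length t) 16)
      (allI (fun _ l => Nat.ble (List.length l) 32) t 0)) T 0)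

/-! reading off digits -/

def rw1 (w R m r : Nat) : Nat :=
  Nat.land (Nat.shiftRight m (Nat.mul (Nat.mul w R) r)) (Nat.pred (Nat.shiftLeft 1 (Nat.mul w R)))

def dg1 (w x p : Nat) : Nat :=
  Nat.shiftRight (Nat.succ (Nat.land (Nat.shiftRight x (Nat.pred (Nat.mul w p)))
    (Nat.pred (Nat.shiftLeft 1 (Nat.succ w))))) 1

/-- the digit at position `p ≥ 1` of a row, if it is nonnegative -/
def dgt (w : Nat) (s : Bool) (x p : Nat) : Nat :=
  cond s (Nat.land (dg1 w x p) (Nat.pred (Nat.shiftLeft 1 w)))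
    (Nat.land (Nat.sub (Nat.shiftLeft 1 w) (dg1 w x p)) (Nat.pred (Nat.shiftLeft 1 w)))

/-- row `r` of an entry; the field `n` is the number of usable columns -/
noncomputable def rowE (w R C : Nat) (e : Ent) (r : Nat) : Ent :=
  Ent.rec (motive := fun _ => Ent) (fun n s m =>
    cond (Nat.blt r n) (Ent.mk C s (rw1 w R m r)) (Ent.mk 0 true 0)) e

/-- `0`, or the digit plus one; to be used with `p ≥ 1` -/
noncomputable def getD (w : Nat) (x : Ent) (p : Nat) : Nat :=
  Ent.rec (motive := fun _ => Nat) (fun n s m => cond (Nat.blt p n) (Nat.succ (dgt w s m p)) 0) x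

noncomputable def rowT (T : List Tb) (w R k e3 f4 f5 f6 : Nat) : Ent :=
  rowE w R R (look (lget [] T k) f4 f5 f6) e3

/-! the upper bound -/

noncomputable def ph (F : List Int) (x s : Nat) : Int :=
  cond (Nat.ble s x) (lget 0 F (Nat.sub x s)) 0

noncomputable def n2 (F : List Int) (b c s t : Nat) : Int :=
  Int.sub (Int.mul (ph F b s) (ph F c t)) (Int.mul (ph F b t) (ph F c s))

noncomputable def n3 (F : List Int) (a b c r s t : Nat) : Int :=
  Int.add (Int.sub (Int.mul (ph F a r) (n2 F b c s t)) (Int.mul (ph F a s) (n2 F b c r t)))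
    (Int.mul (ph F a t) (n2 F b c r s))

/-- `x ^ s y ^ t - x ^ t y ^ s` -/
def kk (s t : Nat) : Int :=
  Int.sub (Int.ofNat (Nat.shiftLeft 1 (Nat.mul 112 (Nat.add s (Nat.mul 81 t)))))
    (Int.ofNat (Nat.shiftLeft 1 (Nat.mul 112 (Nat.add t (Nat.mul 81 s)))))

noncomputable def qq (F : List Int) (a b c : Nat) : Int :=
  Int.add (Int.add (Int.add (Int.add (Int.add (Int.add (Int.add (Int.add (Int.add
    (Int.mul (n3 F a b c 4 3 2) (kk 1 0))
    (Int.mul (n3 F a b c 4 3 1) (kk 0 2)))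
    (Int.mul (n3 F a b c 4 3 0) (kk 2 1)))
    (Int.mul (n3 F a b c 4 2 1) (kk 3 0)))
    (Int.mul (n3 F a b c 4 2 0) (kk 1 3)))
    (Int.mul (n3 F a b c 4 1 0) (kk 3 2)))
    (Int.mul (n3 F a b c 3 2 1) (kk 0 4)))
    (Int.mul (n3 F a b c 3 2 0) (kk 4 1)))
    (Int.mul (n3 F a b c 3 1 0) (kk 2 4)))
    (Int.mul (n3 F a b c 2 1 0) (kk 4 3))

/-- `∑_{k < n} F k * 2 ^ (s k)` -/
noncomputable def pol (F : List Int) (s n : Nat) : Int :=
  Nat.rec (motive := fun _ => Int) 0 (fun k a =>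
    Int.add a (Int.mul (lget 0 F k) (Int.ofNat (Nat.shiftLeft 1 (Nat.mul s k))))) n

noncomputable def gg (F : List Int) (n : Nat) : Int := Int.mul (pol F 112 77) (pol F 9072 n)

noncomputable def uv (FT : List (Nat × List Int)) (a b c n : Nat) : Int :=
  List.rec (motive := fun _ => Int) 0 (fun x _ r =>
    Prod.rec (motive := fun _ => Int) (fun z F =>
      Int.add r (Int.mul (Int.mul (Int.ofNat z) (qq F a b c)) (gg F n))) x) FT

noncomputable def uent (FT : List (Nat × List Int)) (a b c n : Nat) : Ent :=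
  cond (and (Nat.blt a 40) (Nat.ble n 77))
    (Int.rec (motive := fun _ => Ent) (fun m => Ent.mk n true m)
      (fun m => Ent.mk n false (Nat.succ m)) (uv FT a b c n)) (Ent.mk 0 true 0)

/-! the covering -/

structure Env where
  TL : List Tb
  TH : List Tb
  LT : List (List Tb)
  FT : List (Nat × List Int)
  wL : Nat
  wH : Nat
  wX : Nat

def fld (x s m : Nat) : Nat := Nat.land (Nat.shiftRight x s) m

/-- code: `m2` 6 bits, `h` 2, `c` 4, `m3` 5, `m4` 5, `m5` 4, `m6` 4 -/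
noncomputable def pos6 (E : Env) (c m2 m3 m4 m5 m6 : Nat) : Bool :=
  and (and (and (Nat.ble m6 m5) (Nat.ble m5 m4)) (and (Nat.ble m4 m3) (Nat.ble m3 m2)))
    (and (Nat.ble (Nat.add (Nat.add (Nat.add (Nat.add (Nat.add m2 m2) m3) m4) m5) m6) (Nat.mul 6 c))
      (Nat.blt 1 (getD E.wL (rowT E.TL E.wL 91 c (Nat.add m3 3) (Nat.add m4 2) (Nat.add m5 1) m6)
        (Nat.add m2 4))))

noncomputable def pos (E : Env) (x : Nat) : Bool :=
  pos6 E (fld x 8 15) (fld x 0 63) (fld x 12 31) (fld x 17 31) (fld x 22 15) (fld x 26 15)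

structure Rw where
  lo : Nat
  hi : Nat
  w : Nat
  e : Ent

noncomputable def row5 (E : Env) (h k n3 n4 n5 n6 : Nat) : Rw :=
  cond (and (and (Nat.ble n6 n5) (Nat.ble n5 n4))
      (and (Nat.ble n4 n3) (Nat.ble (Nat.add (Nat.add (Nat.add n3 n4) n5) n6) (Nat.mul 6 k))))
    (cond (Nat.beq h 0)
      (Rw.mk n3 (Nat.sub (Nat.mul 6 k) (Nat.add (Nat.add (Nat.add n3 n4) n5) n6)) E.wL
        (rowT E.TL E.wL 91 k (Nat.add n3 3) (Nat.add n4 2) (Nat.add n5 1) n6))
      (Rw.mk n3 (Nat.sub (Nat.mul 6 k) (Nat.add (Nat.add (Nat.add n3 n4) n5) n6)) E.wH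
        (rowT E.TH E.wH 157 k (Nat.add n3 3) (Nat.add n4 2) (Nat.add n5 1) n6)))
    (Rw.mk 0 0 0 (Ent.mk 0 true 0))

/-- `y` is the code without `m2` -/
noncomputable def rowOf (E : Env) (y b l3 l4 l5 l6 : Nat) : Rw :=
  cond (and (and (Nat.ble (fld y 2 15) b) (Nat.ble (fld y 6 31) l3))
      (and (Nat.ble (fld y 11 31) l4) (and (Nat.ble (fld y 16 15) l5) (Nat.ble (fld y 20 15) l6))))
    (row5 E (fld y 0 3) (Nat.sub b (fld y 2 15)) (Nat.sub l3 (fld y 6 31)) (Nat.sub l4 (fld y 11 31))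
      (Nat.sub l5 (fld y 16 15)) (Nat.sub l6 (fld y 20 15)))
    (Rw.mk 0 0 0 (Ent.mk 0 true 0))

noncomputable def low2 (r : Rw) (n2 : Nat) : Nat :=
  Rw.rec (motive := fun _ => Nat) (fun lo hi w e =>
    cond (and (Nat.ble lo n2) (Nat.ble (Nat.add n2 n2) hi)) (Nat.pred (getD w e (Nat.add n2 4))) 0) r

/-- a lower bound for the multiplicity in `Symᵇ(Sym⁶)` -/
noncomputable def low (E : Env) (x b l2 l3 l4 l5 l6 : Nat) : Nat :=
  frc x fun x' => cond (and (pos E x') (Nat.ble (Nat.land x' 63) l2))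
    (frc (Nat.shiftRight x' 6) fun y => low2 (rowOf E y b l3 l4 l5 l6) (Nat.sub l2 (Nat.land x' 63))) 0

/-- `0 < u ≤ a + 1` -/
def le1 (u a : Nat) : Bool := and (Nat.blt 0 u) (Nat.ble u (Nat.succ a))

noncomputable def ust2 (E : Env) (k l1 l2 l3 l4 l5 : Nat) : Nat :=
  frc (Nat.add (Nat.sub k l4) 3) fun e3 =>
    getD 112 (rowE 112 81 77 (uent E.FT (Nat.add (Nat.sub k l3) 2) (Nat.add (Nat.sub k l2) 1)
      (Nat.sub k l1) (Nat.succ e3)) e3) (Nat.add (Nat.sub k l5) 4)

noncomputable def ust (E : Env) (l1 l2 l3 l4 l5 : Nat) : Nat :=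
  ust2 E (Nat.add l1 (Nat.mod l1 2)) l1 l2 l3 l4 l5

noncomputable def lex (E : Env) (b l2 l3 l4 l5 l6 : Nat) : Nat :=
  getD E.wX (rowT (lget [] E.LT (Nat.sub b 7)) E.wX (Nat.add (Nat.mul 6 b) 13) 6
    (Nat.add l3 3) (Nat.add l4 2) (Nat.add l5 1) l6) (Nat.add l2 4)

/-- first level to be checked -/
def b0 (l2 S : Nat) : Nat :=
  cond (Nat.ble (Nat.add (Nat.add l2 l2) S) 42) 7 (Nat.div (Nat.add (Nat.add (Nat.add l2 l2) S) 5) 6)

/-- one level at which the bound is not the stable one -/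
noncomputable def exc (E : Env) (t a b l2 l3 l4 l5 l6 S : Nat) : Bool :=
  cond (Nat.beq t 1)
    (le1 (ust E (Nat.sub (Nat.mul 6 b) (Nat.add l2 S)) l2 l3 l4 l5) (Nat.mul 720 a))
    (le1 (lex E b l2 l3 l4 l5 l6) a)

/-- `S = l3 + l4 + l5 + l6`, `u` is the row of the stable bound, `s` the certificate -/
noncomputable def run (E : Env) (u : Ent) (l3 l4 l5 l6 S fuel : Nat) : Nat → Nat → Nat → Bool :=
  Nat.rec (motive := fun _ => Nat → Nat → Nat → Bool) (fun _ _ _ => false) (fun _ ih l2 b s =>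
    cond (Nat.blt 144 (Nat.add (Nat.add l2 l2) S)) true
      (cond (Nat.beq (Nat.land s 3) 0)
        (and (le1 (getD 112 u (Nat.add l2 4)) (Nat.mul 720 (low E (fld s 2 1073741823) b l2 l3 l4 l5 l6)))
          (frc (b0 (Nat.succ l2) S) fun b' => ih (Nat.succ l2) b' (Nat.shiftRight s 32)))
        (and (exc E (Nat.land s 3) (low E (fld s 2 1073741823) b l2 l3 l4 l5 l6) b l2 l3 l4 l5 l6 S)
          (cond (Nat.blt b 24) (frc (Nat.succ b) fun b' => ih l2 b' (Nat.shiftRight s 32))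
            (frc (b0 (Nat.succ l2) S) fun b' => ih (Nat.succ l2) b' (Nat.shiftRight s 32)))))) fuel

noncomputable def cov3 (E : Env) (U : Ent) (cs : List Nat) (l4 l5 l6 t : Nat) : Bool :=
  frc (Nat.add l4 t) fun l3 => frc (Nat.add (Nat.add (Nat.add l3 l4) l5) l6) fun S =>
    cond (Nat.blt 144 (Nat.add (Nat.add l3 l3) S)) true
      (frc (b0 l3 S) fun b => run E (rowE 112 81 77 U (Nat.add l3 3)) l3 l4 l5 l6 S 2000 l3 b (lget 0 cs t))

noncomputable def cov4 (E : Env) (cs : List (List Nat)) (l5 l6 t : Nat) : Bool :=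
  frc (Nat.add l5 t) fun l4 =>
    cond (Nat.blt 144 (Nat.add (Nat.add (Nat.mul 4 l4) l5) l6)) true
      (frc (Nat.add (Nat.div (Nat.sub 144 (Nat.add (Nat.add l4 l5) l6)) 3) 4) fun n =>
        allR (cov3 E (uent E.FT (Nat.add l4 2) (Nat.add l5 1) l6 n) (lget [] cs t) l4 l5 l6) 0 49)

/-- all partitions with `32 l6 + (l5 - l6) = u` -/
noncomputable def cov5 (E : Env) (cs : List (List (List Nat))) (lo u : Nat) : Bool :=
  frc (Nat.div u 32) fun l6 => frc (Nat.add l6 (Nat.mod u 32)) fun l5 =>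
    allR (cov4 E (lget [] cs (Nat.sub u lo)) l5 l6) 0 37

noncomputable def covR (E : Env) (cs : List (List (List Nat))) (lo len : Nat) : Bool :=
  allR (cov5 E cs lo) lo len

end Vale.Agent.P181.S
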