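import Vale.Agent.P181.Defs

namespace Vale.Agent.P181.S

open Finset MvPolynomial Matrix
open scoped Nat

/-- data of a `gl_n`-module in matrix form: operators, weights of the basis vectors, norms -/
structure GD (n : ℕ) (ι : Type) where
  E : Fin n → Fin n → Matrix ι ι ℝ
  wt : ι → Fin n → ℕ
  ν : ι → ℝ

variable {n : ℕ} {ι : Type} [Fintype ι] [DecidableEq ι]

structure GD.Ok (G : GD n ι) : Prop where
  pos : ∀ a, 0 < G.ν a
  diag : ∀ i, G.E i i = Matrix.diagonal fun a => (G.wt a i : ℝ)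
  comm : ∀ i j k l, G.E i j * G.E k l - G.E k l * G.E i j =
    (if j = k then G.E i l else 0) - (if l = i then G.E k j else 0)
  adj : ∀ i j a b, G.ν a * G.E i j a b = G.ν b * G.E j i b a

/-- highest weight vectors of weight `l` -/
def GD.HW (G : GD n ι) (l : Fin n → ℕ) : Submodule ℝ (ι → ℝ) where
  carrier := {v | (∀ i, G.E i i *ᵥ v = (l i : ℝ) • v) ∧ ∀ i j, i < j → G.E i j *ᵥ v = 0}
  add_mem' := fun {x y} hx hy => ⟨fun i => by rw [mulVec_add, hx.1, hy.1, smul_add],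
    fun i j h => by rw [mulVec_add, hx.2 i j h, hy.2 i j h, add_zero]⟩
  zero_mem' := ⟨fun i => by simp, fun i j _ => by simp⟩
  smul_mem' := fun c x hx => ⟨fun i => by rw [mulVec_smul, hx.1, smul_comm],
    fun i j h => by rw [mulVec_smul, hx.2 i j h, smul_zero]⟩

noncomputable def GD.hw (G : GD n ι) (l : Fin n → ℕ) : ℕ := Module.finrank ℝ (G.HW l)

/-- the contravariant form -/
def GD.B (G : GD n ι) (x y : ι → ℝ) : ℝ := ∑ a, G.ν a * x a * y a

/-- a word in the operators, acting on vectors (the head of the list acts last) -/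
def GD.word (G : GD n ι) (w : List (Fin n × Fin n)) : Matrix ι ι ℝ :=
  (w.map fun p => G.E p.1 p.2).prod

/-- span of the lowering words applied to `v` -/
def GD.cyc (G : GD n ι) (v : ι → ℝ) : Submodule ℝ (ι → ℝ) :=
  Submodule.span ℝ {x | ∃ w : List (Fin n × Fin n), (∀ p ∈ w, p.2 < p.1) ∧ x = G.word w *ᵥ v}

def GD.cas (G : GD n ι) : Matrix ι ι ℝ := ∑ i, ∑ j, G.E i j * G.E j i

def casv (l : Fin n → ℕ) : ℝ :=
  ∑ i, (l i : ℝ) ^ 2 + ∑ i, ∑ j, if i < j then (l i : ℝ) - l j else 0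

noncomputable def fs (e : Fin n → ℕ) : Fin n →₀ ℕ := Finsupp.equivFunOnFinite.symm e

noncomputable def GD.ch (G : GD n ι) : MvPolynomial (Fin n) ℤ := ∑ a, monomial (fs (G.wt a)) 1

def del (n : ℕ) : Fin n → ℕ := fun i => n - 1 - i

noncomputable def ad (n : ℕ) : MvPolynomial (Fin n) ℤ :=
  ∑ w : Equiv.Perm (Fin n), monomial (fs fun i => del n (w i)) ((Equiv.Perm.sign w : ℤˣ) : ℤ)

/-- exponent vectors of the monomials of degree `k` in variables indexed by `ι` -/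
def Ix (ι : Type) [Fintype ι] [DecidableEq ι] (k : ℕ) : Type :=
  {s : ι →₀ ℕ // s ∈ finsuppAntidiag (univ : Finset ι) k}

noncomputable instance (k : ℕ) : Fintype (Ix ι k) :=
  inferInstanceAs (Fintype {s : ι →₀ ℕ // s ∈ finsuppAntidiag (univ : Finset ι) k})

noncomputable instance (k : ℕ) : DecidableEq (Ix ι k) :=
  inferInstanceAs (DecidableEq {s : ι →₀ ℕ // s ∈ finsuppAntidiag (univ : Finset ι) k})

noncomputable def GD.der (G : GD n ι) (i j : Fin n) :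
    Derivation ℝ (MvPolynomial ι ℝ) (MvPolynomial ι ℝ) :=
  mkDerivation ℝ fun a => ∑ a', G.E i j a' a • (X a' : MvPolynomial ι ℝ)

/-- `k`-th symmetric power -/
noncomputable def GD.sym (G : GD n ι) (k : ℕ) : GD n (Ix ι k) where
  E i j s' s := coeff s'.1 (G.der i j (monomial s.1 1))
  wt s i := ∑ a, s.1 a * G.wt a i
  ν s := ∏ a, (((s.1 a) ! : ℝ) * G.ν a ^ s.1 a)

/-- the vector representation -/
def std (n : ℕ) : GD n (Fin n) where
  E i j := Matrix.single i j 1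
  wt a i := if a = i then 1 else 0
  ν _ := 1

/-- `Symᵏ(Symᵈ ℝⁿ)` -/
noncomputable def W (n k d : ℕ) : GD n (Ix (Ix (Fin n) d) k) := ((std n).sym d).sym k

noncomputable def mult (n k d : ℕ) (l : Fin n → ℕ) : ℕ := (W n k d).hw l

/-- `h_k[h_d]` in `n` variables -/
noncomputable def H (n k d : ℕ) : MvPolynomial (Fin n) ℤ := (W n k d).ch

/-- `p_j[h_d]` in `n` variables -/
noncomputable def hp (n d j : ℕ) : MvPolynomial (Fin n) ℤ :=
  ∑ m ∈ finsuppAntidiag (univ : Finset (Fin n)) d, monomial (j • m) 1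

noncomputable def A (n k d : ℕ) (e : Fin n → ℕ) : ℤ := coeff (fs e) (ad n * H n k d)

noncomputable def Dq (n : ℕ) (r : List ℕ) (b : ℕ) (e : Fin n → ℕ) : ℤ :=
  coeff (fs e) (ad n * (r.map fun j => hp n b j).prod)

/-- coefficients of `∏_{a ∈ r} 1 / (1 - z ^ a)` -/
def psi : List ℕ → ℕ → ℕ
  | [], k => if k = 0 then 1 else 0
  | a :: r, k => ∑ t ∈ range (k + 1), if a * t ≤ k then psi r (k - a * t) else 0

def psz (r : List ℕ) (x : ℤ) : ℤ := if 0 ≤ x then psi r x.toNat else 0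

def phz (r : List ℕ) (x : ℤ) : ℤ := psz r x - psz r (x - 1)

def D5 (r : List ℕ) (e : Fin 5 → ℕ) : ℤ :=
  (Matrix.of fun i j : Fin 5 => phz r ((e i : ℤ) - (4 - (j : ℕ) : ℤ))).det

/-- coefficient of `z ^ k` in `∏_j 1 / (1 - u_j z ^ r_j)` -/
noncomputable def Ph (r : List ℕ) (k : ℕ) : MvPolynomial (Fin r.length) ℤ :=
  ∑ c ∈ Fintype.piFinset (fun _ : Fin r.length => range (k + 1)),
    if ∑ j, r.get j * c j = k then monomial (fs c) 1 else 0

noncomputable def Phz (r : List ℕ) (x : ℤ) : MvPolynomial (Fin r.length) ℤ :=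
  if 0 ≤ x then Ph r x.toNat else 0

/-- the polynomial `∏_j (1 - u_j z ^ r_j)` -/
noncomputable def Qp (r : List ℕ) : Polynomial (MvPolynomial (Fin r.length) ℤ) :=
  ∏ j : Fin r.length, (1 - Polynomial.C (X j) * Polynomial.X ^ r.get j)

/-- cycle types of `S₆` with the class sizes -/
def cls : List (ℕ × List ℕ) :=
  [(1, [1, 1, 1, 1, 1, 1]), (15, [2, 1, 1, 1, 1]), (45, [2, 2, 1, 1]), (15, [2, 2, 2]),
    (40, [3, 1, 1, 1]), (120, [3, 2, 1]), (40, [3, 3]), (90, [4, 1, 1]), (90, [4, 2]),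
    (144, [5, 1]), (120, [6])]

def UU (e : Fin 5 → ℕ) : ℤ := (cls.map fun p => (p.1 : ℤ) * D5 p.2 e).sum

/-- the coefficient `A 6 k d` with the first exponent determined by homogeneity -/
noncomputable def al (k d e2 e3 e4 e5 e6 : ℕ) : ℤ :=
  if e2 + e3 + e4 + e5 + e6 ≤ k * d + 15 then
    A 6 k d ![k * d + 15 - (e2 + e3 + e4 + e5 + e6), e2, e3, e4, e5, e6] else 0

/-- the coefficients of the Vandermonde polynomial -/
def a0 (e1 e2 e3 e4 e5 e6 : ℕ) : ℤ :=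
  if e1 < 6 ∧ e2 < 6 ∧ e3 < 6 ∧ e4 < 6 ∧ e5 < 6 ∧ e6 < 6 then
    (((e1 : ℤ) - e2) * ((e1 : ℤ) - e3) * ((e1 : ℤ) - e4) * ((e1 : ℤ) - e5) * ((e1 : ℤ) - e6) *
      ((e2 : ℤ) - e3) * ((e2 : ℤ) - e4) * ((e2 : ℤ) - e5) * ((e2 : ℤ) - e6) *
      ((e3 : ℤ) - e4) * ((e3 : ℤ) - e5) * ((e3 : ℤ) - e6) *
      ((e4 : ℤ) - e5) * ((e4 : ℤ) - e6) * ((e5 : ℤ) - e6)) / 34560
  else 0

/-- the matrices of the operators `Y i j` in the basis `b` are those of `G` -/
def Link (G : GD n ι) {M : Type} [AddCommGroup M] [Module ℂ M] (b : Module.Basis ι ℂ M)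
    (Y : Fin n → Fin n → M →ₗ[ℂ] M) : Prop :=
  ∀ i j a, Y i j (b a) = ∑ a', ((G.E i j a' a : ℝ) : ℂ) • b a'

end Vale.Agent.P181.S
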