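import Vale.Agent.P181.S.Spec

namespace Vale.Agent.P181.S

open Finset MvPolynomial Matrix

namespace PolyM

variable {n : ℕ} {ι : Type} [Fintype ι] [DecidableEq ι] {k : ℕ}

theorem mem_iff {t : ι →₀ ℕ} : t ∈ finsuppAntidiag (univ : Finset ι) k ↔ t.degree = k := by
  simp [mem_finsuppAntidiag, Finsupp.degree_eq_sum]

theorem deg (s : Ix ι k) : s.1.degree = k := mem_iff.1 s.2

/-- the derivation attached to a matrix -/
noncomputable def dm (M : Matrix ι ι ℝ) : Derivation ℝ (MvPolynomial ι ℝ) (MvPolynomial ι ℝ) :=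
  mkDerivation ℝ fun a => ∑ a', M a' a • (X a' : MvPolynomial ι ℝ)

omit [DecidableEq ι] in
theorem der_eq (G : GD n ι) (i j : Fin n) : G.der i j = dm (G.E i j) := rfl

omit [DecidableEq ι] in
theorem dm_X (M : Matrix ι ι ℝ) (a : ι) : dm M (X a) = ∑ a', M a' a • (X a' : MvPolynomial ι ℝ) :=
  mkDerivation_X _ _ _

omit [DecidableEq ι] in
theorem dm_mon (M : Matrix ι ι ℝ) (s : ι →₀ ℕ) : dm M (monomial s 1) =
    ∑ a, ∑ a', monomial (s - Finsupp.single a 1 + Finsupp.single a' 1) (M a' a * s a) := by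
  rw [dm, mkDerivation_monomial, one_smul, Finsupp.sum_fintype _ _ (by simp)]
  refine sum_congr rfl fun a _ => ?_
  rw [smul_eq_mul, mul_sum]
  refine sum_congr rfl fun a' _ => ?_
  rw [mul_smul_comm, X, monomial_mul, smul_monomial]
  simp

theorem dm_mon_hom (M : Matrix ι ι ℝ) {s : ι →₀ ℕ} (hs : s.degree = k) :
    (dm M (monomial s 1)).IsHomogeneous k := by
  rw [dm_mon]
  refine IsHomogeneous.sum _ _ _ fun a _ => IsHomogeneous.sum _ _ _ fun a' _ => ?_
  by_cases h : s a = 0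
  · simp [h, isHomogeneous_zero]
  · refine isHomogeneous_monomial _ ?_
    have : s - Finsupp.single a 1 + Finsupp.single a 1 = s :=
      tsub_add_cancel_of_le (Finsupp.single_le_iff.2 (by omega))
    rw [← hs]
    conv_rhs => rw [← this]
    simp

/-- vectors as polynomials -/
noncomputable def th (ι : Type) [Fintype ι] [DecidableEq ι] (k : ℕ) :
    (Ix ι k → ℝ) →ₗ[ℝ] MvPolynomial ι ℝ :=
  Fintype.linearCombination ℝ fun s => monomial s.1 1

theorem th_apply (v : Ix ι k → ℝ) : th ι k v = ∑ s, v s • monomial s.1 (1 : ℝ) :=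
  Fintype.linearCombination_apply _ _ _

theorem coeff_th (v : Ix ι k → ℝ) (s : Ix ι k) : coeff s.1 (th ι k v) = v s := by
  rw [th_apply, coeff_sum, sum_eq_single s]
  · simp
  · intro t _ ht
    have : t.1 ≠ s.1 := fun e => ht (Subtype.ext e)
    simp [coeff_monomial, this]
  · simp

theorem th_inj : Function.Injective (th ι k) := fun v w h =>
  funext fun s => by rw [← coeff_th v, h, coeff_th]

theorem hom_sum (v : Ix ι k → ℝ) (f : Ix ι k → MvPolynomial ι ℝ)
    (h : ∀ s, (f s).IsHomogeneous k) : (∑ s, v s • f s).IsHomogeneous k :=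
  IsHomogeneous.sum _ _ _ fun s _ => (homogeneousSubmodule ι ℝ k).smul_mem _ (h s)

theorem th_hom (v : Ix ι k → ℝ) : (th ι k v).IsHomogeneous k := by
  rw [th_apply]; exact hom_sum _ _ fun s => isHomogeneous_monomial _ (deg s)

theorem th_coeff {f : MvPolynomial ι ℝ} (h : f.IsHomogeneous k) :
    th ι k (fun s => coeff s.1 f) = f := by
  ext t
  by_cases c : t.degree = k
  · exact coeff_th (fun s => coeff s.1 f) ⟨t, mem_iff.2 c⟩
  · rw [h.coeff_eq_zero c, (th_hom _).coeff_eq_zero c]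

theorem dm_th (M : Matrix ι ι ℝ) (v : Ix ι k → ℝ) :
    dm M (th ι k v) = ∑ s, v s • dm M (monomial s.1 1) := by
  rw [th_apply, map_sum]; simp

theorem th_E (G : GD n ι) (i j : Fin n) (v : Ix ι k → ℝ) :
    th ι k ((G.sym k).E i j *ᵥ v) = G.der i j (th ι k v) := by
  rw [der_eq, dm_th, ← th_coeff (hom_sum v _ fun s => dm_mon_hom (G.E i j) (deg s))]
  congr 1
  funext s
  rw [coeff_sum]
  exact sum_congr rfl fun t _ => by rw [coeff_smul, smul_eq_mul, mul_comm]; rfl

theorem mem_map (G : GD n ι) (l : Fin n → ℕ) (f : MvPolynomial ι ℝ) :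
    f ∈ ((G.sym k).HW l).map (th ι k) ↔ f.IsHomogeneous k ∧
      (∀ i, G.der i i f = (l i : ℝ) • f) ∧ ∀ i j, i < j → G.der i j f = 0 := by
  constructor
  · rintro ⟨v, hv, rfl⟩
    exact ⟨th_hom v, fun i => by rw [← th_E, hv.1, map_smul],
      fun i j h => by rw [← th_E, hv.2 i j h, map_zero]⟩
  · rintro ⟨h1, h2, h3⟩
    refine ⟨_, ⟨fun i => th_inj ?_, fun i j h => th_inj ?_⟩, th_coeff h1⟩
    · rw [th_E, map_smul, th_coeff h1, h2]
    · rw [th_E, map_zero, th_coeff h1, h3 i j h]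

end PolyM

open PolyM in
theorem poly : StmtPoly := fun _ ι _ _ G k l =>
  ⟨th ι k, th_inj, fun _ => ⟨fun ⟨v, e⟩ => e ▸ th_hom v, fun h => ⟨_, th_coeff h⟩⟩, th_E G,
    mem_map G l⟩

end Vale.Agent.P181.S
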