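import Vale.Agent.P181.S.UF

/-! The linear recurrence of `Phz` and the vanishing for more than six rows. -/

namespace Vale.Agent.P181.S

open Finset MvPolynomial Matrix

namespace RecM

open UFM

theorem part {r : List ℕ} (hr : ∀ a ∈ r, 1 ≤ a) (T : Finset (Fin r.length)) :
    ∀ (k : ℕ) (d : Fin r.length →₀ ℕ), coeff d (PowerSeries.coeff k
      ((∏ j ∈ T, (1 - PowerSeries.C (X j) * PowerSeries.X ^ r.get j)) * PowerSeries.mk (Ph r))) =
      if ∑ j, r.get j * d j = k ∧ ∀ j ∈ T, d j = 0 then 1 else 0 := by
  induction T using Finset.induction_on with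
  | empty => intro k d; simp [coeff_Ph hr]
  | insert j T hj ih =>
    intro k d
    rw [prod_insert hj, mul_assoc, sub_mul, one_mul, map_sub, mul_assoc, PowerSeries.coeff_C_mul,
      PowerSeries.coeff_X_pow_mul', coeff_sub, ih, coeff_X_mul']
    by_cases hd : d j = 0
    · rw [if_neg (c := j ∈ d.support) (by simpa using hd), sub_zero]
      simp [hd]
    rw [if_pos (c := j ∈ d.support) (by simpa using hd),
      if_neg (c := _ ∧ ∀ i ∈ insert j T, d i = 0) (by simp [hd])]
    have h1 : ∑ i, r.get i * (d - Finsupp.single j 1 : Fin r.length →₀ ℕ) i + r.get j =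
        ∑ i, r.get i * d i := by
      rw [← add_sum_erase _ _ (mem_univ j), ← add_sum_erase _ (fun i => r.get i * d i) (mem_univ j),
        sum_congr rfl (g := fun i => r.get i * d i) fun i hi => by
          simp [(ne_of_mem_erase hi).symm]]
      obtain ⟨t, ht⟩ := Nat.exists_eq_succ_of_ne_zero hd
      simp only [Finsupp.tsub_apply, Finsupp.single_eq_same, ht]
      simp [Nat.mul_succ]
      omega
    have h2 : (∀ i ∈ T, (d - Finsupp.single j 1 : Fin r.length →₀ ℕ) i = 0) ↔ ∀ i ∈ T, d i = 0 :=
      forall₂_congr fun i hi => by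
        have : j ≠ i := fun e => hj (e ▸ hi)
        simp [this]
    by_cases hk : r.get j ≤ k
    · rw [if_pos hk, ih, sub_eq_zero]
      exact if_congr (and_congr (by omega) h2.symm) rfl rfl
    · rw [if_neg hk, if_neg (by omega)]
      simp

theorem inv {r : List ℕ} (hr : ∀ a ∈ r, 1 ≤ a) :
    (Qp r : PowerSeries (MvPolynomial (Fin r.length) ℤ)) * PowerSeries.mk (Ph r) = 1 := by
  have e : (Qp r : PowerSeries (MvPolynomial (Fin r.length) ℤ)) =
      ∏ j, (1 - PowerSeries.C (X j) * PowerSeries.X ^ r.get j) := by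
    rw [Qp, ← Polynomial.coeToPowerSeries.ringHom_apply, map_prod]
    simp
  rw [e]
  ext k d
  rw [part hr, PowerSeries.coeff_one]
  by_cases hd : d = 0
  · subst hd
    by_cases hk : k = 0 <;> simp [hk, eq_comm]
  · rw [if_neg fun h => hd (Finsupp.ext fun j => h.2 j (mem_univ j))]
    split_ifs
    · rw [coeff_one, if_neg (Ne.symm hd)]
    · simp

theorem sum_get (r : List ℕ) : ∑ j, r.get j = r.sum := by rw [← List.sum_ofFn, List.ofFn_get]

theorem natDegree_Qp (r : List ℕ) : (Qp r).natDegree ≤ r.sum := by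
  rw [← sum_get]
  refine (Polynomial.natDegree_prod_le _ _).trans (sum_le_sum fun j _ => ?_)
  refine (Polynomial.natDegree_sub_le _ _).trans (max_le (by simp) ?_)
  exact (Polynomial.natDegree_C_mul_le _ _).trans (Polynomial.natDegree_X_pow_le _)

end RecM

open RecM

theorem recS : StmtRec := by
  intro r hr m
  by_cases hm : m < 0
  · rw [if_neg hm.ne]
    exact sum_eq_zero fun s _ => by rw [Phz, if_neg (by omega), mul_zero]
  obtain ⟨n, rfl⟩ := Int.eq_ofNat_of_zero_le (not_lt.1 hm)
  have h := congrArg (PowerSeries.coeff n) (inv hr)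
  rw [PowerSeries.coeff_mul, PowerSeries.coeff_one,
    Finset.Nat.sum_antidiagonal_eq_sum_range_succ_mk] at h
  rw [sum_subset (range_subset_range.2 (by omega : r.sum + 1 ≤ n + r.sum + 1)),
    ← sum_subset (range_subset_range.2 (by omega : n.succ ≤ n + r.sum + 1))]
  · simp only [Int.natCast_eq_zero]
    rw [← h]
    refine sum_congr rfl fun s hs => ?_
    have := mem_range.1 hs
    rw [Polynomial.coeff_coe, PowerSeries.coeff_mk, Phz, if_pos (by omega)]
    congr 2
    omega
  · intro s _ hs
    rw [Phz, if_neg (by simp at hs; omega), mul_zero]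
  · intro s _ hs
    rw [Polynomial.coeff_eq_zero_of_natDegree_lt, zero_mul]
    have := natDegree_Qp r
    simp at hs
    omega

theorem RecM.coeff_zero_Qp {r : List ℕ} (hr : ∀ a ∈ r, 1 ≤ a) : (Qp r).coeff 0 = 1 := by
  rw [Qp, Polynomial.coeff_zero_prod]
  refine prod_eq_one fun j _ => ?_
  have := UFM.get_pos hr j
  rw [Polynomial.coeff_sub, Polynomial.coeff_C_mul_X_pow, if_neg (by omega)]
  simp

theorem van (hJ : StmtJT) (hR : StmtRec) : StmtVan := by
  intro n r hr hs b e hn he
  rw [hJ n r hr b e]
  suffices h : (Matrix.of fun i j : Fin n => Phz r ((e i : ℤ) - (del n j : ℤ))).det = 0 by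
    rw [h, coeff_zero]
  by_contra hdet
  have li := (linearIndependent_rows_of_det_ne_zero hdet).comp (Fin.castLE hn)
    (Fin.castLE_injective hn)
  let a : Fin 7 → ℤ := fun i => (e (Fin.castLE hn i) : ℤ) - (n - 1)
  have nli : ¬ LinearIndependent (MvPolynomial (Fin r.length) ℤ)
      fun (i : Fin 7) (j : Fin 6) => Phz r (a i + (j : ℕ)) := fun h => by
    simpa using h.fintype_card_le_finrank
  obtain ⟨g, hg, i0, hi0⟩ := Fintype.not_linearIndependent_iff.1 nli
  have key : ∀ j : ℕ, ∑ i, g i * Phz r (a i + j) = 0 := by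
    intro j
    induction j using Nat.strong_induction_on with
    | _ j ih =>
    by_cases hj : j < 6
    · simpa using congrFun hg ⟨j, hj⟩
    have h0 : ∑ s ∈ range (6 + 1), (Qp r).coeff s * ∑ i, g i * Phz r (a i + j - s) = 0 := by
      simp only [mul_sum]
      rw [sum_comm]
      refine sum_eq_zero fun i _ => ?_
      have h1 := hR r hr (a i + j)
      have h2 := he (Fin.castLE hn i) (by have := i.2; simp; omega)
      rw [hs, if_neg (by simp only [a]; omega)] at h1
      rw [← mul_zero (g i), ← h1, mul_sum]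
      exact sum_congr rfl fun s _ => by ring
    rw [sum_range_succ', sum_eq_zero, coeff_zero_Qp hr] at h0
    · simpa using h0
    · intro s hs'
      have := mem_range.1 hs'
      have h3 := ih (j - (s + 1)) (by omega)
      rw [Nat.cast_sub (by omega)] at h3
      simp only [← add_sub_assoc] at h3
      rw [h3, mul_zero]
  refine hi0 (Fintype.linearIndependent_iff.1 li g ?_ i0)
  ext1 j
  rw [Finset.sum_apply, Pi.zero_apply, ← key j]
  refine sum_congr rfl fun i _ => ?_
  simp only [Function.comp, Pi.smul_apply, smul_eq_mul, of_apply, a, del]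
  congr 2
  have := j.2
  omega

end Vale.Agent.P181.S
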