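import Vale.Agent.P181.S.Defs

namespace Vale.Agent.P181.S

open Finset MvPolynomial Matrix

def StmtOk : Prop :=
  (∀ n, (std n).Ok) ∧
  ∀ (n : ℕ) (ι : Type) [Fintype ι] [DecidableEq ι] (G : GD n ι) (k : ℕ), G.Ok → (G.sym k).Ok

/-- cyclic submodules generated by highest weight vectors -/
def StmtCyc : Prop :=
  ∀ (n : ℕ) (ι : Type) [Fintype ι] [DecidableEq ι] (G : GD n ι), G.Ok →
    (∀ i j x y, G.B (G.E i j *ᵥ x) y = G.B x (G.E j i *ᵥ y)) ∧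
    (∀ l, ∀ v ∈ G.HW l, ∀ i j, ∀ x ∈ G.cyc v, G.E i j *ᵥ x ∈ G.cyc v) ∧
    (∀ l, ∀ v ∈ G.HW l, v ≠ 0 → Antitone l) ∧
    (∀ N : Submodule ℝ (ι → ℝ), (∀ i j, ∀ x ∈ N, G.E i j *ᵥ x ∈ N) → (∀ l, G.HW l ≤ N) → N = ⊤) ∧
    (∀ l l', l ≠ l' → ∀ v ∈ G.HW l, ∀ v' ∈ G.HW l', ∀ x ∈ G.cyc v, ∀ y ∈ G.cyc v', G.B x y = 0)

/-- isotypic projections -/
def StmtDec : Prop :=
  ∀ (n : ℕ) (ι : Type) [Fintype ι] [DecidableEq ι] (G : GD n ι), G.Ok →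
    ∃ (Λ : Finset (Fin n → ℕ)) (π : (Fin n → ℕ) → Matrix ι ι ℝ),
      ∑ l ∈ Λ, π l = 1 ∧ (∀ l, l ∉ Λ → G.hw l = 0) ∧
      ∀ l ∈ Λ, Antitone l ∧ (∀ i j, π l * G.E i j = G.E i j * π l) ∧
        π l * G.cas = casv l • π l ∧
        (∀ a, π l a a ≠ 0 → ∑ i, G.wt a i = ∑ i, l i ∧ ∀ τ : Fin n → ℝ, StrictAnti τ →
          (G.wt a = l ∨ ∑ i, τ i * G.wt a i < ∑ i, τ i * l i)) ∧
        ∑ a ∈ univ.filter (fun a => G.wt a = l), π l a a = G.hw l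

/-- Freudenthal's identity in Laplace form -/
def StmtLap : Prop :=
  ∀ (n : ℕ) (ι : Type) [Fintype ι] [DecidableEq ι] (G : GD n ι), G.Ok →
    ∀ (π : Matrix ι ι ℝ) (c : ℝ) (N : ℕ), (∀ i j, π * G.E i j = G.E i j * π) →
      π * G.cas = c • π → (∀ a, π a a ≠ 0 → ∑ i, G.wt a i = N) →
      ∀ e : Fin n → ℕ,
        coeff (fs e) (MvPolynomial.map (Int.castRingHom ℝ) (ad n) *
          ∑ a, monomial (fs (G.wt a)) (π a a)) ≠ 0 →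
        ∑ i, (e i : ℝ) ^ 2 = ∑ i, (del n i : ℝ) ^ 2 + c + ((n : ℝ) - 1) * N

def StmtWeyl : Prop :=
  ∀ (n : ℕ) (ι : Type) [Fintype ι] [DecidableEq ι] (G : GD n ι), G.Ok →
    ∀ l : Fin n → ℕ, Antitone l → (G.hw l : ℤ) = coeff (fs fun i => l i + del n i) (ad n * G.ch)

def StmtInj : Prop :=
  ∀ (n : ℕ) (ι κ : Type) [Fintype ι] [DecidableEq ι] [Fintype κ] [DecidableEq κ]
    (G : GD n ι) (G' : GD n κ), G.Ok → G'.Ok → (∀ l, G.hw l ≤ G'.hw l) →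
    ∃ (Φ : Matrix κ ι ℝ) (Ψ : Matrix ι κ ℝ), Ψ * Φ = 1 ∧ ∀ i j, Φ * G.E i j = G'.E i j * Φ

def StmtLink : Prop :=
  ∀ (n : ℕ) (ι : Type) [Fintype ι] [DecidableEq ι] (G : GD n ι) (M : Type) [AddCommGroup M]
    [Module ℂ M] (b : Module.Basis ι ℂ M) (Y : Fin n → Fin n → M →ₗ[ℂ] M) (k : ℕ), Link G b Y →
    ∃ (b' : Module.Basis (Ix ι k) ℂ (SymP k M)) (Y' : Fin n → Fin n → SymP k M →ₗ[ℂ] SymP k M),
      Link (G.sym k) b' Y' ∧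
      ∀ i j (m : Fin k → M), Y' i j (sprod m) = ∑ t, sprod (Function.update m t (Y i j (m t)))

/-- infinitesimal equivariance gives equivariance -/
def StmtExp : Prop :=
  ∀ (n : ℕ) (V : Type) [AddCommGroup V] [Module ℂ V] (e : Module.Basis (Fin n) ℂ V)
    (σ τ : Type) [Fintype σ] [DecidableEq σ] [Fintype τ] [DecidableEq τ]
    (M N : Type) [AddCommGroup M] [Module ℂ M] [AddCommGroup N] [Module ℂ N]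
    (μ : MultilinearMap ℂ (fun _ : σ => V) M) (μ' : MultilinearMap ℂ (fun _ : τ => V) N)
    (Y : Fin n → Fin n → M →ₗ[ℂ] M) (Y' : Fin n → Fin n → N →ₗ[ℂ] N) (Φ : M →ₗ[ℂ] N),
    Submodule.span ℂ (Set.range μ) = ⊤ → Submodule.span ℂ (Set.range μ') = ⊤ →
    (∀ i j v, Y i j (μ v) = ∑ t, μ (Function.update v t (e.coord j (v t) • e i))) →
    (∀ i j v, Y' i j (μ' v) = ∑ t, μ' (Function.update v t (e.coord j (v t) • e i))) →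
    (∀ i j x, Φ (Y i j x) = Y' i j (Φ x)) →
    ∀ (g : V →ₗ[ℂ] V) (ρ : M →ₗ[ℂ] M) (ρ' : N →ₗ[ℂ] N),
      (∀ v, ρ (μ v) = μ fun t => g (v t)) → (∀ v, ρ' (μ' v) = μ' fun t => g (v t)) →
      (∀ g' : V →ₗ[ℂ] V, ∃ (ρ₁ : M →ₗ[ℂ] M) (ρ₂ : N →ₗ[ℂ] N),
        (∀ v, ρ₁ (μ v) = μ fun t => g' (v t)) ∧ ∀ v, ρ₂ (μ' v) = μ' fun t => g' (v t)) →
      ∀ x, Φ (ρ x) = ρ' (Φ x)

/-- multiplicity inequalities give an equivariant injection -/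
def StmtEmb : Prop :=
  ∀ (a b : ℕ) (V : Type) [AddCommGroup V] [Module ℂ V] [FiniteDimensional ℂ V],
    (∀ l, mult (Module.finrank ℂ V) a b l ≤ mult (Module.finrank ℂ V) b a l) →
    ∃ Φ : SymP a (SymP b V) →ₗ[ℂ] SymP b (SymP a V), Function.Injective Φ ∧ IsEquivariant Φ

/-- highest weight vectors as polynomials -/
def StmtPoly : Prop :=
  ∀ (n : ℕ) (ι : Type) [Fintype ι] [DecidableEq ι] (G : GD n ι) (k : ℕ) (l : Fin n → ℕ),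
    ∃ θ : (Ix ι k → ℝ) →ₗ[ℝ] MvPolynomial ι ℝ, Function.Injective θ ∧
      (∀ f, f ∈ LinearMap.range θ ↔ f.IsHomogeneous k) ∧
      (∀ i j v, θ ((G.sym k).E i j *ᵥ v) = G.der i j (θ v)) ∧
      ∀ f, f ∈ ((G.sym k).HW l).map θ ↔ f.IsHomogeneous k ∧
        (∀ i, G.der i i f = (l i : ℝ) • f) ∧ ∀ i j, i < j → G.der i j f = 0

def StmtSemi : Prop :=
  ∀ (n k k' d : ℕ) (l m : Fin n → ℕ), mult n k' d m ≠ 0 →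
    mult n k d l ≤ mult n (k + k') d fun i => l i + m i

def StmtMono : Prop :=
  ∀ (n k d : ℕ) (l : Fin (n + 1) → ℕ),
    mult (n + 1) k d l ≤ mult (n + 1) k (d + 1) fun i => l i + if i = 0 then k else 0

def StmtNewt : Prop :=
  ∀ n d : ℕ, H n 0 d = 1 ∧
    ∀ k : ℕ, (k : MvPolynomial (Fin n) ℤ) * H n k d = ∑ j ∈ Icc 1 k, hp n d j * H n (k - j) d

/-- antisymmetry, homogeneity, and the value at level zero -/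
def StmtAnti : Prop :=
  (∀ (n k d : ℕ) (e : Fin n → ℕ) (i j : Fin n), i ≠ j →
    A n k d (fun t => e (Equiv.swap i j t)) = -A n k d e) ∧
  (∀ (n k d : ℕ) (e : Fin n → ℕ), A n k d e ≠ 0 → ∑ i, e i = k * d + ∑ i, del n i) ∧
  ∀ d e1 e2 e3 e4 e5 e6 : ℕ, A 6 0 d ![e1, e2, e3, e4, e5, e6] = a0 e1 e2 e3 e4 e5 e6

/-- the facts about `al` used by the checker -/
def StmtAl : Prop :=
  (∀ d e2 e3 e4 e5 e6 : ℕ, al 0 d e2 e3 e4 e5 e6 =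
    if e2 + e3 + e4 + e5 + e6 ≤ 15 then a0 (15 - (e2 + e3 + e4 + e5 + e6)) e2 e3 e4 e5 e6 else 0) ∧
  (∀ k d e2 e3 e4 e5 e6 : ℕ, al k d e2 e3 e5 e4 e6 = -al k d e2 e3 e4 e5 e6) ∧
  (∀ k d e2 e3 e4 e5 e6 : ℕ, al k d e2 e3 e4 e6 e5 = -al k d e2 e3 e4 e5 e6) ∧
  (∀ k d e2 e3 e4 e5 e6 : ℕ, (k : ℤ) * al k d e2 e3 e4 e5 e6 =
    ∑ j ∈ Icc 1 k, ∑ i ∈ range (d + 1), ∑ m6 ∈ range (i + 1), ∑ m5 ∈ range (i - m6 + 1),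
      ∑ m3 ∈ range (d - i + 1), ∑ m2 ∈ range (d - i - m3 + 1),
        if j * m2 ≤ e2 ∧ j * m3 ≤ e3 ∧ j * (i - m6 - m5) ≤ e4 ∧ j * m5 ≤ e5 ∧ j * m6 ≤ e6 then
          al (k - j) d (e2 - j * m2) (e3 - j * m3) (e4 - j * (i - m6 - m5)) (e5 - j * m5)
            (e6 - j * m6) else 0) ∧
  ∀ k d l1 l2 l3 l4 l5 l6 : ℕ, l2 ≤ l1 → l3 ≤ l2 → l4 ≤ l3 → l5 ≤ l4 → l6 ≤ l5 →
    (mult 6 k d ![l1, l2, l3, l4, l5, l6] : ℤ) =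
      if l1 + l2 + l3 + l4 + l5 + l6 = k * d then al k d (l2 + 4) (l3 + 3) (l4 + 2) (l5 + 1) l6
      else 0

def StmtStab : Prop :=
  ∀ (n k d : ℕ) (l : Fin n → ℕ),
    A (n + 1) k d (fun i => (Fin.snoc l 0 : Fin (n + 1) → ℕ) i + del (n + 1) i) =
      A n k d fun i => l i + del n i

def StmtCls : Prop :=
  ∀ (n b : ℕ) (e : Fin n → ℕ), 720 * A n 6 b e = (cls.map fun p => (p.1 : ℤ) * Dq n p.2 b e).sum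

/-- determinantal formula -/
def StmtJT : Prop :=
  ∀ (n : ℕ) (r : List ℕ), (∀ a ∈ r, 1 ≤ a) → ∀ (b : ℕ) (e : Fin n → ℕ),
    Dq n r b e = coeff (fs fun _ => b)
      (Matrix.of fun i j : Fin n => Phz r ((e i : ℤ) - (del n j : ℤ))).det

/-- the linear recurrence of `Phz` -/
def StmtRec : Prop :=
  ∀ (r : List ℕ), (∀ a ∈ r, 1 ≤ a) → ∀ m : ℤ,
    ∑ s ∈ range (r.sum + 1), (Qp r).coeff s * Phz r (m - s) = if m = 0 then 1 else 0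

def StmtDual : Prop :=
  ∀ (r : List ℕ), (∀ a ∈ r, 1 ≤ a) → r.sum = 6 → ∀ (b k : ℕ), Even k → b ≤ k →
    ∀ e : Fin 6 → ℕ, (∀ i, e i ≤ k + 5) →
      Dq 6 r b e = Dq 6 r (k - b) fun i => k + 5 - e (Fin.rev i)

def StmtVan : Prop :=
  ∀ (n : ℕ) (r : List ℕ), (∀ a ∈ r, 1 ≤ a) → r.sum = 6 → ∀ (b : ℕ) (e : Fin n → ℕ), 7 ≤ n →
    (∀ i : Fin n, (i : ℕ) ≤ 6 → n ≤ e i + 6) → Dq n r b e = 0

def StmtUF : Prop :=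
  ∀ (r : List ℕ), (∀ a ∈ r, 1 ≤ a) → r.sum = 6 → ∀ (b : ℕ) (e : Fin 6 → ℕ),
    ∑ i, e i = 6 * b + 15 → ∑ i : Fin 5, e i.succ ≤ b → Dq 6 r b e = D5 r fun i => e i.succ

/-- the two upper bounds for the multiplicities in `Sym⁶(Symᵇ)` -/
def StmtUB : Prop :=
  (∀ b l1 l2 l3 l4 l5 l6 : ℕ, l2 ≤ l1 → l3 ≤ l2 → l4 ≤ l3 → l5 ≤ l4 → l6 ≤ l5 →
    l1 + l2 + l3 + l4 + l5 + l6 = 6 * b →
    720 * (mult 6 6 b ![l1, l2, l3, l4, l5, l6] : ℤ) ≤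
      UU ![l2 + 4, l3 + 3, l4 + 2, l5 + 1, l6]) ∧
  ∀ b k l1 l2 l3 l4 l5 l6 : ℕ, l2 ≤ l1 → l3 ≤ l2 → l4 ≤ l3 → l5 ≤ l4 → l6 ≤ l5 →
    l1 + l2 + l3 + l4 + l5 + l6 = 6 * b → Even k → l1 ≤ k →
    720 * (mult 6 6 b ![l1, l2, l3, l4, l5, l6] : ℤ) ≤
      UU ![k - l5 + 4, k - l4 + 3, k - l3 + 2, k - l2 + 1, k - l1]

/-- reduction to six variables -/
def StmtRed : Prop :=
  ∀ b : ℕ, (∀ l1 l2 l3 l4 l5 l6 : ℕ, l2 ≤ l1 → l3 ≤ l2 → l4 ≤ l3 → l5 ≤ l4 → l6 ≤ l5 →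
      l1 + l2 + l3 + l4 + l5 + l6 = 6 * b →
      mult 6 6 b ![l1, l2, l3, l4, l5, l6] ≤ mult 6 b 6 ![l1, l2, l3, l4, l5, l6]) →
    ∀ (n : ℕ) (l : Fin n → ℕ), mult n 6 b l ≤ mult n b 6 l

end Vale.Agent.P181.S
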